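import Vale.Agent.P197.Sx.SDefs
import Vale.Agent.P197.Char
import Vale.Agent.P197.Strict5

namespace Vale.Agent.P197.Sx

open Equiv Finset

variable {n : ℕ}

noncomputable def kerForm {la mu nu : YoungDiagram} (K : ℕ → ℕ → ℕ → ℂ) :
    SV n la →ₗ[ℂ] SV n mu →ₗ[ℂ] SV n nu →ₗ[ℂ] ℂ :=
  ∑ w ∈ wset n la, ∑ w' ∈ wset n mu, ∑ v ∈ wset n nu,
    (evW n la w).smulRight ((evW n mu w').smulRight
      ((∏ p, K (w p) (w' p) (v p)) • evW n nu v))

theorem kerForm_apply {la mu nu : YoungDiagram} (K : ℕ → ℕ → ℕ → ℂ) (a : SV n la) (b : SV n mu)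
    (c : SV n nu) : kerForm K a b c =
      ∑ w ∈ wset n la, ∑ w' ∈ wset n mu, ∑ v ∈ wset n nu,
        a.1 w * (b.1 w' * ((∏ p, K (w p) (w' p) (v p)) * c.1 v)) := by
  unfold kerForm
  simp only [LinearMap.sum_apply]
  rfl

theorem sum_wset_comp (μ : YoungDiagram) (σ : Perm (Fin n)) (f : (Fin n → ℕ) → ℂ) :
    ∑ w ∈ wset n μ, f (w ∘ σ) = ∑ w ∈ wset n μ, f w := by
  refine Finset.sum_bij (fun w _ => w ∘ σ) ?_ ?_ ?_ ?_
  · intro w hw
    rw [mem_wset] at hw ⊢
    intro p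
    exact hw _
  · intro w _ w' _ h
    funext p
    have := congrFun h (σ.symm p)
    simpa using this
  · intro w hw
    rw [mem_wset] at hw
    refine ⟨w ∘ σ.symm, ?_, ?_⟩
    · rw [mem_wset]
      intro p
      exact hw _
    · funext p
      simp
  · intro w _
    rfl

theorem kerForm_invariant {la mu nu : YoungDiagram} (K : ℕ → ℕ → ℕ → ℂ) (σ : Perm (Fin n))
    (a : SV n la) (b : SV n mu) (c : SV n nu) :
    kerForm K (rep n la σ a) (rep n mu σ b) (rep n nu σ c) = kerForm K a b c := by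
  rw [kerForm_apply, kerForm_apply]
  have h1 : ∀ w, (rep n la σ a).1 w = a.1 (w ∘ σ) := fun w => wordRep_apply σ a.1 w
  have h2 : ∀ w, (rep n mu σ b).1 w = b.1 (w ∘ σ) := fun w => wordRep_apply σ b.1 w
  have h3 : ∀ w, (rep n nu σ c).1 w = c.1 (w ∘ σ) := fun w => wordRep_apply σ c.1 w
  simp_rw [h1, h2, h3]
  conv_rhs => rw [← sum_wset_comp la σ]
  refine Finset.sum_congr rfl fun w _ => ?_
  conv_rhs => rw [← sum_wset_comp mu σ]
  refine Finset.sum_congr rfl fun w' _ => ?_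
  conv_rhs => rw [← sum_wset_comp nu σ]
  refine Finset.sum_congr rfl fun v _ => ?_
  have h4 : ∏ p, K ((w ∘ σ) p) ((w' ∘ σ) p) ((v ∘ σ) p) = ∏ p, K (w p) (w' p) (v p) :=
    Equiv.prod_comp σ fun p => K (w p) (w' p) (v p)
  rw [h4]

theorem sum_polytabloid {μ : YoungDiagram} (t : Fin n ≃ μ.cells) (ψ : (Fin n → ℕ) → ℂ) :
    ∑ w ∈ wset n μ, polytabloid t w * ψ w =
      ∑ π ∈ colStab t, ((Perm.sign π : ℤ) : ℂ) * ψ (tabloid t ∘ π) := by
  have h1 : ∀ π ∈ colStab t, tabloid t ∘ π.symm ∈ wset n μ := by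
    intro π _
    rw [mem_wset]
    intro p
    rw [← YoungDiagram.mem_iff_lt_colLen]
    exact μ.up_left_mem le_rfl (Nat.zero_le _) (t (π.symm p)).2
  simp_rw [polytabloid_apply, Finset.sum_mul]
  rw [Finset.sum_comm]
  refine Finset.sum_bij (fun π _ => π⁻¹) (fun π hπ => inv_mem_colStab hπ) ?_ ?_ ?_
  · intro a _ b _ h
    exact inv_injective h
  · intro π hπ
    exact ⟨π⁻¹, inv_mem_colStab hπ, inv_inv π⟩
  · intro π hπ
    rw [Finset.sum_eq_single (tabloid t ∘ π.symm)]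
    · rw [if_pos rfl, map_inv, Int.units_inv_eq_self]
      rfl
    · intro w _ hw
      rw [if_neg (fun h => hw h.symm), zero_mul]
    · intro h
      exact absurd (h1 π hπ) h

theorem cst_eq_colStab {μ : YoungDiagram} (t : Fin n ≃ μ.cells) : cst t = colStab t := by
  ext π
  unfold cst colStab
  simp only [Finset.mem_filter]

noncomputable def ptS {μ : YoungDiagram} (t : Fin n ≃ μ.cells) : SV n μ :=
  ⟨polytabloid t, Submodule.subset_span ⟨t, rfl⟩⟩

theorem kerForm_polytabloid {la mu nu : YoungDiagram} (K : ℕ → ℕ → ℕ → ℂ)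
    (a : Fin n ≃ la.cells) (b : Fin n ≃ mu.cells) (c : Fin n ≃ nu.cells) :
    kerForm K (ptS a) (ptS b) (ptS c) = val K a b c := by
  rw [kerForm_apply]
  have h1 : ∀ w w' : Fin n → ℕ, ∑ v ∈ wset n nu, polytabloid a w * (polytabloid b w' *
      ((∏ p, K (w p) (w' p) (v p)) * polytabloid c v)) =
      polytabloid a w * (polytabloid b w' * ∑ τ ∈ colStab c, ((Perm.sign τ : ℤ) : ℂ) *
        ∏ p, K (w p) (w' p) (tabloid c (τ p))) := by
    intro w w'
    rw [← Finset.mul_sum, ← Finset.mul_sum]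
    congr 2
    refine Eq.trans ?_ (sum_polytabloid c (fun v => ∏ p, K (w p) (w' p) (v p)))
    exact Finset.sum_congr rfl fun v _ => mul_comm _ _
  have h2 : ∀ w : Fin n → ℕ, ∑ w' ∈ wset n mu, ∑ v ∈ wset n nu, polytabloid a w *
      (polytabloid b w' * ((∏ p, K (w p) (w' p) (v p)) * polytabloid c v)) =
      polytabloid a w * ∑ σ ∈ colStab b, ((Perm.sign σ : ℤ) : ℂ) *
        ∑ τ ∈ colStab c, ((Perm.sign τ : ℤ) : ℂ) *
        ∏ p, K (w p) (tabloid b (σ p)) (tabloid c (τ p)) := by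
    intro w
    refine Eq.trans ?_ (congrArg (fun z => polytabloid a w * z)
      (sum_polytabloid b (fun w' => ∑ τ ∈ colStab c, ((Perm.sign τ : ℤ) : ℂ) *
        ∏ p, K (w p) (w' p) (tabloid c (τ p)))))
    simp only [Finset.mul_sum (s := wset n mu)]
    exact Finset.sum_congr rfl fun w' _ => h1 w w'
  have h3 : ∑ w ∈ wset n la, ∑ w' ∈ wset n mu, ∑ v ∈ wset n nu, polytabloid a w *
      (polytabloid b w' * ((∏ p, K (w p) (w' p) (v p)) * polytabloid c v)) =
      ∑ π ∈ colStab a, ((Perm.sign π : ℤ) : ℂ) * ∑ σ ∈ colStab b, ((Perm.sign σ : ℤ) : ℂ) *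
        ∑ τ ∈ colStab c, ((Perm.sign τ : ℤ) : ℂ) *
        ∏ p, K (tabloid a (π p)) (tabloid b (σ p)) (tabloid c (τ p)) := by
    refine Eq.trans ?_ (sum_polytabloid a (fun w => ∑ σ ∈ colStab b,
      ((Perm.sign σ : ℤ) : ℂ) * ∑ τ ∈ colStab c, ((Perm.sign τ : ℤ) : ℂ) *
        ∏ p, K (w p) (tabloid b (σ p)) (tabloid c (τ p))))
    exact Finset.sum_congr rfl fun w _ => h2 w
  refine h3.trans ?_
  unfold val dd
  simp only [cst_eq_colStab, Finset.mul_sum]
  have h4 : ∀ π ∈ colStab a, ∑ σ ∈ colStab b, ∑ τ ∈ colStab c,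
      ((Perm.sign π : ℤ) : ℂ) * (((Perm.sign σ : ℤ) : ℂ) * (((Perm.sign τ : ℤ) : ℂ) *
        ∏ p, K (tabloid a (π p)) (tabloid b (σ p)) (tabloid c (τ p)))) =
      ∑ τ ∈ colStab c, ∑ σ ∈ colStab b, ((Perm.sign τ : ℤ) : ℂ) *
        (((Perm.sign π : ℤ) : ℂ) * ((Perm.sign σ : ℤ) : ℂ) *
        ∏ p, K (rw' a (π p)) (rw' b (σ p)) (rw' c (τ p))) := by
    intro π _
    rw [Finset.sum_comm]
    refine Finset.sum_congr rfl fun τ _ => Finset.sum_congr rfl fun σ _ => ?_
    change _ = ((Perm.sign τ : ℤ) : ℂ) * (((Perm.sign π : ℤ) : ℂ) * ((Perm.sign σ : ℤ) : ℂ) *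
        ∏ p, K (tabloid a (π p)) (tabloid b (σ p)) (tabloid c (τ p)))
    ring
  rw [Finset.sum_congr rfl h4, Finset.sum_comm]

theorem kronecker_pos_of_val {n : ℕ} {la mu nu : YoungDiagram} (K : ℕ → ℕ → ℕ → ℂ)
    (a : Fin n ≃ la.cells) (b : Fin n ≃ mu.cells) (c : Fin n ≃ nu.cells)
    (h : val K a b c ≠ 0) : 0 < kronecker n la mu nu := by
  apply kronecker_pos_of_form n la mu nu (kerForm K)
  · intro h0
    apply h
    rw [← kerForm_polytabloid, h0]
    rfl
  · intro σ a b c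
    exact kerForm_invariant K σ a b c

theorem val_trans {X Y : Type*} [Fintype X] [DecidableEq X] [Fintype Y] [DecidableEq Y]
    {la mu nu : YoungDiagram} (K : ℕ → ℕ → ℕ → ℂ) (e : Y ≃ X) (a : X ≃ la.cells)
    (b : X ≃ mu.cells) (c : X ≃ nu.cells) :
    val K (e.trans a) (e.trans b) (e.trans c) = val K a b c := by
  have hmem : ∀ {μ : YoungDiagram} (t : X ≃ μ.cells) (π : Perm Y),
      π ∈ cst (e.trans t) ↔ e.permCongr π ∈ cst t := by
    intro μ t π
    unfold cst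
    rw [Finset.mem_filter, Finset.mem_filter]
    simp only [Finset.mem_univ, true_and]
    constructor
    · intro h p
      have := h (e.symm p)
      simpa [Equiv.permCongr_apply] using this
    · intro h p
      have := h (e p)
      simpa [Equiv.permCongr_apply] using this
  have hbij : ∀ {μ : YoungDiagram} (t : X ≃ μ.cells) (f : Perm Y → ℂ) (g : Perm X → ℂ),
      (∀ π, f π = g (e.permCongr π)) → ∑ π ∈ cst (e.trans t), f π = ∑ π ∈ cst t, g π := by
    intro μ t f g hfg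
    refine Finset.sum_bij (fun π _ => e.permCongr π) (fun π hπ => (hmem t π).mp hπ) ?_ ?_
      (fun π _ => hfg π)
    · intro a _ b _ h
      exact e.permCongr.injective h
    · intro π hπ
      refine ⟨e.permCongr.symm π, ?_, Equiv.apply_symm_apply _ _⟩
      rw [hmem, Equiv.apply_symm_apply]
      exact hπ
  unfold val dd
  apply hbij c
  intro τ
  rw [Perm.sign_permCongr]
  congr 1
  apply hbij a
  intro π
  apply hbij b
  intro σ
  rw [Perm.sign_permCongr, Perm.sign_permCongr]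
  congr 1
  rw [← Equiv.prod_comp e]
  refine Finset.prod_congr rfl fun p _ => ?_
  simp [rw', Equiv.permCongr_apply]

theorem kronecker_pos_of_good {m : ℕ} {ν : YoungDiagram} (h : Good m ν) :
    0 < kronecker (m * (m + 1) / 2) (staircase m) (staircase m) ν := by
  obtain ⟨K, c, hK⟩ := h
  have hcard : Fintype.card (Box m) = m * (m + 1) / 2 := by
    rw [Fintype.card_coe]
    exact card_staircase m
  let e : Fin (m * (m + 1) / 2) ≃ Box m := (Fintype.equivFinOfCardEq hcard).symm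
  apply kronecker_pos_of_val K (e.trans (swp m)) (e.trans (Equiv.refl _)) (e.trans c)
  rw [val_trans]
  exact hK

end Vale.Agent.P197.Sx
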