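import Vale.Agent.P197.Sx.SDefs

/-! Module D: the path value for the split quaternion matrices `U4`. -/

namespace Vale.Agent.P197.Sx

open Equiv Finset Matrix

set_option linter.unusedSimpArgs false
set_option linter.unreachableTactic false
set_option linter.unusedTactic false

/-! ### Nonvanishing -/

/-- the matrix `g` -/
def pathG : Matrix (Fin 2) (Fin 2) ℂ := !![1, 1; 1, -1]

/-- the signed permutation matrices -/
def pathP (v : ℕ) : Matrix (Fin 2) (Fin 2) ℂ :=
  if v % 4 = 0 then !![1, 0; 0, 1]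
  else if v % 4 = 1 then !![0, 1; -1, 0]
  else if v % 4 = 2 then !![1, 0; 0, -1]
  else !![0, 1; 1, 0]

theorem mod4_cases (v : ℕ) : v % 4 = 0 ∨ v % 4 = 1 ∨ v % 4 = 2 ∨ v % 4 = 3 := by omega

theorem path_base (a : ℕ) :
    ∃ (s : ℂ) (v : ℕ), s ≠ 0 ∧ (U4 a).transpose = s • (pathG * pathP v) := by
  rcases mod4_cases a with h | h | h | h
  · exact ⟨1, 0, one_ne_zero, by
      ext i j
      fin_cases i <;> fin_cases j <;>
        simp [U4, h, pathG, pathP, Matrix.mul_apply, Fin.sum_univ_two]⟩
  · exact ⟨-1, 1, (by norm_num), by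
      ext i j
      fin_cases i <;> fin_cases j <;>
        simp [U4, h, pathG, pathP, Matrix.mul_apply, Fin.sum_univ_two]⟩
  · exact ⟨1, 2, one_ne_zero, by
      ext i j
      fin_cases i <;> fin_cases j <;>
        simp [U4, h, pathG, pathP, Matrix.mul_apply, Fin.sum_univ_two]⟩
  · exact ⟨1, 3, one_ne_zero, by
      ext i j
      fin_cases i <;> fin_cases j <;>
        simp [U4, h, pathG, pathP, Matrix.mul_apply, Fin.sum_univ_two]⟩

theorem path_even (v a : ℕ) : ∃ (s : ℂ) (w : ℕ), s ≠ 0 ∧
    pathG * pathP v * epsV * U4 a = s • (pathG * pathP w * pathG) := by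
  rcases mod4_cases v with hv | hv | hv | hv
  · rcases mod4_cases a with h | h | h | h
    · exact ⟨-1, 1, (by norm_num), by
        ext i j
        fin_cases i <;> fin_cases j <;>
          simp [U4, h, hv, pathG, pathP, epsV, epsW, Matrix.mul_apply, Fin.sum_univ_two] <;> norm_num⟩
    · exact ⟨1, 0, one_ne_zero, by
        ext i j
        fin_cases i <;> fin_cases j <;>
          simp [U4, h, hv, pathG, pathP, epsV, epsW, Matrix.mul_apply, Fin.sum_univ_two] <;> norm_num⟩
    · exact ⟨1, 3, one_ne_zero, by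
        ext i j
        fin_cases i <;> fin_cases j <;>
          simp [U4, h, hv, pathG, pathP, epsV, epsW, Matrix.mul_apply, Fin.sum_univ_two] <;> norm_num⟩
    · exact ⟨-1, 2, (by norm_num), by
        ext i j
        fin_cases i <;> fin_cases j <;>
          simp [U4, h, hv, pathG, pathP, epsV, epsW, Matrix.mul_apply, Fin.sum_univ_two] <;> norm_num⟩
  · rcases mod4_cases a with h | h | h | h
    · exact ⟨1, 0, one_ne_zero, by
        ext i j
        fin_cases i <;> fin_cases j <;>
          simp [U4, h, hv, pathG, pathP, epsV, epsW, Matrix.mul_apply, Fin.sum_univ_two] <;> norm_num⟩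
    · exact ⟨1, 1, one_ne_zero, by
        ext i j
        fin_cases i <;> fin_cases j <;>
          simp [U4, h, hv, pathG, pathP, epsV, epsW, Matrix.mul_apply, Fin.sum_univ_two] <;> norm_num⟩
    · exact ⟨1, 2, one_ne_zero, by
        ext i j
        fin_cases i <;> fin_cases j <;>
          simp [U4, h, hv, pathG, pathP, epsV, epsW, Matrix.mul_apply, Fin.sum_univ_two] <;> norm_num⟩
    · exact ⟨1, 3, one_ne_zero, by
        ext i j
        fin_cases i <;> fin_cases j <;>
          simp [U4, h, hv, pathG, pathP, epsV, epsW, Matrix.mul_apply, Fin.sum_univ_two] <;> norm_num⟩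
  · rcases mod4_cases a with h | h | h | h
    · exact ⟨-1, 3, (by norm_num), by
        ext i j
        fin_cases i <;> fin_cases j <;>
          simp [U4, h, hv, pathG, pathP, epsV, epsW, Matrix.mul_apply, Fin.sum_univ_two] <;> norm_num⟩
    · exact ⟨1, 2, one_ne_zero, by
        ext i j
        fin_cases i <;> fin_cases j <;>
          simp [U4, h, hv, pathG, pathP, epsV, epsW, Matrix.mul_apply, Fin.sum_univ_two] <;> norm_num⟩
    · exact ⟨1, 1, one_ne_zero, by
        ext i j
        fin_cases i <;> fin_cases j <;>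
          simp [U4, h, hv, pathG, pathP, epsV, epsW, Matrix.mul_apply, Fin.sum_univ_two] <;> norm_num⟩
    · exact ⟨-1, 0, (by norm_num), by
        ext i j
        fin_cases i <;> fin_cases j <;>
          simp [U4, h, hv, pathG, pathP, epsV, epsW, Matrix.mul_apply, Fin.sum_univ_two] <;> norm_num⟩
  · rcases mod4_cases a with h | h | h | h
    · exact ⟨1, 2, one_ne_zero, by
        ext i j
        fin_cases i <;> fin_cases j <;>
          simp [U4, h, hv, pathG, pathP, epsV, epsW, Matrix.mul_apply, Fin.sum_univ_two] <;> norm_num⟩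
    · exact ⟨1, 3, one_ne_zero, by
        ext i j
        fin_cases i <;> fin_cases j <;>
          simp [U4, h, hv, pathG, pathP, epsV, epsW, Matrix.mul_apply, Fin.sum_univ_two] <;> norm_num⟩
    · exact ⟨1, 0, one_ne_zero, by
        ext i j
        fin_cases i <;> fin_cases j <;>
          simp [U4, h, hv, pathG, pathP, epsV, epsW, Matrix.mul_apply, Fin.sum_univ_two] <;> norm_num⟩
    · exact ⟨1, 1, one_ne_zero, by
        ext i j
        fin_cases i <;> fin_cases j <;>
          simp [U4, h, hv, pathG, pathP, epsV, epsW, Matrix.mul_apply, Fin.sum_univ_two] <;> norm_num⟩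

theorem path_odd (v a : ℕ) : ∃ (s : ℂ) (w : ℕ), s ≠ 0 ∧
    pathG * pathP v * pathG * epsW * (U4 a).transpose = s • (pathG * pathP w) := by
  rcases mod4_cases v with hv | hv | hv | hv
  · rcases mod4_cases a with h | h | h | h
    · exact ⟨-2, 1, (by norm_num), by
        ext i j
        fin_cases i <;> fin_cases j <;>
          simp [U4, h, hv, pathG, pathP, epsV, epsW, Matrix.mul_apply, Fin.sum_univ_two] <;> norm_num⟩
    · exact ⟨-2, 0, (by norm_num), by
        ext i j
        fin_cases i <;> fin_cases j <;>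
          simp [U4, h, hv, pathG, pathP, epsV, epsW, Matrix.mul_apply, Fin.sum_univ_two] <;> norm_num⟩
    · exact ⟨2, 3, two_ne_zero, by
        ext i j
        fin_cases i <;> fin_cases j <;>
          simp [U4, h, hv, pathG, pathP, epsV, epsW, Matrix.mul_apply, Fin.sum_univ_two] <;> norm_num⟩
    · exact ⟨-2, 2, (by norm_num), by
        ext i j
        fin_cases i <;> fin_cases j <;>
          simp [U4, h, hv, pathG, pathP, epsV, epsW, Matrix.mul_apply, Fin.sum_univ_two] <;> norm_num⟩
  · rcases mod4_cases a with h | h | h | h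
    · exact ⟨2, 0, two_ne_zero, by
        ext i j
        fin_cases i <;> fin_cases j <;>
          simp [U4, h, hv, pathG, pathP, epsV, epsW, Matrix.mul_apply, Fin.sum_univ_two] <;> norm_num⟩
    · exact ⟨-2, 1, (by norm_num), by
        ext i j
        fin_cases i <;> fin_cases j <;>
          simp [U4, h, hv, pathG, pathP, epsV, epsW, Matrix.mul_apply, Fin.sum_univ_two] <;> norm_num⟩
    · exact ⟨2, 2, two_ne_zero, by
        ext i j
        fin_cases i <;> fin_cases j <;>
          simp [U4, h, hv, pathG, pathP, epsV, epsW, Matrix.mul_apply, Fin.sum_univ_two] <;> norm_num⟩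
    · exact ⟨2, 3, two_ne_zero, by
        ext i j
        fin_cases i <;> fin_cases j <;>
          simp [U4, h, hv, pathG, pathP, epsV, epsW, Matrix.mul_apply, Fin.sum_univ_two] <;> norm_num⟩
  · rcases mod4_cases a with h | h | h | h
    · exact ⟨-2, 3, (by norm_num), by
        ext i j
        fin_cases i <;> fin_cases j <;>
          simp [U4, h, hv, pathG, pathP, epsV, epsW, Matrix.mul_apply, Fin.sum_univ_two] <;> norm_num⟩
    · exact ⟨-2, 2, (by norm_num), by
        ext i j
        fin_cases i <;> fin_cases j <;>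
          simp [U4, h, hv, pathG, pathP, epsV, epsW, Matrix.mul_apply, Fin.sum_univ_two] <;> norm_num⟩
    · exact ⟨2, 1, two_ne_zero, by
        ext i j
        fin_cases i <;> fin_cases j <;>
          simp [U4, h, hv, pathG, pathP, epsV, epsW, Matrix.mul_apply, Fin.sum_univ_two] <;> norm_num⟩
    · exact ⟨-2, 0, (by norm_num), by
        ext i j
        fin_cases i <;> fin_cases j <;>
          simp [U4, h, hv, pathG, pathP, epsV, epsW, Matrix.mul_apply, Fin.sum_univ_two] <;> norm_num⟩
  · rcases mod4_cases a with h | h | h | h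
    · exact ⟨2, 2, two_ne_zero, by
        ext i j
        fin_cases i <;> fin_cases j <;>
          simp [U4, h, hv, pathG, pathP, epsV, epsW, Matrix.mul_apply, Fin.sum_univ_two] <;> norm_num⟩
    · exact ⟨-2, 3, (by norm_num), by
        ext i j
        fin_cases i <;> fin_cases j <;>
          simp [U4, h, hv, pathG, pathP, epsV, epsW, Matrix.mul_apply, Fin.sum_univ_two] <;> norm_num⟩
    · exact ⟨2, 0, two_ne_zero, by
        ext i j
        fin_cases i <;> fin_cases j <;>
          simp [U4, h, hv, pathG, pathP, epsV, epsW, Matrix.mul_apply, Fin.sum_univ_two] <;> norm_num⟩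
    · exact ⟨2, 1, two_ne_zero, by
        ext i j
        fin_cases i <;> fin_cases j <;>
          simp [U4, h, hv, pathG, pathP, epsV, epsW, Matrix.mul_apply, Fin.sum_univ_two] <;> norm_num⟩

theorem pv_form (c : ℕ → ℕ) (k : ℕ) :
    (k % 2 = 0 → ∃ (s : ℂ) (v : ℕ), s ≠ 0 ∧ pv U4 c k = s • (pathG * pathP v)) ∧
    (k % 2 = 1 → ∃ (s : ℂ) (v : ℕ), s ≠ 0 ∧ pv U4 c k = s • (pathG * pathP v * pathG)) := by
  induction k with
  | zero => exact ⟨fun _ => path_base (c 0), fun h => absurd h (by norm_num)⟩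
  | succ k ih =>
    refine ⟨fun h => ?_, fun h => ?_⟩
    · have hk : k % 2 = 1 := by omega
      obtain ⟨s, v, hs, hv⟩ := ih.2 hk
      obtain ⟨t, w, ht, hw⟩ := path_odd v (c (k + 1))
      refine ⟨s * t, w, mul_ne_zero hs ht, ?_⟩
      rw [pv, if_neg (by omega), hv, Matrix.smul_mul, Matrix.smul_mul, hw, smul_smul]
    · have hk : k % 2 = 0 := by omega
      obtain ⟨s, v, hs, hv⟩ := ih.1 hk
      obtain ⟨t, w, ht, hw⟩ := path_even v (c (k + 1))
      refine ⟨s * t, w, mul_ne_zero hs ht, ?_⟩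
      rw [pv, if_pos hk, hv, Matrix.smul_mul, Matrix.smul_mul, hw, smul_smul]

theorem pathGP_ne (v : ℕ) : (pathG * pathP v) 0 0 ≠ 0 := by
  rcases mod4_cases v with hv | hv | hv | hv <;>
    simp [hv, pathG, pathP, Matrix.mul_apply, Fin.sum_univ_two]

/-- `U4 v = P_v * g` with `P_v` a signed permutation matrix and `g = !![1,1;1,-1]`; the alternating
product is `(det g)^(m+1) • gᵀ * (signed permutation matrix)`, all entries are nonzero. -/
theorem pval_ne_zero (m : ℕ) (c : Fin (2 * m + 3) → ℕ) : pval U4 m c ≠ 0 := by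
  obtain ⟨s, v, hs, hv⟩ := (pv_form (ext0 c) (2 * m + 2)).1 (by omega)
  unfold pval
  rw [hv, Matrix.smul_apply, smul_eq_mul]
  exact mul_ne_zero hs (pathGP_ne v)

/-! ### Swaps -/

theorem anti_even (x y : ℕ) (h : x % 4 ≠ y % 4) :
    (U4 x).transpose * epsV * U4 y = -((U4 y).transpose * epsV * U4 x) := by
  rcases mod4_cases x with hx | hx | hx | hx <;> rcases mod4_cases y with hy | hy | hy | hy <;>
    first
    | exact absurd (hx.trans hy.symm) h
    | (ext i j
       fin_cases i <;> fin_cases j <;>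
        simp [U4, hx, hy, epsV, Matrix.mul_apply, Fin.sum_univ_two] <;> norm_num)

theorem anti_odd (x y : ℕ) (h : x % 4 ≠ y % 4) :
    U4 x * epsW * (U4 y).transpose = -(U4 y * epsW * (U4 x).transpose) := by
  rcases mod4_cases x with hx | hx | hx | hx <;> rcases mod4_cases y with hy | hy | hy | hy <;>
    first
    | exact absurd (hx.trans hy.symm) h
    | (ext i j
       fin_cases i <;> fin_cases j <;>
        simp [U4, hx, hy, epsW, Matrix.mul_apply, Matrix.vecMul, dotProduct,
          Matrix.transpose_apply, Fin.sum_univ_two] <;> norm_num)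

theorem pv_congr (U : ℕ → Matrix (Fin 2) (Fin 2) ℂ) (c c' : ℕ → ℕ) (k : ℕ)
    (h : ∀ i, i ≤ k → c i = c' i) : pv U c k = pv U c' k := by
  induction k with
  | zero => rw [pv, pv, h 0 le_rfl]
  | succ k ih =>
    rw [pv, pv, h (k + 1) le_rfl, ih fun i hi => h i (by omega)]

theorem pv_swap (c c' : ℕ → ℕ) (i : ℕ) (h1 : c' i = c (i + 1)) (h2 : c' (i + 1) = c i)
    (h3 : ∀ j, j ≠ i → j ≠ i + 1 → c' j = c j) (hne : c i % 4 ≠ c (i + 1) % 4) (k : ℕ) :
    pv U4 c' (i + 1 + k) = -pv U4 c (i + 1 + k) := by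
  induction k with
  | zero =>
    simp only [Nat.add_zero]
    rcases i with _ | i
    · have ha := anti_even (c 0) (c 1) hne
      simp only [pv, Nat.zero_mod, if_true, Nat.zero_add] at h1 h2 ⊢
      rw [h1, h2, ha, neg_neg]
    · have hc : pv U4 c' i = pv U4 c i := pv_congr U4 c' c i fun j hj => h3 j (by omega) (by omega)
      rcases Nat.mod_two_eq_zero_or_one i with hi | hi
      · have hi' : ¬ (i + 1) % 2 = 0 := by omega
        have ha := anti_odd (c (i + 1)) (c (i + 1 + 1)) hne
        rw [pv, if_neg hi', pv, if_pos hi, pv, if_neg hi', pv, if_pos hi, hc, h1, h2]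
        simp only [Matrix.mul_assoc] at ha ⊢
        rw [ha]
        simp
      · have hi' : (i + 1) % 2 = 0 := by omega
        have hi2 : ¬ i % 2 = 0 := by omega
        have ha := anti_even (c (i + 1)) (c (i + 1 + 1)) hne
        rw [pv, if_pos hi', pv, if_neg hi2, pv, if_pos hi', pv, if_neg hi2, hc, h1, h2]
        simp only [Matrix.mul_assoc] at ha ⊢
        rw [ha]
        simp
  | succ k ih =>
    rw [← Nat.add_assoc, pv, pv, ih, h3 (i + 1 + k + 1) (by omega) (by omega)]
    split_ifs <;> simp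

/-- Swapping two adjacent letters with different colours (mod 4) changes the sign:
`(U4 x)ᵀ * epsV * U4 y = - (U4 y)ᵀ * epsV * U4 x` and
`U4 x * epsW * (U4 y)ᵀ = - U4 y * epsW * (U4 x)ᵀ` for `x % 4 ≠ y % 4`. -/
theorem pval_swap (m : ℕ) (c : Fin (2 * m + 3) → ℕ) (i : ℕ) (hi : i + 1 < 2 * m + 3)
    (hne : c ⟨i, by omega⟩ % 4 ≠ c ⟨i + 1, hi⟩ % 4) :
    pval U4 m (fun j => c (Equiv.swap ⟨i, by omega⟩ ⟨i + 1, hi⟩ j)) = - pval U4 m c := by
  unfold pval
  have hi0 : i < 2 * m + 3 := by omega
  have e1 : ext0 c i = c ⟨i, hi0⟩ := by simp [ext0, hi0]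
  have e2 : ext0 c (i + 1) = c ⟨i + 1, hi⟩ := by simp [ext0, hi]
  obtain ⟨k, hk⟩ : ∃ k, 2 * m + 2 = i + 1 + k := ⟨2 * m + 2 - (i + 1), by omega⟩
  rw [hk, pv_swap (ext0 c) _ i ?_ ?_ ?_ ?_ k, Matrix.neg_apply]
  · rw [e2]
    simp [ext0, hi0]
  · rw [e1]
    simp [ext0, hi]
  · intro j h1 h2
    unfold ext0
    split_ifs with hj
    · simp only
      rw [Equiv.swap_apply_of_ne_of_ne]
      · intro h
        exact h1 (congrArg Fin.val h)
      · intro h
        exact h2 (congrArg Fin.val h)
    · rfl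
  · rw [e1, e2]
    exact hne

/-! ### Permutations -/

/-- the measure -/
def permW {n : ℕ} (τ : Perm (Fin n)) : ℕ := ∑ j : Fin n, j.1 * (τ j).1

theorem permW_le {n : ℕ} (τ : Perm (Fin n)) : permW τ ≤ n * (n * n) := by
  unfold permW
  calc ∑ j : Fin n, j.1 * (τ j).1 ≤ ∑ _j : Fin n, n * n :=
        Finset.sum_le_sum fun j _ => Nat.mul_le_mul j.2.le (τ j).2.le
    _ = n * (n * n) := by simp

theorem permW_swap {n : ℕ} (τ ψ : Perm (Fin n)) (i : ℕ) (h0 : i < n) (h1 : i + 1 < n)
    (hψ : ψ = τ * Equiv.swap (⟨i, h0⟩ : Fin n) (⟨i + 1, h1⟩ : Fin n))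
    (hd : τ ⟨i + 1, h1⟩ < τ ⟨i, h0⟩) :
    permW τ < permW ψ := by
  have hne : (⟨i, h0⟩ : Fin n) ≠ ⟨i + 1, h1⟩ := by
    intro h
    have := congrArg Fin.val h
    simp at this
  have hmem : (⟨i + 1, h1⟩ : Fin n) ∈ Finset.univ.erase (⟨i, h0⟩ : Fin n) :=
    Finset.mem_erase.2 ⟨hne.symm, Finset.mem_univ _⟩
  have key : ∀ ψ : Perm (Fin n), permW ψ = i * (ψ ⟨i, h0⟩).1 + ((i + 1) * (ψ ⟨i + 1, h1⟩).1 +
      ∑ j ∈ (Finset.univ.erase (⟨i, h0⟩ : Fin n)).erase ⟨i + 1, h1⟩, j.1 * (ψ j).1) := by
    intro ψ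
    unfold permW
    rw [← Finset.add_sum_erase _ (fun j : Fin n => j.1 * (ψ j).1)
        (Finset.mem_univ (⟨i, h0⟩ : Fin n)),
      ← Finset.add_sum_erase _ (fun j : Fin n => j.1 * (ψ j).1) hmem]
  have hrest : ∑ j ∈ (Finset.univ.erase (⟨i, h0⟩ : Fin n)).erase ⟨i + 1, h1⟩,
      j.1 * (ψ j).1 =
      ∑ j ∈ (Finset.univ.erase (⟨i, h0⟩ : Fin n)).erase ⟨i + 1, h1⟩, j.1 * (τ j).1 := by
    refine Finset.sum_congr rfl fun j hj => ?_
    rw [Finset.mem_erase, Finset.mem_erase] at hj
    rw [hψ, Perm.mul_apply, Equiv.swap_apply_of_ne_of_ne hj.2.1 hj.1]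
  have e1 : ψ ⟨i, h0⟩ = τ ⟨i + 1, h1⟩ := by
    rw [hψ, Perm.mul_apply, Equiv.swap_apply_left]
  have e2 : ψ ⟨i + 1, h1⟩ = τ ⟨i, h0⟩ := by
    rw [hψ, Perm.mul_apply, Equiv.swap_apply_right]
  rw [key τ, key ψ, hrest, e1, e2]
  have hd' : (τ ⟨i + 1, h1⟩).1 < (τ ⟨i, h0⟩).1 := hd
  nlinarith

theorem exists_descent {n : ℕ} (τ : Perm (Fin n)) (h : τ ≠ 1) :
    ∃ (i : ℕ) (h0 : i < n) (h1 : i + 1 < n), τ ⟨i + 1, h1⟩ < τ ⟨i, h0⟩ := by
  by_contra hcon
  push Not at hcon
  apply h
  rcases n with _ | n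
  · exact Subsingleton.elim _ _
  · have hm : StrictMono τ := by
      rw [Fin.strictMono_iff_lt_succ]
      intro i
      have h1 := hcon i.1 (by omega) (by omega)
      refine lt_of_le_of_ne h1 ?_
      intro h2
      have h3 := τ.injective h2
      have := congrArg Fin.val h3
      simp at this
    have h2 : (hm.orderIsoOfSurjective τ τ.surjective) = OrderIso.refl _ :=
      Subsingleton.elim _ _
    ext j
    have h3 := congrArg (fun e : Fin (n + 1) ≃o Fin (n + 1) => e j) h2
    simp only [StrictMono.coe_orderIsoOfSurjective, OrderIso.refl_apply] at h3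
    rw [h3]
    rfl

/-- Induction on the number of inversions of `τ` (an inversion `τ i > τ (i+1)` of adjacent places
lies in one fibre of the monotone function `key`). -/
theorem pval_perm (m : ℕ) (c key : Fin (2 * m + 3) → ℕ) (hk : Monotone key)
    (hc : ∀ i j, key i = key j → c i % 4 = c j % 4 → i = j)
    (τ : Perm (Fin (2 * m + 3))) (hτ : ∀ i, key (τ i) = key i) :
    pval U4 m (fun i => c (τ i)) = ((Perm.sign τ : ℤ) : ℂ) * pval U4 m c := by
  induction hN : (2 * m + 3) * ((2 * m + 3) * (2 * m + 3)) - permW τ using Nat.strong_induction_on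
    generalizing τ with
  | _ N ih =>
    by_cases h1 : τ = 1
    · subst h1
      simp
    · obtain ⟨i, h0, hi, hd⟩ := exists_descent τ h1
      set s : Perm (Fin (2 * m + 3)) := Equiv.swap ⟨i, h0⟩ ⟨i + 1, hi⟩ with hs
      have hss : s * s = 1 := Equiv.swap_mul_self _ _
      have hkey : key ⟨i, h0⟩ = key ⟨i + 1, hi⟩ := by
        apply le_antisymm
        · exact hk (by simp [Fin.le_def])
        · rw [← hτ ⟨i, h0⟩, ← hτ ⟨i + 1, hi⟩]
          exact hk hd.le
      have hne : (⟨i, h0⟩ : Fin (2 * m + 3)) ≠ ⟨i + 1, hi⟩ := by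
        intro h
        have := congrArg Fin.val h
        simp at this
      have hks : ∀ j, key (s j) = key j := by
        intro j
        by_cases hj1 : j = ⟨i, h0⟩
        · rw [hj1, hs, Equiv.swap_apply_left, hkey]
        · by_cases hj2 : j = ⟨i + 1, hi⟩
          · rw [hj2, hs, Equiv.swap_apply_right, hkey]
          · rw [hs, Equiv.swap_apply_of_ne_of_ne hj1 hj2]
      have hτs : ∀ j, key ((τ * s) j) = key j := by
        intro j
        rw [Perm.mul_apply, hτ, hks]
      have hlt : permW τ < permW (τ * s) := permW_swap τ (τ * s) i h0 hi rfl hd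
      have hle : permW (τ * s) ≤ (2 * m + 3) * ((2 * m + 3) * (2 * m + 3)) := permW_le _
      have h2 := ih _ (by omega) (τ * s) hτs rfl
      have h3 : (fun j => c (τ j)) = fun j => (fun l => c ((τ * s) l)) (s j) := by
        funext j
        have h4 : (τ * s) (s j) = τ j := by
          rw [← Perm.mul_apply, mul_assoc, hss, mul_one]
        simp only [h4]
      rw [h3, hs, pval_swap m (fun l => c ((τ * s) l)) i hi, h2, Perm.sign_mul, hs,
        Perm.sign_swap hne]
      · simp
      · rw [Perm.mul_apply, Perm.mul_apply, hs, Equiv.swap_apply_left, Equiv.swap_apply_right]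
        intro h4
        have h5 := hc _ _ (by rw [hτ, hτ, hkey]) h4
        exact hne (τ.injective h5).symm

end Vale.Agent.P197.Sx
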