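import Vale.Agent.P197.Defs
import Vale.Agent.P197.Glue

/-! Module F: peeling off horizontal strips and 4-strips. -/

namespace Vale.Agent.P197.Sx

open Finset

/-- the row lengths left after removing the lowest horizontal strip of size `b` -/
def stripLen (b : ℕ) (ν : YoungDiagram) (i : ℕ) : ℕ :=
  ν.rowLen i - min (ν.rowLen i) b + min (ν.rowLen (i + 1)) b

theorem stripLen_anti (b : ℕ) (ν : YoungDiagram) {i i' : ℕ} (h : i' ≤ i) :
    stripLen b ν i ≤ stripLen b ν i' := by
  unfold stripLen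
  have h1 := ν.rowLen_anti i' i h
  have h2 := ν.rowLen_anti (i' + 1) (i + 1) (by omega)
  omega

theorem stripLen_le (b : ℕ) (ν : YoungDiagram) (i : ℕ) : stripLen b ν i ≤ ν.rowLen i := by
  unfold stripLen
  have h1 := ν.rowLen_anti i (i + 1) (by omega)
  omega

theorem le_stripLen (b : ℕ) (ν : YoungDiagram) (i : ℕ) :
    ν.rowLen (i + 1) ≤ stripLen b ν i := by
  unfold stripLen
  have h1 := ν.rowLen_anti i (i + 1) (by omega)
  omega

/-- the diagram left after removing the lowest horizontal strip of size `b` -/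
def strip (b : ℕ) (ν : YoungDiagram) : YoungDiagram where
  cells := ν.cells.filter fun c => c.2 < stripLen b ν c.1
  isLowerSet := by
    intro x y hxy hx
    simp only [coe_filter, Set.mem_ofPred_eq] at hx ⊢
    refine ⟨ν.isLowerSet hxy hx.1, ?_⟩
    have h1 := stripLen_anti b ν hxy.1
    have h2 := hxy.2
    have h3 := hx.2
    omega

theorem mem_strip {b : ℕ} {ν : YoungDiagram} {c : ℕ × ℕ} :
    c ∈ strip b ν ↔ c ∈ ν ∧ c.2 < stripLen b ν c.1 := by
  change c ∈ (strip b ν).cells ↔ _
  simp only [strip, mem_filter]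
  rfl

theorem strip_le (b : ℕ) (ν : YoungDiagram) : strip b ν ≤ ν := fun _ h => (mem_strip.mp h).1

theorem rowLen_strip (b : ℕ) (ν : YoungDiagram) (i : ℕ) :
    (strip b ν).rowLen i = stripLen b ν i := by
  apply rowLen_eq_of
  intro k
  rw [mem_strip, YoungDiagram.mem_iff_lt_rowLen]
  have := stripLen_le b ν i
  constructor
  · rintro ⟨_, h⟩; exact h
  · intro h; exact ⟨by omega, h⟩

theorem colLen_strip (b : ℕ) (ν : YoungDiagram) (j : ℕ) :
    ν.colLen j ≤ (strip b ν).colLen j + 1 := by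
  by_contra hcon
  push Not at hcon
  obtain ⟨c, hc⟩ : ∃ c, ν.colLen j = c + 2 := ⟨ν.colLen j - 2, by omega⟩
  have h1 : (c + 1, j) ∈ ν := by
    rw [YoungDiagram.mem_iff_lt_colLen]; omega
  have h2 : (c, j) ∈ ν := by
    rw [YoungDiagram.mem_iff_lt_colLen]; omega
  have h3 : (c, j) ∈ strip b ν := by
    rw [mem_strip]
    refine ⟨h2, ?_⟩
    rw [YoungDiagram.mem_iff_lt_rowLen] at h1
    have := le_stripLen b ν c
    simp only
    omega
  rw [YoungDiagram.mem_iff_lt_colLen] at h3
  omega

theorem sum_strip (b : ℕ) (ν : YoungDiagram) (hb : b ≤ ν.rowLen 0) (k : ℕ) :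
    ∑ i ∈ range k, (strip b ν).rowLen i + b = ∑ i ∈ range k, ν.rowLen i + min (ν.rowLen k) b := by
  induction k with
  | zero => simp; omega
  | succ k ih =>
    rw [sum_range_succ, sum_range_succ, rowLen_strip]
    unfold stripLen
    omega

theorem card_strip (b : ℕ) (ν : YoungDiagram) (hb : b ≤ ν.rowLen 0) :
    (strip b ν).card + b = ν.card := by
  have h1 : ∀ i, ν.colLen 0 ≤ i → ν.rowLen i = 0 := by
    intro i hi
    by_contra h
    have : (i, 0) ∈ ν := by
      rw [YoungDiagram.mem_iff_lt_rowLen]; omega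
    rw [YoungDiagram.mem_iff_lt_colLen] at this
    omega
  have h2 : ∀ i, ν.colLen 0 ≤ i → (strip b ν).rowLen i = 0 := by
    intro i hi
    have := stripLen_le b ν i
    rw [rowLen_strip]
    have := h1 i hi
    omega
  rw [card_of_rowLen h1, card_of_rowLen h2, sum_strip b ν hb, h1 _ le_rfl]
  simp

/-- dominance: the row partial sums of `ν` are at least those of `f` -/
def domS (f : ℕ → ℕ) (ν : YoungDiagram) : Prop :=
  ∀ k, ∑ i ∈ range k, f i ≤ ∑ i ∈ range k, ν.rowLen i

theorem domS_head {f : ℕ → ℕ} {ν : YoungDiagram} (h : domS f ν) : f 0 ≤ ν.rowLen 0 := by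
  simpa using h 1

theorem domS_strip {f : ℕ → ℕ} {ν : YoungDiagram} (hf : ∀ i, f (i + 1) ≤ f i) (h : domS f ν) :
    domS (fun i => f (i + 1)) (strip (f 0) ν) := by
  intro k
  change ∑ i ∈ range k, f (i + 1) ≤ _
  have h1 := sum_strip (f 0) ν (domS_head h) k
  have h2 := h (k + 1)
  rw [sum_range_succ', sum_range_succ] at h2
  have h3 := h k
  have h4 : ∑ i ∈ range k, f (i + 1) ≤ ∑ i ∈ range k, f i := sum_le_sum fun i _ => hf i
  rcases le_total (ν.rowLen k) (f 0) with h5 | h5
  · rw [min_eq_left h5] at h1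
    omega
  · rw [min_eq_right h5] at h1
    omega

/-- the parts of the partition with columns `(2m-1, 2m-5, 2m-9, ...)` -/
def th (m i : ℕ) : ℕ := (2 * m + 2 - i) / 4

/-- `ν` dominates the partition with columns `(2m-1, 2m-5, 2m-9, ...)` -/
def dom (m : ℕ) (ν : YoungDiagram) : Prop := domS (th m) ν

theorem exists_peel (m : ℕ) (ν : YoungDiagram) (hcard : ν.card = (m + 2) * (m + 3) / 2)
    (hd : dom (m + 2) ν) :
    ∃ β : YoungDiagram, β ≤ ν ∧ β.card = m * (m + 1) / 2 ∧
      (∀ j, ν.colLen j ≤ β.colLen j + 4) ∧ dom m β := by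
  have step : ∀ (f : ℕ → ℕ) (μ : YoungDiagram), (∀ i, f (i + 1) ≤ f i) → domS f μ →
      ∃ β : YoungDiagram, β ≤ μ ∧ β.card + f 0 = μ.card ∧
        (∀ j, μ.colLen j ≤ β.colLen j + 1) ∧ domS (fun i => f (i + 1)) β :=
    fun f μ hf h => ⟨strip (f 0) μ, strip_le _ _, card_strip _ _ (domS_head h),
      colLen_strip _ _, domS_strip hf h⟩
  have hth : ∀ i, th (m + 2) (i + 1) ≤ th (m + 2) i := by
    intro i
    unfold th
    omega
  obtain ⟨β1, l1, c1, j1, d1⟩ := step (th (m + 2)) ν (fun i => hth i) hd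
  obtain ⟨β2, l2, c2, j2, d2⟩ := step _ β1 (fun i => hth (i + 1)) d1
  obtain ⟨β3, l3, c3, j3, d3⟩ := step _ β2 (fun i => hth (i + 1 + 1)) d2
  obtain ⟨β4, l4, c4, j4, d4⟩ := step _ β3 (fun i => hth (i + 1 + 1 + 1)) d3
  refine ⟨β4, l4.trans (l3.trans (l2.trans l1)), ?_, ?_, ?_⟩
  · have e : th (m + 2) 0 + th (m + 2) (0 + 1) + th (m + 2) (0 + 1 + 1) +
        th (m + 2) (0 + 1 + 1 + 1) = 2 * m + 3 := by
      unfold th
      omega
    have e2 : (m + 2) * (m + 3) = m * (m + 1) + (2 * m + 3) * 2 := by ring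
    rw [e2, Nat.add_mul_div_right _ _ (by norm_num)] at hcard
    omega
  · intro j
    have := j1 j
    have := j2 j
    have := j3 j
    have := j4 j
    omega
  · have e : (fun i => th (m + 2) (i + 1 + 1 + 1 + 1)) = th m := by
      funext i
      unfold th
      congr 1
      omega
    change domS (th m) β4
    rw [← e]
    exact d4

theorem avg_le (f : ℕ → ℕ) (hf : ∀ i j, i ≤ j → f j ≤ f i) (R k : ℕ) (hk : k ≤ R) :
    k * ∑ i ∈ range R, f i ≤ R * ∑ i ∈ range k, f i := by
  obtain ⟨d, rfl⟩ := Nat.exists_eq_add_of_le hk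
  induction d with
  | zero => simp
  | succ d ih =>
    have h1 := ih (by omega)
    have h2 : k * f (k + d) ≤ ∑ i ∈ range k, f i := by
      have : ∑ i ∈ range k, f (k + d) ≤ ∑ i ∈ range k, f i :=
        sum_le_sum fun i hi => hf i (k + d) (by rw [mem_range] at hi; omega)
      simpa using this
    rw [← add_assoc, sum_range_succ, mul_add]
    nlinarith

/-- the partial sums of `th m` are at most `m (m + 1) / 2` -/
theorem sum_th_le : ∀ m k, 2 * ∑ i ∈ range k, th m i ≤ m * (m + 1)
  | 0, k => by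
    have : ∑ i ∈ range k, th 0 i = 0 := sum_eq_zero fun i _ => by unfold th; omega
    omega
  | 1, k => by
    induction k with
    | zero => simp
    | succ k ih =>
      rcases Nat.eq_zero_or_pos k with rfl | hk
      · simp [th]
      · rw [sum_range_succ]
        have : th 1 k = 0 := by unfold th; omega
        omega
  | m + 2, k => by
    have e : ∀ i, th (m + 2) (i + 4) = th m i := by
      intro i
      unfold th
      congr 1
      omega
    have h4 : th (m + 2) 0 + th (m + 2) 1 + th (m + 2) 2 + th (m + 2) 3 = 2 * m + 3 := by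
      unfold th
      omega
    have h5 : ∑ i ∈ range k, th (m + 2) i ≤ ∑ i ∈ range (k + 4), th (m + 2) i :=
      sum_le_sum_of_subset (range_mono (by omega))
    have h6 := sum_th_le m k
    rw [sum_range_succ', sum_range_succ', sum_range_succ', sum_range_succ'] at h5
    simp only [add_assoc, Nat.reduceAdd, e, zero_add] at h5
    nlinarith

theorem dom_of_colLen_lt (m : ℕ) (ν : YoungDiagram) (hc : ν.card = m * (m + 1) / 2)
    (h : ν.colLen 0 + 1 ≤ m) : dom m ν := by
  have h1 : ∀ i, m - 1 ≤ i → ν.rowLen i = 0 := by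
    intro i hi
    by_contra h0
    have : (i, 0) ∈ ν := by
      rw [YoungDiagram.mem_iff_lt_rowLen]; omega
    rw [YoungDiagram.mem_iff_lt_colLen] at this
    omega
  have htot := card_of_rowLen h1
  have hdvd : 2 ∣ m * (m + 1) := (Nat.even_mul_succ_self m).two_dvd
  have hc2 : 2 * ν.card = m * (m + 1) := by
    rw [hc]
    exact Nat.mul_div_cancel' hdvd
  intro k
  rcases le_total k (m - 1) with hk | hk
  · have h2 := avg_le ν.rowLen (fun i j hij => ν.rowLen_anti i j hij) (m - 1) k hk
    rw [← htot] at h2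
    have h3 : 2 * ∑ i ∈ range k, th m i ≤ k * (m + 1) := by
      have h4 : ∑ i ∈ range k, th m i ≤ ∑ i ∈ range k, (m + 1) / 2 :=
        sum_le_sum fun i _ => by unfold th; omega
      rw [sum_const, card_range, smul_eq_mul] at h4
      have h5 : (m + 1) / 2 * 2 ≤ m + 1 := Nat.div_mul_le_self _ _
      nlinarith
    obtain ⟨q, rfl⟩ : ∃ q, m = q + 1 := ⟨m - 1, by omega⟩
    simp only [Nat.add_sub_cancel] at h2
    rcases Nat.eq_zero_or_pos q with rfl | hq
    · have : k = 0 := by omega
      subst this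
      simp
    · refine Nat.le_of_mul_le_mul_left ?_ (show 0 < 2 * q by omega)
      nlinarith
  · have h2 : ∑ i ∈ range k, ν.rowLen i = ν.card :=
      (card_of_rowLen (fun i hi => h1 i (hk.trans hi))).symm
    rw [h2]
    have := sum_th_le m k
    omega

/-- proof of `exists_horizontal_strip` (module G), by `strip (m + 1) ν` -/
theorem exists_horizontal_strip' (m : ℕ) (ν : YoungDiagram)
    (hc : ν.card = (m + 1) * (m + 2) / 2) (h : m + 1 ≤ ν.rowLen 0) :
    ∃ β : YoungDiagram, β ≤ ν ∧ β.card = m * (m + 1) / 2 ∧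
      ∀ j, ν.colLen j ≤ β.colLen j + 1 := by
  refine ⟨strip (m + 1) ν, strip_le _ _, ?_, colLen_strip _ _⟩
  have h1 := card_strip (m + 1) ν h
  have e2 : (m + 1) * (m + 2) = m * (m + 1) + (m + 1) * 2 := by ring
  rw [e2, Nat.add_mul_div_right _ _ (by norm_num)] at hc
  omega

end Vale.Agent.P197.Sx
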