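import Vale.Agent.P197.Sx.S1Defs

namespace Vale.Agent.P197.Sx

open Equiv Finset Representation TensorProduct

theorem exists_bil {n : ℕ} {la mu nu : YoungDiagram} (h : 0 < kronecker n la mu nu) :
    ∃ B : SV n la →ₗ[ℂ] SV n mu →ₗ[ℂ] SV n nu, B ≠ 0 ∧
      ∀ (σ : Perm (Fin n)) a b, B (rep n la σ a) (rep n mu σ b) = rep n nu σ (B a b) := by
  have h1 := card_inv_mul_sum_char_mul_char_eq_finrank ((rep n la).tprod (rep n mu)) (rep n nu)
  have h2 := kronecker_eq_sum n la mu nu
  have h3 : ∀ g : Perm (Fin n), (rep n nu).character g *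
      ((rep n la).tprod (rep n mu)).character g⁻¹ = chi n la g * chi n mu g * chi n nu g := by
    intro g
    rw [char_inv, char_tensor, Pi.mul_apply, mul_comm]
    rfl
  simp_rw [h3] at h1
  rw [← h2] at h1
  have h4 : kronecker n la mu nu = Module.finrank ℂ
      (IntertwiningMap ((rep n la).tprod (rep n mu)) (rep n nu)) := by
    exact_mod_cast h1
  rw [h4] at h
  have hnt : Nontrivial (IntertwiningMap ((rep n la).tprod (rep n mu)) (rep n nu)) :=
    Module.nontrivial_of_finrank_pos h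
  obtain ⟨Φ, hΦ⟩ := exists_ne (0 : IntertwiningMap ((rep n la).tprod (rep n mu)) (rep n nu))
  refine ⟨TensorProduct.curry Φ.toLinearMap, ?_, ?_⟩
  · intro h0
    apply hΦ
    have h5 : Φ.toLinearMap = 0 := by
      apply TensorProduct.ext
      ext a b : 2
      have := LinearMap.congr_fun (LinearMap.congr_fun h0 a) b
      exact this
    apply IntertwiningMap.ext
    rw [h5]
    rfl
  · intro σ a b
    have h6 := LinearMap.congr_fun (Φ.isIntertwining' σ) (a ⊗ₜ[ℂ] b)
    exact h6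

theorem pr_add_left {k : ℕ} (y y' : (Fin k → ℕ) →₀ ℂ) (x : (Fin k → ℕ) → ℂ) :
    pr (y + y') x = pr y x + pr y' x := by
  unfold pr
  rw [Finsupp.sum_add_index']
  · intro a
    rw [zero_mul]
  · intro a b c
    rw [add_mul]

theorem pr_smul_left {k : ℕ} (r : ℂ) (y : (Fin k → ℕ) →₀ ℂ) (x : (Fin k → ℕ) → ℂ) :
    pr (r • y) x = r * pr y x := by
  unfold pr
  rw [Finsupp.sum_smul_index']
  · unfold Finsupp.sum
    rw [Finset.mul_sum]
    refine Finset.sum_congr rfl fun w _ => ?_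
    simp only [smul_eq_mul]
    ring
  · intro a
    rw [zero_mul]

theorem pr_add_right {k : ℕ} (y : (Fin k → ℕ) →₀ ℂ) (x x' : (Fin k → ℕ) → ℂ) :
    pr y (x + x') = pr y x + pr y x' := by
  unfold pr Finsupp.sum
  rw [← Finset.sum_add_distrib]
  refine Finset.sum_congr rfl fun w _ => ?_
  simp only [Pi.add_apply]
  ring

theorem pr_smul_right {k : ℕ} (r : ℂ) (y : (Fin k → ℕ) →₀ ℂ) (x : (Fin k → ℕ) → ℂ) :
    pr y (r • x) = r * pr y x := by
  unfold pr Finsupp.sum
  rw [Finset.mul_sum]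
  refine Finset.sum_congr rfl fun w _ => ?_
  simp only [Pi.smul_apply, smul_eq_mul]
  ring

theorem pr_single {k : ℕ} (w : Fin k → ℕ) (a : ℂ) (x : (Fin k → ℕ) → ℂ) :
    pr (Finsupp.single w a) x = a * x w := by
  unfold pr
  rw [Finsupp.sum_single_index]
  rw [zero_mul]

theorem pr_invariant {k : ℕ} (σ : Perm (Fin k)) (y : (Fin k → ℕ) →₀ ℂ)
    (x : (Fin k → ℕ) → ℂ) : pr (wordRep k σ y) (fun w => x (w ∘ σ)) = pr y x := by
  induction y using Finsupp.induction_linear with
  | zero => simp [pr]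
  | add f g hf hg => rw [map_add, pr_add_left, pr_add_left, hf, hg]
  | single w a =>
    rw [wordRep_single, pr_single, pr_single]
    congr 2
    funext p
    simp

theorem pr_eq_colSum {k : ℕ} {μ : YoungDiagram} (t : Fin k ≃ μ.cells)
    (y : (Fin k → ℕ) →₀ ℂ) : pr y (polytabloid t : (Fin k → ℕ) → ℂ) = colSum t y := by
  unfold pr colSum Finsupp.sum
  simp_rw [polytabloid_apply, Finset.mul_sum]
  rw [Finset.sum_comm]
  refine Finset.sum_congr rfl fun π _ => ?_
  rw [Finset.sum_eq_single (tabloid t ∘ π.symm)]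
  · rw [if_pos rfl, mul_comm]
  · intro b _ hb
    rw [if_neg (fun h => hb h.symm), mul_zero]
  · intro h
    simp only [Finsupp.mem_support_iff, not_not] at h
    rw [h, zero_mul]

theorem exists_pr_ne_zero {k : ℕ} {μ : YoungDiagram} {y : (Fin k → ℕ) →₀ ℂ}
    (hy : y ∈ (specht k μ).toSubmodule) (h0 : y ≠ 0) :
    ∃ t : Fin k ≃ μ.cells, pr y (polytabloid t : (Fin k → ℕ) → ℂ) ≠ 0 := by
  by_contra hcon
  push Not at hcon
  apply h0
  apply eq_zero_of_colSum hy
  intro t
  rw [← pr_eq_colSum]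
  exact hcon t

end Vale.Agent.P197.Sx
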