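import Vale.Agent.P197.Sx.SDefs
import Vale.Agent.P197.Strict5
import Vale.Agent.P197.Cat
import Vale.Agent.P197.Transpose

/-!
# P197, module G (`surj_one`): shared definitions

Positions `Fin (M + k)`: the first `M` positions (`Fin.castAdd k i`) carry the new first row
(letter `0`), the last `k` (`Fin.natAdd M p`) carry the smaller diagram.
-/

namespace Vale.Agent.P197.Sx

open Equiv Finset

/-- letters: `none` or a pair of column indices -/
abbrev LL : Type := Option (ℕ × ℕ)

/-- the word `0^M (v + 1)` -/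
def embW (M : ℕ) {k : ℕ} (v : Fin k → ℕ) : Fin (M + k) → ℕ :=
  Fin.append (fun _ : Fin M => 0) (fun p => v p + 1)

theorem embW_injective (M k : ℕ) : Function.Injective (embW M (k := k)) := by
  intro v w h
  funext p
  have := congrFun h (Fin.natAdd M p)
  simpa [embW] using this

/-- `(resR M k a)(v) = a(0^M (v + 1))` -/
noncomputable def resR (M k : ℕ) : ((Fin (M + k) → ℕ) →₀ ℂ) →ₗ[ℂ] ((Fin k → ℕ) →₀ ℂ) :=
  Finsupp.lcomapDomain (embW M) (embW_injective M k)

theorem resR_apply (M k : ℕ) (a : (Fin (M + k) → ℕ) →₀ ℂ) (v : Fin k → ℕ) :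
    resR M k a v = a (embW M v) := rfl

/-- the sign of a word that is a bijection onto `range M`, and `0` for other words -/
noncomputable def sg {M : ℕ} (z : Fin M → ℕ) : ℂ :=
  ∑ α : Perm (Fin M), if (∀ i, z i = (α i : ℕ)) then ((Perm.sign α : ℤ) : ℂ) else 0

/-- symmetrised restriction: the first `M` letters are a rearrangement of `z0` -/
noncomputable def resS {M k : ℕ} (z0 : Fin M → ℕ) (c : (Fin (M + k) → ℕ) → ℂ)
    (v : Fin k → ℕ) : ℂ :=
  ∑ τ : Perm (Fin M), c (Fin.append (fun i => z0 (τ i)) v)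

/-- the partially expanded sums -/
noncomputable def psiQ {M k : ℕ} (H : Perm (Fin (M + k)) → (Fin k → LL) → ℂ)
    (π : Perm (Fin M)) (q : ℕ) (W : Fin (M + k) → LL) : ℂ :=
  ∑ σ : Perm (Fin (M + k)),
    if (∀ i : Fin M, W (σ (Fin.castAdd k i)) =
      if (i : ℕ) < q then some ((i : ℕ), (π i : ℕ)) else none)
    then H σ (fun p => W (σ (Fin.natAdd M p))) else 0

/-- the composition of the operators `opE (some (i, π i)) none`, `i < q` -/
noncomputable def itD {M n : ℕ} (π : Perm (Fin M)) :
    ℕ → ((Fin n → LL) → ℂ) → ((Fin n → LL) → ℂ)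
  | 0, φ => φ
  | q + 1, φ => if h : q < M then opE (some (q, (π ⟨q, h⟩ : ℕ))) none (itD π q φ)
      else itD π q φ

/-- the bilinear pairing of a finitely supported function with a function -/
noncomputable def pr {k : ℕ} (y : (Fin k → ℕ) →₀ ℂ) (x : (Fin k → ℕ) → ℂ) : ℂ :=
  y.sum fun w a => a * x w

end Vale.Agent.P197.Sx
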