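import Vale.Agent.P197.Sx.S1Defs

/-! Module G-f: expansion of the product of the two signs. -/

namespace Vale.Agent.P197.Sx

open Equiv Finset

variable {M k : ℕ}

theorem blockPerm_castAdd (τ : Perm (Fin M)) (τ' : Perm (Fin k)) (i : Fin M) :
    blockPerm τ τ' (Fin.castAdd k i) = Fin.castAdd k (τ i) := by
  have := blockPerm_inl τ τ' i
  simpa using this

theorem blockPerm_natAdd (τ : Perm (Fin M)) (τ' : Perm (Fin k)) (p : Fin k) :
    blockPerm τ τ' (Fin.natAdd M p) = Fin.natAdd M (τ' p) := by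
  have := blockPerm_inr τ τ' p
  simpa using this

theorem blockPerm_mul (τ τ1 : Perm (Fin M)) (τ' τ1' : Perm (Fin k)) :
    blockPerm τ τ' * blockPerm τ1 τ1' = blockPerm (τ * τ1) (τ' * τ1') := by
  ext x : 1
  induction x using Fin.addCases with
  | left i =>
    rw [Perm.mul_apply, blockPerm_castAdd, blockPerm_castAdd, blockPerm_castAdd, Perm.mul_apply]
  | right p =>
    rw [Perm.mul_apply, blockPerm_natAdd, blockPerm_natAdd, blockPerm_natAdd, Perm.mul_apply]

theorem blockPerm_one_one : blockPerm (1 : Perm (Fin M)) (1 : Perm (Fin k)) = 1 := by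
  ext x : 1
  induction x using Fin.addCases with
  | left i => rw [blockPerm_castAdd]; rfl
  | right p => rw [blockPerm_natAdd]; rfl

theorem blockPerm_inv (τ : Perm (Fin M)) (τ' : Perm (Fin k)) :
    (blockPerm τ τ')⁻¹ = blockPerm τ⁻¹ τ'⁻¹ := by
  rw [inv_eq_iff_mul_eq_one, blockPerm_mul, mul_inv_cancel, mul_inv_cancel, blockPerm_one_one]

/-- the sum for one pair `(α, α')` of bijections -/
theorem sum_pair (H : Perm (Fin (M + k)) → (Fin k → LL) → ℂ)
    (hH : ∀ σ (τ : Perm (Fin M)) y, H (σ * blockPerm τ 1) y = H σ y)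
    (u u' : Fin (M + k) → ℕ) (α α' : Perm (Fin M)) :
    ∑ σ : Perm (Fin (M + k)),
      (if (∀ i : Fin M, u (σ (Fin.castAdd k i)) = (α i : ℕ)) ∧
          (∀ i : Fin M, u' (σ (Fin.castAdd k i)) = (α' i : ℕ))
        then H σ (fun p => some (u (σ (Fin.natAdd M p)), u' (σ (Fin.natAdd M p)))) else 0) =
      psiQ H (α' * α⁻¹) M (fun x => some (u x, u' x)) := by
  unfold psiQ
  refine (Fintype.sum_equiv (Equiv.mulRight (blockPerm α (1 : Perm (Fin k)))) _ _ ?_).symm
  intro σ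
  refine if_congr ?_ ?_ rfl
  · simp only [Equiv.coe_mulRight, Perm.mul_apply, blockPerm_castAdd]
    constructor
    · intro h
      refine ⟨fun i => ?_, fun i => ?_⟩
      · have h1 := h (α i)
        rw [if_pos (α i).2] at h1
        simp only [Option.some.injEq, Prod.mk.injEq] at h1
        exact h1.1
      · have h1 := h (α i)
        rw [if_pos (α i).2] at h1
        simp only [Option.some.injEq, Prod.mk.injEq] at h1
        rw [h1.2]
        simp
    · rintro ⟨h1, h2⟩ i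
      rw [if_pos i.2]
      have h3 := h1 (α⁻¹ i)
      have h4 := h2 (α⁻¹ i)
      have h5 : α (α⁻¹ i) = i := by simp
      rw [h5] at h3 h4
      rw [h3, h4]
  · simp only [Equiv.coe_mulRight, hH, Perm.mul_apply, blockPerm_natAdd, Perm.one_apply]

theorem sg_mul_sg (z z' : Fin M → ℕ) :
    sg z * sg z' = ∑ α : Perm (Fin M), ∑ α' : Perm (Fin M),
      (((Perm.sign α : ℤ) : ℂ) * ((Perm.sign α' : ℤ) : ℂ)) *
        (if (∀ i, z i = (α i : ℕ)) ∧ (∀ i, z' i = (α' i : ℕ)) then 1 else 0) := by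
  unfold sg
  rw [Finset.sum_mul_sum]
  refine Finset.sum_congr rfl fun α _ => Finset.sum_congr rfl fun α' _ => ?_
  by_cases h1 : ∀ i, z i = (α i : ℕ)
  · by_cases h2 : ∀ i, z' i = (α' i : ℕ)
    · have h3 : (∀ i, z i = (α i : ℕ)) ∧ (∀ i, z' i = (α' i : ℕ)) := ⟨h1, h2⟩
      rw [if_pos h1, if_pos h2, if_pos h3, mul_one]
    · have h3 : ¬ ((∀ i, z i = (α i : ℕ)) ∧ (∀ i, z' i = (α' i : ℕ))) := fun h => h2 h.2
      rw [if_neg h2, if_neg h3, mul_zero, mul_zero]
  · have h3 : ¬ ((∀ i, z i = (α i : ℕ)) ∧ (∀ i, z' i = (α' i : ℕ))) := fun h => h1 h.1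
    rw [if_neg h1, if_neg h3, zero_mul, mul_zero]

/-- the expansion of the double antisymmetrised sum -/
theorem expand_sum (H : Perm (Fin (M + k)) → (Fin k → LL) → ℂ)
    (hH : ∀ σ (τ : Perm (Fin M)) y, H (σ * blockPerm τ 1) y = H σ y)
    (u u' : Fin (M + k) → ℕ) :
    ∑ σ : Perm (Fin (M + k)),
      (sg (fun i => u (σ (Fin.castAdd k i))) * sg (fun i => u' (σ (Fin.castAdd k i)))) *
        H σ (fun p => some (u (σ (Fin.natAdd M p)), u' (σ (Fin.natAdd M p)))) =
      (Fintype.card (Perm (Fin M)) : ℂ) *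
        ∑ π : Perm (Fin M), ((Perm.sign π : ℤ) : ℂ) * psiQ H π M (fun x => some (u x, u' x)) := by
  have h1 : ∀ σ : Perm (Fin (M + k)),
      (sg (fun i => u (σ (Fin.castAdd k i))) * sg (fun i => u' (σ (Fin.castAdd k i)))) *
        H σ (fun p => some (u (σ (Fin.natAdd M p)), u' (σ (Fin.natAdd M p)))) =
      ∑ α : Perm (Fin M), ∑ α' : Perm (Fin M),
        (((Perm.sign α : ℤ) : ℂ) * ((Perm.sign α' : ℤ) : ℂ)) *
        (if (∀ i : Fin M, u (σ (Fin.castAdd k i)) = (α i : ℕ)) ∧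
          (∀ i : Fin M, u' (σ (Fin.castAdd k i)) = (α' i : ℕ))
        then H σ (fun p => some (u (σ (Fin.natAdd M p)), u' (σ (Fin.natAdd M p)))) else 0) := by
    intro σ
    rw [sg_mul_sg, Finset.sum_mul]
    refine Finset.sum_congr rfl fun α _ => ?_
    rw [Finset.sum_mul]
    refine Finset.sum_congr rfl fun α' _ => ?_
    split_ifs <;> ring
  rw [Finset.sum_congr rfl fun σ _ => h1 σ, Finset.sum_comm]
  have h2 : ∀ α : Perm (Fin M), ∑ σ : Perm (Fin (M + k)), ∑ α' : Perm (Fin M),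
        (((Perm.sign α : ℤ) : ℂ) * ((Perm.sign α' : ℤ) : ℂ)) *
        (if (∀ i : Fin M, u (σ (Fin.castAdd k i)) = (α i : ℕ)) ∧
          (∀ i : Fin M, u' (σ (Fin.castAdd k i)) = (α' i : ℕ))
        then H σ (fun p => some (u (σ (Fin.natAdd M p)), u' (σ (Fin.natAdd M p)))) else 0) =
      ∑ π : Perm (Fin M), ((Perm.sign π : ℤ) : ℂ) *
        psiQ H π M (fun x => some (u x, u' x)) := by
    intro α
    rw [Finset.sum_comm]
    refine (Fintype.sum_equiv (Equiv.mulRight α) _ _ ?_).symm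
    intro π
    rw [← Finset.mul_sum, sum_pair H hH, Equiv.coe_mulRight, mul_inv_cancel_right, map_mul]
    congr 1
    push_cast
    rw [mul_left_comm, sign_mul_sign, mul_one]
  rw [Finset.sum_congr rfl fun α _ => h2 α, Finset.sum_const, Finset.card_univ, nsmul_eq_mul]

end Vale.Agent.P197.Sx
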