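import Vale.Agent.P197.Sx.S1Defs

/-! Module G-d: the extremal (maximal trace) argument. -/

namespace Vale.Agent.P197.Sx

open Equiv Finset

section inj

variable {n : ℕ} {L : Type*} [DecidableEq L]

theorem opE_inj_lt {i j : L} (hij : i ≠ j) {φ : (Fin n → L) → ℂ}
    (h : ∀ w, φ w ≠ 0 → cntL i w < cntL j w) (hE : opE i j φ = 0) : φ = 0 := by
  classical
  have key : ∀ a b : ℕ, (fun w => if cntL i w = a ∧ cntL j w = b then φ w else 0) = 0 := by
    intro a b
    by_cases hab : a < b
    · apply opE_injective hij (a := a) (b := b) ?_ hab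
      · funext w
        rw [opE_apply, Pi.zero_apply]
        by_cases hw : cntL i w = a + 1 ∧ cntL j w + 1 = b
        · have h1 : ∀ p ∈ univ.filter (fun p => w p = i),
              (fun w => if cntL i w = a ∧ cntL j w = b then φ w else 0) (Function.update w p j) =
                φ (Function.update w p j) := by
            intro p hp
            simp only [mem_filter, mem_univ, true_and] at hp
            have h2 := cntL_update_self hij.symm w p hp
            have h3 := cntL_update_other hij.symm w p hp
            simp only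
            rw [if_pos (by omega)]
          rw [Finset.sum_congr rfl h1]
          exact congrFun hE w
        · refine Finset.sum_eq_zero fun p hp => ?_
          simp only [mem_filter, mem_univ, true_and] at hp
          have h2 := cntL_update_self hij.symm w p hp
          have h3 := cntL_update_other hij.symm w p hp
          rw [if_neg (by omega)]
      · intro w hw
        simp only [ne_eq, ite_eq_right_iff, Classical.not_imp] at hw
        exact hw.1
    · funext w
      rw [Pi.zero_apply]
      split_ifs with hw
      · by_contra hne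
        have := h w hne
        omega
      · rfl
  funext w
  have := congrFun (key (cntL i w) (cntL j w)) w
  simpa using this

end inj

variable {M n : ℕ}

/-- a diagonal letter -/
def isDg (x : LL) : Prop := ∃ j, x = some (j, j)

open Classical in
/-- the trace of a word -/
noncomputable def trW (W : Fin n → LL) : ℕ := (univ.filter fun p => isDg (W p)).card

theorem trW_le (W : Fin n → LL) : trW W ≤ n := by
  classical
  unfold trW
  refine (Finset.card_filter_le _ _).trans ?_
  simp

theorem trW_update (W : Fin n → LL) (p : Fin n) (i j : ℕ) (hp : W p = some (i, j)) :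
    trW (Function.update W p none) + (if i = j then 1 else 0) = trW W := by
  classical
  unfold trW
  have hn : ¬ isDg (none : LL) := by
    rintro ⟨j, h⟩
    exact absurd h (by simp)
  by_cases hij : i = j
  · subst hij
    rw [if_pos rfl]
    have h1 : (univ.filter fun q => isDg (W q)) =
        insert p (univ.filter fun q => isDg (Function.update W p none q)) := by
      ext q
      by_cases hq : q = p
      · subst hq
        simp only [mem_filter, mem_univ, true_and, mem_insert, true_or, iff_true]
        exact ⟨i, hp⟩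
      · simp [hq]
    rw [h1, Finset.card_insert_of_notMem]
    simp [hn]
  · rw [if_neg hij, Nat.add_zero]
    congr 1
    ext q
    by_cases hq : q = p
    · subst hq
      simp only [mem_filter, mem_univ, true_and, Function.update_self, hn, false_iff]
      rintro ⟨l, hl⟩
      rw [hp] at hl
      simp only [Option.some.injEq, Prod.mk.injEq] at hl
      exact hij (hl.1.trans hl.2.symm)
    · simp [hq]

theorem opE_trW_lt {φ : (Fin n → LL) → ℂ} {S : ℕ} (h : ∀ W, φ W ≠ 0 → trW W < S) (i j : ℕ)
    (W : Fin n → LL) (hW : opE (some (i, j)) none φ W ≠ 0) :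
    trW W < S + (if i = j then 1 else 0) := by
  rw [opE_apply] at hW
  obtain ⟨p, hp, hne⟩ := Finset.exists_ne_zero_of_sum_ne_zero hW
  simp only [mem_filter, mem_univ, true_and] at hp
  have h1 := h _ hne
  have h2 := trW_update W p i j hp
  omega

/-- the number of fixed points of `π` below `q` -/
def fixb (π : Perm (Fin M)) : ℕ → ℕ
  | 0 => 0
  | q + 1 => fixb π q + (if h : q < M then (if q = (π ⟨q, h⟩ : ℕ) then 1 else 0) else 0)

theorem fixb_le (π : Perm (Fin M)) (q : ℕ) : fixb π q ≤ q := by
  induction q with
  | zero => simp [fixb]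
  | succ q ih =>
    unfold fixb
    split_ifs <;> omega

theorem fixb_lt (π : Perm (Fin M)) (i : Fin M) (hi : π i ≠ i) (q : ℕ) (hq : i.1 < q) :
    fixb π q < q := by
  induction q with
  | zero => omega
  | succ q ih =>
    rcases Nat.lt_or_ge i.1 q with h | h
    · have := ih h
      unfold fixb
      split_ifs <;> omega
    · have h1 : i.1 = q := by omega
      have h2 := fixb_le π q
      have h3 : ¬ q = (π ⟨q, by omega⟩ : ℕ) := by
        intro h4
        apply hi
        have h5 : i = ⟨q, by omega⟩ := Fin.ext h1
        rw [h5]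
        exact Fin.ext h4.symm
      unfold fixb
      rw [dif_pos (by omega), if_neg h3]
      omega

theorem itD_trW_lt {φ : (Fin n → LL) → ℂ} {S : ℕ} (h : ∀ W, φ W ≠ 0 → trW W < S)
    (π : Perm (Fin M)) (q : ℕ) : ∀ W, itD π q φ W ≠ 0 → trW W < S + fixb π q := by
  induction q with
  | zero =>
    intro W hW
    simpa [fixb] using h W hW
  | succ q ih =>
    intro W hW
    unfold itD at hW
    unfold fixb
    split_ifs at hW with hq
    · rw [dif_pos hq]
      have := opE_trW_lt ih _ _ W hW
      omega
    · rw [dif_neg hq]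
      have := ih W hW
      omega

theorem itD_add (π : Perm (Fin M)) (q : ℕ) (φ ψ : (Fin n → LL) → ℂ) :
    itD π q (φ + ψ) = itD π q φ + itD π q ψ := by
  induction q with
  | zero => rfl
  | succ q ih =>
    unfold itD
    split_ifs
    · rw [ih, map_add]
    · exact ih

/-- the diagonal operators on a function supported on words of one trace -/
theorem itD_diag {φ : (Fin n → LL) → ℂ} {T : ℕ} (hφ : φ ≠ 0)
    (h1 : ∀ W, φ W ≠ 0 → cntL none W = M ∧ ∀ j < M, cntL (some (j, j)) W + j < M)
    (hT : ∀ W, φ W ≠ 0 → trW W = T) (q : ℕ) (hq : q ≤ M) :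
    itD (1 : Perm (Fin M)) q φ ≠ 0 ∧ ∀ W, itD (1 : Perm (Fin M)) q φ W ≠ 0 →
      trW W = T + q ∧ cntL none W + q = M ∧
        ∀ j, q ≤ j → j < M → cntL (some (j, j)) W + j < M := by
  induction q with
  | zero =>
    refine ⟨hφ, fun W hW => ⟨hT W hW, (h1 W hW).1, fun j _ hj => (h1 W hW).2 j hj⟩⟩
  | succ q ih =>
    obtain ⟨ih1, ih2⟩ := ih (by omega)
    have hqM : q < M := by omega
    have e : itD (1 : Perm (Fin M)) (q + 1) φ =
        opE (some (q, q)) none (itD (1 : Perm (Fin M)) q φ) := by
      conv_lhs => unfold itD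
      rw [dif_pos hqM]
      rfl
    rw [e]
    refine ⟨?_, ?_⟩
    · intro h0
      apply ih1
      refine opE_inj_lt (by simp) ?_ h0
      intro W hW
      obtain ⟨_, h2, h3⟩ := ih2 W hW
      have := h3 q le_rfl hqM
      omega
    · intro W hW
      rw [opE_apply] at hW
      obtain ⟨p, hp, hne⟩ := Finset.exists_ne_zero_of_sum_ne_zero hW
      simp only [mem_filter, mem_univ, true_and] at hp
      obtain ⟨h2, h3, h4⟩ := ih2 _ hne
      have h5 := trW_update W p q q hp
      have hne' : (none : LL) ≠ some (q, q) := by simp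
      have h6 := cntL_update_self hne' W p hp
      refine ⟨?_, ?_, ?_⟩
      · rw [if_pos rfl] at h5
        omega
      · omega
      · intro j hj hjM
        have h7 := h4 j (by omega) hjM
        have h8 := cntL_update_ne (i := (none : LL)) (j := some (q, q)) (l := some (j, j))
          (by simp) (by
            intro h
            simp only [Option.some.injEq, Prod.mk.injEq] at h
            omega) W p hp
        omega

/-- Let `tr W` be the number of positions with a diagonal letter `some (j,j)`.  Take the maximal
trace `T` of a word in the support of `φ`, `φ0` the part of `φ` of trace `T`.  `opE (some (i,j)) none`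
raises the trace by `1` if `i = j` and by `0` otherwise; so on words of trace `T + M` only `π = 1`
and only `φ0` contributes, and the diagonal operators are injective (`opE_injective`): at step `j`
there are `M - j` letters `none` and less than `M - j` letters `(j,j)`. -/
theorem exists_extremal {M n : ℕ} (φ : (Fin n → LL) → ℂ) (hφ : φ ≠ 0)
    (h1 : ∀ W, φ W ≠ 0 → cntL none W = M ∧ ∀ j < M, cntL (some (j, j)) W + j < M) :
    ∃ W, itD (1 : Perm (Fin M)) M φ W ≠ 0 ∧ ∀ π : Perm (Fin M), π ≠ 1 → itD π M φ W = 0 := by
  classical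
  obtain ⟨W0, hW0⟩ := Function.ne_iff.mp hφ
  have hex : ∃ T, T ≤ n ∧ (∃ W, φ W ≠ 0 ∧ trW W = T) ∧ ∀ W, φ W ≠ 0 → trW W ≤ T := by
    let P : ℕ → Prop := fun T => ∃ W, φ W ≠ 0 ∧ trW W = T
    have hP : P (trW W0) := ⟨W0, hW0, rfl⟩
    refine ⟨Nat.findGreatest P n, Nat.findGreatest_le n, ?_, ?_⟩
    · exact Nat.findGreatest_spec (P := P) (trW_le W0) hP
    · intro W hW
      exact Nat.le_findGreatest (trW_le W) ⟨W, hW, rfl⟩
  obtain ⟨T, _, ⟨W1, hW1, hT1⟩, hT⟩ := hex
  let φ0 : (Fin n → LL) → ℂ := fun W => if trW W = T then φ W else 0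
  let φ1 : (Fin n → LL) → ℂ := fun W => if trW W = T then 0 else φ W
  have hsum : φ = φ0 + φ1 := by
    funext W
    simp only [φ0, φ1, Pi.add_apply]
    split_ifs <;> simp
  have h00 : φ0 ≠ 0 := by
    intro h
    have := congrFun h W1
    simp only [φ0, hT1, if_true, Pi.zero_apply] at this
    exact hW1 this
  have hsupp0 : ∀ W, φ0 W ≠ 0 → φ W ≠ 0 ∧ trW W = T := by
    intro W hW
    simp only [φ0, ne_eq, ite_eq_right_iff, Classical.not_imp] at hW
    exact ⟨hW.2, hW.1⟩
  have hsupp1 : ∀ W, φ1 W ≠ 0 → trW W < T := by
    intro W hW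
    simp only [φ1, ne_eq, ite_eq_left_iff, Classical.not_imp] at hW
    have := hT W hW.2
    omega
  obtain ⟨h2, h3⟩ := itD_diag (M := M) (T := T) h00 (fun W hW => h1 W (hsupp0 W hW).1)
    (fun W hW => (hsupp0 W hW).2) M le_rfl
  obtain ⟨W, hW⟩ := Function.ne_iff.mp h2
  have hW' : itD (1 : Perm (Fin M)) M φ0 W ≠ 0 := hW
  have htr := (h3 W hW').1
  refine ⟨W, ?_, ?_⟩
  · rw [hsum, itD_add, Pi.add_apply]
    have h4 : itD (1 : Perm (Fin M)) M φ1 W = 0 := by
      by_contra h5
      have h6 := itD_trW_lt hsupp1 (1 : Perm (Fin M)) M W h5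
      have h7 := fixb_le (1 : Perm (Fin M)) M
      omega
    rw [h4, add_zero]
    exact hW'
  · intro π hπ
    by_contra h5
    have h6 := itD_trW_lt (S := T + 1) (fun W hW => Nat.lt_succ_of_le (hT W hW)) π M W h5
    obtain ⟨i, hi⟩ : ∃ i, π i ≠ i := by
      by_contra hcon
      push Not at hcon
      exact hπ (Equiv.ext hcon)
    have h7 := fixb_lt π i hi M i.2
    omega

end Vale.Agent.P197.Sx
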