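import Vale.Agent.P197.Sx.S1Defs

namespace Vale.Agent.P197.Sx

open Equiv Finset

theorem append_comp_blockPerm' {M k : ℕ} (u : Fin M → ℕ) (v : Fin k → ℕ) (π : Perm (Fin M))
    (σ : Perm (Fin k)) :
    Fin.append u v ∘ (blockPerm π σ) = Fin.append (u ∘ π) (v ∘ σ) := by
  funext x
  obtain ⟨z, rfl⟩ := finSumFinEquiv.surjective x
  rcases z with i | i
  · rw [Function.comp_apply, blockPerm_inl]
    simp
  · rw [Function.comp_apply, blockPerm_inr]
    simp

theorem resS_blockPerm_left {M k : ℕ} (z0 : Fin M → ℕ) (c : (Fin (M + k) → ℕ) → ℂ)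
    (τ : Perm (Fin M)) :
    resS z0 (fun w => c (w ∘ blockPerm τ (1 : Perm (Fin k)))) = resS z0 c := by
  funext v
  unfold resS
  conv_rhs => rw [← Equiv.sum_comp (Equiv.mulRight τ)]
  refine Finset.sum_congr rfl fun τ' _ => ?_
  change c (Fin.append (fun i => z0 (τ' i)) v ∘ blockPerm τ 1) = _
  rw [append_comp_blockPerm']
  rfl

theorem resS_blockPerm_right {M k : ℕ} (z0 : Fin M → ℕ) (c : (Fin (M + k) → ℕ) → ℂ)
    (τ : Perm (Fin k)) :
    resS z0 (fun w => c (w ∘ blockPerm (1 : Perm (Fin M)) τ)) = fun v => resS z0 c (v ∘ τ) := by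
  funext v
  unfold resS
  refine Finset.sum_congr rfl fun τ' _ => ?_
  change c (Fin.append (fun i => z0 (τ' i)) v ∘ blockPerm 1 τ) = _
  rw [append_comp_blockPerm']
  rfl

noncomputable def stripSum {β ν : YoungDiagram} (hle : β ≤ ν) :
    (↥(ν.cells \ β.cells) ⊕ ↥β.cells) ≃ ↥ν.cells :=
  Equiv.ofBijective (Sum.elim (fun c => ⟨c.1, (Finset.mem_sdiff.mp c.2).1⟩)
    (fun c => ⟨c.1, hle c.2⟩)) (by
    constructor
    · rintro (a | a) (b | b) h
      · have h' := congrArg Subtype.val h
        exact congrArg Sum.inl (Subtype.ext h')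
      · exfalso
        have h' : a.1 = b.1 := congrArg Subtype.val h
        exact (Finset.mem_sdiff.mp a.2).2 (h' ▸ b.2)
      · exfalso
        have h' : a.1 = b.1 := congrArg Subtype.val h
        exact (Finset.mem_sdiff.mp b.2).2 (h' ▸ a.2)
      · have h' := congrArg Subtype.val h
        exact congrArg Sum.inr (Subtype.ext h')
    · intro p
      by_cases hp : p.1 ∈ β.cells
      · exact ⟨Sum.inr ⟨p.1, hp⟩, rfl⟩
      · exact ⟨Sum.inl ⟨p.1, Finset.mem_sdiff.mpr ⟨p.2, hp⟩⟩, rfl⟩)

noncomputable def pieriTab {M k : ℕ} {β ν : YoungDiagram} (hle : β ≤ ν)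
    (E : Fin M ≃ ↥(ν.cells \ β.cells)) (s : Fin k ≃ β.cells) : Fin (M + k) ≃ ν.cells :=
  finSumFinEquiv.symm.trans ((Equiv.sumCongr E s).trans (stripSum hle))

theorem pieriTab_inl {M k : ℕ} {β ν : YoungDiagram} (hle : β ≤ ν)
    (E : Fin M ≃ ↥(ν.cells \ β.cells)) (s : Fin k ≃ β.cells) (i : Fin M) :
    (pieriTab hle E s (finSumFinEquiv (Sum.inl i))).1 = (E i).1 := by
  unfold pieriTab stripSum
  rw [Equiv.trans_apply, Equiv.symm_apply_apply]
  rfl

theorem pieriTab_inr {M k : ℕ} {β ν : YoungDiagram} (hle : β ≤ ν)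
    (E : Fin M ≃ ↥(ν.cells \ β.cells)) (s : Fin k ≃ β.cells) (i : Fin k) :
    (pieriTab hle E s (finSumFinEquiv (Sum.inr i))).1 = (s i).1 := by
  unfold pieriTab stripSum
  rw [Equiv.trans_apply, Equiv.symm_apply_apply]
  rfl

theorem strip_low {β ν : YoungDiagram} (hstrip : ∀ j, ν.colLen j ≤ β.colLen j + 1)
    {c d : ℕ × ℕ} (hc : c ∈ ν.cells \ β.cells) (hd : d ∈ ν.cells) (hcd : d.2 = c.2) :
    d.1 ≤ c.1 := by
  rw [Finset.mem_sdiff] at hc
  obtain ⟨h1, h2⟩ := hc
  have h3 : ¬ c.1 < β.colLen c.2 := by
    intro h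
    apply h2
    exact YoungDiagram.mem_iff_lt_colLen.mpr h
  have h4 : d.1 < ν.colLen d.2 := YoungDiagram.mem_iff_lt_colLen.mp hd
  have h5 := hstrip c.2
  rw [hcd] at h4
  omega

theorem exists_tab_resS {M k : ℕ} {β ν : YoungDiagram} (hle : β ≤ ν) (hβ : β.card = k)
    (hν : ν.card = M + k) (hstrip : ∀ j, ν.colLen j ≤ β.colLen j + 1) :
    ∃ z0 : Fin M → ℕ, ∀ s : Fin k ≃ β.cells, ∃ (t : Fin (M + k) ≃ ν.cells) (C : ℂ), C ≠ 0 ∧
      resS z0 (polytabloid t : (Fin (M + k) → ℕ) → ℂ) =
        C • (polytabloid s : (Fin k → ℕ) → ℂ) := by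
  classical
  have hcard : Fintype.card ↥(ν.cells \ β.cells) = M := by
    rw [Fintype.card_coe, Finset.card_sdiff_of_subset hle]
    change ν.card - β.card = M
    omega
  let E : Fin M ≃ ↥(ν.cells \ β.cells) := (Fintype.equivFinOfCardEq hcard).symm
  refine ⟨fun i => (E i).1.1, fun s => ?_⟩
  let z0 : Fin M → ℕ := fun i => (E i).1.1
  let t := pieriTab hle E s
  let S : Finset (Perm (Fin M)) := univ.filter fun τ => z0 ∘ τ = z0
  refine ⟨t, (S.card : ℂ), ?_, ?_⟩
  · have : 0 < S.card := by
      apply Finset.card_pos.mpr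
      exact ⟨1, by simp [S]⟩
    exact_mod_cast this.ne'
  have tabl : ∀ i : Fin M, tabloid t (finSumFinEquiv (Sum.inl i)) = z0 i := by
    intro i
    change (t (finSumFinEquiv (Sum.inl i))).1.1 = _
    rw [pieriTab_inl]
  have tabr : ∀ i : Fin k, tabloid t (finSumFinEquiv (Sum.inr i)) = tabloid s i := by
    intro i
    change (t (finSumFinEquiv (Sum.inr i))).1.1 = _
    rw [pieriTab_inr]
    rfl
  have low : ∀ π ∈ colStab t, ∀ i : Fin M,
      tabloid t (π (finSumFinEquiv (Sum.inl i))) ≤ z0 i := by
    intro π hπ i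
    rw [mem_colStab] at hπ
    have h1 := hπ (finSumFinEquiv (Sum.inl i))
    have h2 : (t (finSumFinEquiv (Sum.inl i))).1 = (E i).1 := pieriTab_inl hle E s i
    rw [h2] at h1
    exact strip_low hstrip (E i).2 (t (π (finSumFinEquiv (Sum.inl i)))).2 h1
  have low' : ∀ π ∈ colStab t, ∀ i : Fin M,
      tabloid t (π (finSumFinEquiv (Sum.inl i))) = z0 i →
      π (finSumFinEquiv (Sum.inl i)) = finSumFinEquiv (Sum.inl i) := by
    intro π hπ i hi
    rw [mem_colStab] at hπ
    apply t.injective
    apply Subtype.ext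
    have h2 : (t (finSumFinEquiv (Sum.inl i))).1 = (E i).1 := pieriTab_inl hle E s i
    apply Prod.ext
    · rw [h2]
      exact hi
    · exact hπ _
  have claimA : ∀ (τ : Perm (Fin M)) (v : Fin k → ℕ), z0 ∘ τ ≠ z0 →
      polytabloid t (Fin.append (fun i => z0 (τ i)) v) = 0 := by
    intro τ v hτ
    rw [polytabloid_apply]
    refine Finset.sum_eq_zero fun π hπ => ?_
    rw [if_neg]
    intro h
    apply hτ
    have h1 : ∀ i, z0 (τ i) ≤ z0 i := by
      intro i
      have h2 := congrFun h (finSumFinEquiv (Sum.inl i))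
      have h3 := low _ (inv_mem_colStab hπ) i
      rw [Function.comp_apply] at h2
      have h4 : Fin.append (fun i => z0 (τ i)) v (finSumFinEquiv (Sum.inl i)) = z0 (τ i) := by
        simp
      rw [h4] at h2
      rw [← h2]
      exact h3
    have h5 : ∑ i, z0 (τ i) = ∑ i, z0 i := Equiv.sum_comp τ z0
    have h6 := (Finset.sum_eq_sum_iff_of_le (fun i _ => h1 i)).mp h5
    funext i
    exact h6 i (Finset.mem_univ i)
  have claimB : ∀ v : Fin k → ℕ, polytabloid t (Fin.append z0 v) = polytabloid s v := by
    intro v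
    rw [polytabloid_apply, polytabloid_apply, ← Finset.sum_filter, ← Finset.sum_filter]
    symm
    refine Finset.sum_bij (fun σ _ => blockPerm 1 σ) ?_ ?_ ?_ ?_
    · intro σ hσ
      rw [Finset.mem_filter] at hσ ⊢
      obtain ⟨h1, h2⟩ := hσ
      refine ⟨?_, ?_⟩
      · rw [mem_colStab] at h1 ⊢
        intro x
        obtain ⟨z, rfl⟩ := finSumFinEquiv.surjective x
        rcases z with i | i
        · rw [blockPerm_inl]
          rfl
        · rw [blockPerm_inr]
          change (pieriTab hle E s (finSumFinEquiv (Sum.inr (σ i)))).1.2 =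
            (pieriTab hle E s (finSumFinEquiv (Sum.inr i))).1.2
          rw [pieriTab_inr, pieriTab_inr]
          exact h1 i
      · have h3 : tabloid t = Fin.append z0 (tabloid s) := by
          funext x
          obtain ⟨z, rfl⟩ := finSumFinEquiv.surjective x
          rcases z with i | i
          · rw [tabl]
            simp
          · rw [tabr]
            simp
        rw [h3, append_comp_blockPerm, h2]
        rfl
    · intro σ _ σ' _ h
      apply Equiv.ext
      intro i
      have h1 := congrFun (congrArg DFunLike.coe h) (finSumFinEquiv (Sum.inr i))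
      rw [blockPerm_inr, blockPerm_inr] at h1
      have h2 := finSumFinEquiv.injective h1
      exact Sum.inr_injective h2
    · intro π hπ
      rw [Finset.mem_filter] at hπ
      obtain ⟨h1, h2⟩ := hπ
      have hfixinv : ∀ i : Fin M, π⁻¹ (finSumFinEquiv (Sum.inl i)) =
          finSumFinEquiv (Sum.inl i) := by
        intro i
        apply low' _ (inv_mem_colStab h1)
        have h3 := congrFun h2 (finSumFinEquiv (Sum.inl i))
        have h4 : Fin.append z0 v (finSumFinEquiv (Sum.inl i)) = z0 i := by simp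
        rw [h4] at h3
        exact h3
      have hfix : ∀ i : Fin M, π (finSumFinEquiv (Sum.inl i)) = finSumFinEquiv (Sum.inl i) := by
        intro i
        have := congrArg π (hfixinv i)
        change π (π.symm _) = _ at this
        rw [Equiv.apply_symm_apply] at this
        exact this.symm
      have hr : ∀ (ρ : Perm (Fin (M + k))),
          (∀ i : Fin M, ρ (finSumFinEquiv (Sum.inl i)) = finSumFinEquiv (Sum.inl i)) →
          ∀ j : Fin k, ∃ j' : Fin k,
            ρ (finSumFinEquiv (Sum.inr j)) = finSumFinEquiv (Sum.inr j') := by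
        intro ρ hρ j
        obtain ⟨z, hz⟩ := finSumFinEquiv.surjective (ρ (finSumFinEquiv (Sum.inr j)))
        rcases z with i | j'
        · exfalso
          rw [← hρ i] at hz
          have := finSumFinEquiv.injective (ρ.injective hz)
          exact Sum.inl_ne_inr this
        · exact ⟨j', hz.symm⟩
      choose f hf using hr π hfix
      choose g hg using hr π⁻¹ hfixinv
      let σ : Perm (Fin k) :=
        { toFun := f
          invFun := g
          left_inv := by
            intro j
            have h3 := hg (f j)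
            rw [← hf j] at h3
            change π.symm (π _) = _ at h3
            rw [Equiv.symm_apply_apply] at h3
            exact (Sum.inr_injective (finSumFinEquiv.injective h3)).symm
          right_inv := by
            intro j
            have h3 := hf (g j)
            rw [← hg j] at h3
            change π (π.symm _) = _ at h3
            rw [Equiv.apply_symm_apply] at h3
            exact (Sum.inr_injective (finSumFinEquiv.injective h3)).symm }
      have hπσ : blockPerm 1 σ = π := by
        apply Equiv.ext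
        intro x
        obtain ⟨z, rfl⟩ := finSumFinEquiv.surjective x
        rcases z with i | i
        · rw [blockPerm_inl, hfix]
          rfl
        · rw [blockPerm_inr, hf]
          rfl
      refine ⟨σ, ?_, hπσ⟩
      rw [Finset.mem_filter]
      constructor
      · rw [mem_colStab] at h1 ⊢
        intro i
        have h3 := h1 (finSumFinEquiv (Sum.inr i))
        rw [hf] at h3
        have h4 : (t (finSumFinEquiv (Sum.inr (f i)))).1 = (s (f i)).1 :=
          pieriTab_inr hle E s (f i)
        have h5 : (t (finSumFinEquiv (Sum.inr i))).1 = (s i).1 := pieriTab_inr hle E s i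
        rw [h4, h5] at h3
        exact h3
      · funext i
        have h3 := congrFun h2 (finSumFinEquiv (Sum.inr i))
        have h4 : Fin.append z0 v (finSumFinEquiv (Sum.inr i)) = v i := by simp
        rw [h4] at h3
        rw [← h3]
        change tabloid s (g i) = tabloid t (π⁻¹ (finSumFinEquiv (Sum.inr i)))
        rw [hg, tabr]
    · intro σ _
      rw [sign_blockPerm]
      simp
  funext v
  change resS z0 (polytabloid t : (Fin (M + k) → ℕ) → ℂ) v = _
  unfold resS
  have h1 : ∀ τ : Perm (Fin M), polytabloid t (Fin.append (fun i => z0 (τ i)) v) =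
      if z0 ∘ τ = z0 then polytabloid s v else 0 := by
    intro τ
    split_ifs with h
    · rw [← claimB v]
      congr 2
    · exact claimA τ v h
  rw [Finset.sum_congr rfl fun τ _ => h1 τ, ← Finset.sum_filter, Finset.sum_const, nsmul_eq_mul]
  rfl

end Vale.Agent.P197.Sx
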