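import Vale.Agent.P197.Sx.S1Defs
import Vale.Agent.P197.Sx.S1Exp

/-! Module G-c: `opE (some (q, π q)) none` maps `psiQ π q` to a multiple of `psiQ π (q+1)`. -/

namespace Vale.Agent.P197.Sx

open Equiv Finset

theorem psiQ_step {M k : ℕ} (H : Perm (Fin (M + k)) → (Fin k → LL) → ℂ)
    (hH : ∀ σ (τ : Perm (Fin M)) y, H (σ * blockPerm τ 1) y = H σ y)
    (hH0 : ∀ σ y, (∃ p, y p = none) → H σ y = 0) (π : Perm (Fin M)) (q : ℕ) (hq : q < M) :
    opE (some (q, (π ⟨q, hq⟩ : ℕ))) none (psiQ H π q) = ((M - q : ℕ) : ℂ) • psiQ H π (q + 1) := by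
  classical
  funext W
  rw [opE_apply, Pi.smul_apply, smul_eq_mul]
  unfold psiQ
  set l : LL := some (q, (π ⟨q, hq⟩ : ℕ)) with hl
  rw [Finset.sum_filter]
  -- move the sum over positions inside and reindex positions by `σ`
  have h1 : ∀ p : Fin (M + k), (if W p = l then
      ∑ σ : Perm (Fin (M + k)),
        (if (∀ i : Fin M, Function.update W p none (σ (Fin.castAdd k i)) =
          if (i : ℕ) < q then some ((i : ℕ), (π i : ℕ)) else none)
        then H σ (fun r => Function.update W p none (σ (Fin.natAdd M r))) else 0) else 0) =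
      ∑ σ : Perm (Fin (M + k)), (if W p = l then
        (if (∀ i : Fin M, Function.update W p none (σ (Fin.castAdd k i)) =
          if (i : ℕ) < q then some ((i : ℕ), (π i : ℕ)) else none)
        then H σ (fun r => Function.update W p none (σ (Fin.natAdd M r))) else 0) else 0) := by
    intro p
    split_ifs <;> simp
  rw [Finset.sum_congr rfl fun p _ => h1 p, Finset.sum_comm]
  have h2 : ∀ σ : Perm (Fin (M + k)), ∑ p : Fin (M + k), (if W p = l then
        (if (∀ i : Fin M, Function.update W p none (σ (Fin.castAdd k i)) =
          if (i : ℕ) < q then some ((i : ℕ), (π i : ℕ)) else none)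
        then H σ (fun r => Function.update W p none (σ (Fin.natAdd M r))) else 0) else 0) =
      ∑ i0 : Fin M, (if q ≤ (i0 : ℕ) then
        (if (∀ i : Fin M, W ((σ * blockPerm (Equiv.swap (⟨q, hq⟩ : Fin M) i0) (1 : Perm (Fin k)) : Perm (Fin (M + k))) (Fin.castAdd k i)) =
          if (i : ℕ) < q + 1 then some ((i : ℕ), (π i : ℕ)) else none)
        then H σ (fun r => W (σ (Fin.natAdd M r))) else 0) else 0) := by
    intro σ
    rw [← Equiv.sum_comp σ, Fin.sum_univ_add]
    have h3 : ∑ r : Fin k, (if W (σ (Fin.natAdd M r)) = l then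
        (if (∀ i : Fin M, Function.update W (σ (Fin.natAdd M r)) none (σ (Fin.castAdd k i)) =
          if (i : ℕ) < q then some ((i : ℕ), (π i : ℕ)) else none)
        then H σ (fun r' => Function.update W (σ (Fin.natAdd M r)) none (σ (Fin.natAdd M r')))
        else 0) else 0) = 0 := by
      refine Finset.sum_eq_zero fun r _ => ?_
      rw [hH0 σ _ ⟨r, by simp⟩]
      simp
    rw [h3, add_zero]
    refine Finset.sum_congr rfl fun i0 _ => ?_
    have h4 : (fun r => Function.update W (σ (Fin.castAdd k i0)) none (σ (Fin.natAdd M r))) =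
        fun r => W (σ (Fin.natAdd M r)) := by
      funext r
      rw [Function.update_of_ne]
      intro h
      have := congrArg Fin.val (σ.injective h)
      simp at this
      omega
    rw [h4]
    have h5 : (W (σ (Fin.castAdd k i0)) = l ∧
        (∀ i : Fin M, Function.update W (σ (Fin.castAdd k i0)) none (σ (Fin.castAdd k i)) =
          if (i : ℕ) < q then some ((i : ℕ), (π i : ℕ)) else none)) ↔
        (q ≤ (i0 : ℕ) ∧
        (∀ i : Fin M, W ((σ * blockPerm (Equiv.swap (⟨q, hq⟩ : Fin M) i0) (1 : Perm (Fin k)) : Perm (Fin (M + k))) (Fin.castAdd k i)) =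
          if (i : ℕ) < q + 1 then some ((i : ℕ), (π i : ℕ)) else none)) := by
      have hval : ∀ i : Fin M, (σ * blockPerm (Equiv.swap (⟨q, hq⟩ : Fin M) i0) (1 : Perm (Fin k)) : Perm (Fin (M + k))) (Fin.castAdd k i) =
          σ (Fin.castAdd k (Equiv.swap (⟨q, hq⟩ : Fin M) i0 i)) := by
        intro i
        rw [Perm.mul_apply, blockPerm_castAdd]
      simp only [hval]
      constructor
      · rintro ⟨ha, hb⟩
        have hq0 : q ≤ (i0 : ℕ) := by
          by_contra hcon
          have := hb i0
          rw [if_pos (by omega), Function.update_self] at this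
          exact absurd this (by simp)
        refine ⟨hq0, fun i => ?_⟩
        by_cases hi1 : i = ⟨q, hq⟩
        · subst hi1
          rw [Equiv.swap_apply_left, ha, if_pos (Nat.lt_succ_self q)]
        · by_cases hi2 : i = i0
          · subst hi2
            rw [Equiv.swap_apply_right]
            have hne : (i : ℕ) ≠ q := fun h => hi1 (Fin.ext h)
            rw [if_neg (by omega)]
            have := hb ⟨q, hq⟩
            rw [if_neg (lt_irrefl q), Function.update_of_ne] at this
            · exact this
            · intro h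
              have h6 := σ.injective h
              have := congrArg Fin.val h6
              simp at this
              exact hne this.symm
          · rw [Equiv.swap_apply_of_ne_of_ne hi1 hi2]
            have hne : (i : ℕ) ≠ q := fun h => hi1 (Fin.ext h)
            have := hb i
            rw [Function.update_of_ne] at this
            · rw [this]
              by_cases h7 : (i : ℕ) < q
              · rw [if_pos h7, if_pos (by omega)]
              · rw [if_neg h7, if_neg (by omega)]
            · intro h
              have h6 := σ.injective h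
              have := congrArg Fin.val h6
              simp at this
              exact hi2 (Fin.ext this)
      · rintro ⟨hq0, hb⟩
        have ha : W (σ (Fin.castAdd k i0)) = l := by
          have := hb ⟨q, hq⟩
          rw [Equiv.swap_apply_left, if_pos (Nat.lt_succ_self q)] at this
          exact this
        refine ⟨ha, fun i => ?_⟩
        by_cases hi2 : i = i0
        · subst hi2
          rw [Function.update_self, if_neg (by omega)]
        · rw [Function.update_of_ne]
          · by_cases hi1 : i = ⟨q, hq⟩
            · subst hi1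
              have := hb i0
              rw [Equiv.swap_apply_right] at this
              rw [this]
              have hne : (i0 : ℕ) ≠ q := fun h => hi2 (Fin.ext h.symm)
              rw [if_neg (by omega), if_neg (lt_irrefl q)]
            · have := hb i
              rw [Equiv.swap_apply_of_ne_of_ne hi1 hi2] at this
              rw [this]
              have hne : (i : ℕ) ≠ q := fun h => hi1 (Fin.ext h)
              by_cases h7 : (i : ℕ) < q
              · rw [if_pos h7, if_pos (by omega)]
              · rw [if_neg h7, if_neg (by omega)]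
          · intro h
            have h6 := σ.injective h
            have := congrArg Fin.val h6
            simp at this
            exact hi2 (Fin.ext this)
    rw [← ite_and, ← ite_and]
    exact if_congr h5 rfl rfl
  rw [Finset.sum_congr rfl fun σ _ => h2 σ, Finset.sum_comm]
  have h6 : ∀ i0 : Fin M, ∑ σ : Perm (Fin (M + k)), (if q ≤ (i0 : ℕ) then
        (if (∀ i : Fin M, W ((σ * blockPerm (Equiv.swap (⟨q, hq⟩ : Fin M) i0) (1 : Perm (Fin k)) : Perm (Fin (M + k))) (Fin.castAdd k i)) =
          if (i : ℕ) < q + 1 then some ((i : ℕ), (π i : ℕ)) else none)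
        then H σ (fun r => W (σ (Fin.natAdd M r))) else 0) else 0) =
      if q ≤ (i0 : ℕ) then (∑ σ : Perm (Fin (M + k)),
        (if (∀ i : Fin M, W (σ (Fin.castAdd k i)) =
          if (i : ℕ) < q + 1 then some ((i : ℕ), (π i : ℕ)) else none)
        then H σ (fun r => W (σ (Fin.natAdd M r))) else 0)) else 0 := by
    intro i0
    by_cases hi : q ≤ (i0 : ℕ)
    · simp only [if_pos hi]
      refine Fintype.sum_equiv
        (Equiv.mulRight (blockPerm (Equiv.swap (⟨q, hq⟩ : Fin M) i0) (1 : Perm (Fin k)))) _ _ ?_
      intro σ
      refine if_congr Iff.rfl ?_ rfl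
      simp only [Equiv.coe_mulRight, hH, Perm.mul_apply, blockPerm_natAdd, Perm.one_apply]
    · simp only [if_neg hi, Finset.sum_const_zero]
  rw [Finset.sum_congr rfl fun i0 _ => h6 i0, ← Finset.sum_filter, Finset.sum_const, nsmul_eq_mul]
  congr 2
  have h7 : (univ.filter fun i : Fin M => q ≤ (i : ℕ)) = Finset.Ici ⟨q, hq⟩ := by
    ext i
    simp [Fin.le_def]
  rw [h7, Fin.card_Ici]

theorem itD_psiQ {M k : ℕ} (H : Perm (Fin (M + k)) → (Fin k → LL) → ℂ)
    (hH : ∀ σ (τ : Perm (Fin M)) y, H (σ * blockPerm τ 1) y = H σ y)
    (hH0 : ∀ σ y, (∃ p, y p = none) → H σ y = 0) (π : Perm (Fin M)) (q : ℕ) (hq : q ≤ M) :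
    ∃ C : ℂ, C ≠ 0 ∧ itD π q (psiQ H 1 0) = C • psiQ H π q := by
  induction q with
  | zero =>
    refine ⟨1, one_ne_zero, ?_⟩
    rw [one_smul]
    funext W
    unfold itD psiQ
    simp only [Nat.not_lt_zero, if_false]
  | succ q ih =>
    obtain ⟨C, hC, h⟩ := ih (by omega)
    have hqM : q < M := by omega
    refine ⟨C * ((M - q : ℕ) : ℂ), mul_ne_zero hC ?_, ?_⟩
    · rw [Nat.cast_ne_zero]
      omega
    · unfold itD
      rw [dif_pos hqM, h, map_smul, psiQ_step H hH hH0 π q hqM, smul_smul]

end Vale.Agent.P197.Sx
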