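import Vale.Agent.P197.Sx.S1Exp

/-! Module G-b: restriction of polytabloids of the staircase to the rows below the first. -/

namespace Vale.Agent.P197.Sx

open Equiv Finset

variable {m k : ℕ}

/-- the cells of the staircase of size `m + 1`: the first row and the rest -/
def cellE (m : ℕ) : Fin (m + 1) ⊕ (staircase m).cells ≃ (staircase (m + 1)).cells where
  toFun := Sum.elim
    (fun j => ⟨(0, (j : ℕ)), by
      have h := j.2
      simp only [YoungDiagram.mem_cells, mem_staircase]
      omega⟩)
    (fun c => ⟨(c.1.1 + 1, c.1.2), by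
      have h := c.2
      simp only [YoungDiagram.mem_cells, mem_staircase] at h ⊢
      omega⟩)
  invFun c := if h : c.1.1 = 0 then Sum.inl ⟨c.1.2, by
      have h' := c.2
      simp only [YoungDiagram.mem_cells, mem_staircase] at h'
      omega⟩ else Sum.inr ⟨(c.1.1 - 1, c.1.2), by
      have h' := c.2
      simp only [YoungDiagram.mem_cells, mem_staircase] at h' ⊢
      omega⟩
  left_inv c := by
    rcases c with j | c
    · simp
    · simp
  right_inv c := by
    obtain ⟨⟨a, b⟩, h⟩ := c
    rcases a with _ | a
    · simp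
    · simp

/-- put the first row on the first `m + 1` positions -/
def glueR (α : Perm (Fin (m + 1))) (s : Fin k ≃ (staircase m).cells) :
    Fin (m + 1 + k) ≃ (staircase (m + 1)).cells :=
  finSumFinEquiv.symm.trans ((Equiv.sumCongr α s).trans (cellE m))

theorem glueR_castAdd (α : Perm (Fin (m + 1))) (s : Fin k ≃ (staircase m).cells)
    (i : Fin (m + 1)) : (glueR α s (Fin.castAdd k i)).1 = (0, (α i : ℕ)) := by
  simp [glueR, cellE]

theorem glueR_natAdd (α : Perm (Fin (m + 1))) (s : Fin k ≃ (staircase m).cells)
    (p : Fin k) : (glueR α s (Fin.natAdd (m + 1) p)).1 = ((s p).1.1 + 1, (s p).1.2) := by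
  simp [glueR, cellE]

theorem colWord_glueR (α : Perm (Fin (m + 1))) (s : Fin k ≃ (staircase m).cells) :
    colWord (glueR α s) = Fin.append (fun i => (α i : ℕ)) (colWord s) := by
  funext x
  induction x using Fin.addCases with
  | left i => rw [colWord, glueR_castAdd, Fin.append_left]
  | right p => rw [colWord, glueR_natAdd, Fin.append_right]; rfl

theorem exists_blockPerm' {M : ℕ} (σ : Perm (Fin (M + k)))
    (h : ∀ i : Fin M, σ (Fin.castAdd k i) = Fin.castAdd k i) :
    ∃ τ' : Perm (Fin k), σ = blockPerm 1 τ' := by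
  let ρ' : Perm (Fin M ⊕ Fin k) := finSumFinEquiv.symm.permCongr σ
  have hρ' : ∀ z, finSumFinEquiv (ρ' z) = σ (finSumFinEquiv z) := by
    intro z
    simp [ρ', Equiv.permCongr_apply]
  have hmaps : Set.MapsTo ρ' (Set.range Sum.inl) (Set.range Sum.inl) := by
    rintro _ ⟨i, rfl⟩
    refine ⟨i, ?_⟩
    apply finSumFinEquiv.injective
    rw [hρ']
    simpa using (h i).symm
  obtain ⟨⟨π, π'⟩, hπσ⟩ := Perm.mem_sumCongrHom_range_of_perm_mapsTo_inl hmaps
  have hb : σ = blockPerm π π' := by
    ext x : 1
    obtain ⟨z, rfl⟩ := finSumFinEquiv.surjective x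
    rw [← hρ', ← hπσ]
    rcases z with i | i
    · rw [blockPerm_inl]; simp
    · rw [blockPerm_inr]; simp
  have h1 : π = 1 := by
    ext i : 1
    have h2 := h i
    rw [hb, blockPerm_castAdd] at h2
    exact Fin.castAdd_injective M k h2
  exact ⟨π', by rw [hb, h1]⟩

theorem resR_glueR (α : Perm (Fin (m + 1))) (s : Fin k ≃ (staircase m).cells) :
    resR (m + 1) k (polytabloid (glueR α s)) = polytabloid s := by
  classical
  ext v
  rw [resR_apply, polytabloid_apply, polytabloid_apply, ← Finset.sum_filter, ← Finset.sum_filter]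
  refine (Finset.sum_bij (fun π' _ => blockPerm (1 : Perm (Fin (m + 1))) π') ?_ ?_ ?_ ?_).symm
  · intro π' hπ'
    rw [Finset.mem_filter, mem_colStab] at hπ' ⊢
    obtain ⟨h1, h2⟩ := hπ'
    refine ⟨?_, ?_⟩
    · intro x
      induction x using Fin.addCases with
      | left i => rw [blockPerm_castAdd]; rfl
      | right p => rw [blockPerm_natAdd, glueR_natAdd, glueR_natAdd, h1]
    · funext x
      obtain ⟨y, rfl⟩ := (blockPerm (1 : Perm (Fin (m + 1))) π').surjective x
      rw [Function.comp_apply, Equiv.symm_apply_apply]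
      induction y using Fin.addCases with
      | left i =>
        rw [tabloid, glueR_castAdd, blockPerm_castAdd]
        simp [embW]
      | right p =>
        rw [tabloid, glueR_natAdd, blockPerm_natAdd]
        have h3 := congrFun h2 (π' p)
        rw [Function.comp_apply, Equiv.symm_apply_apply] at h3
        simp only [embW, Fin.append_right]
        rw [← h3]
        rfl
  · intro a _ b _ hab
    ext p : 1
    have h1 := congrArg (fun f => f (Fin.natAdd (m + 1) p)) hab
    simp only [blockPerm_natAdd] at h1
    exact Fin.natAdd_injective _ _ h1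
  · intro π hπ
    rw [Finset.mem_filter, mem_colStab] at hπ
    obtain ⟨h1, h2⟩ := hπ
    have h3 : ∀ i : Fin (m + 1), π (Fin.castAdd k i) = Fin.castAdd k i := by
      intro i
      have h4 := congrFun h2 (Fin.castAdd k i)
      rw [Function.comp_apply] at h4
      simp only [embW, Fin.append_left] at h4
      have h5 : ∃ j : Fin (m + 1), π.symm (Fin.castAdd k i) = Fin.castAdd k j := by
        generalize π.symm (Fin.castAdd k i) = y at h4
        induction y using Fin.addCases with
        | left j => exact ⟨j, rfl⟩
        | right p =>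
          rw [tabloid, glueR_natAdd] at h4
          exact absurd h4 (Nat.succ_ne_zero _)
      obtain ⟨j, hj⟩ := h5
      have h6 := h1 (Fin.castAdd k j)
      have h7 : π (Fin.castAdd k j) = Fin.castAdd k i := by
        rw [← hj, Equiv.apply_symm_apply]
      rw [h7, glueR_castAdd, glueR_castAdd] at h6
      have h8 : i = j := α.injective (Fin.ext h6)
      rw [h8] at h7 ⊢
      exact h7
    obtain ⟨τ', rfl⟩ := exists_blockPerm' π h3
    refine ⟨τ', ?_, rfl⟩
    rw [Finset.mem_filter, mem_colStab]
    refine ⟨?_, ?_⟩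
    · intro p
      have h4 := h1 (Fin.natAdd (m + 1) p)
      rw [blockPerm_natAdd, glueR_natAdd, glueR_natAdd] at h4
      exact h4
    · funext x
      obtain ⟨p, rfl⟩ := τ'.surjective x
      have h4 := congrFun h2 (blockPerm (1 : Perm (Fin (m + 1))) τ' (Fin.natAdd (m + 1) p))
      rw [Function.comp_apply, Equiv.symm_apply_apply, blockPerm_natAdd, tabloid,
        glueR_natAdd] at h4
      simp only [embW, Fin.append_right] at h4
      rw [Function.comp_apply, Equiv.symm_apply_apply]
      exact Nat.succ_injective h4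
  · intro π' _
    rw [sign_blockPerm, Perm.sign_one, one_mul]

theorem tsign_glueR (T0 : Fin (m + 1 + k) ≃ (staircase (m + 1)).cells)
    (t0 : Fin k ≃ (staircase m).cells) (α : Perm (Fin (m + 1)))
    (s : Fin k ≃ (staircase m).cells) :
    tsign T0 (glueR α s) =
      tsign T0 (glueR 1 t0) * ((Perm.sign α : ℤ) : ℂ) * tsign t0 s := by
  have h1 : glueR α s = (blockPerm α (s.trans t0.symm)).trans (glueR 1 t0) := by
    ext x : 2
    · induction x using Fin.addCases with
      | left i =>
        rw [Equiv.trans_apply, blockPerm_castAdd, glueR_castAdd, glueR_castAdd]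
        rfl
      | right p =>
        rw [Equiv.trans_apply, blockPerm_natAdd, glueR_natAdd, glueR_natAdd]
        simp
  rw [h1, tsign_trans, sign_blockPerm]
  unfold tsign
  push_cast
  ring

theorem sg_perm {M : ℕ} (α : Perm (Fin M)) :
    sg (fun i => (α i : ℕ)) = ((Perm.sign α : ℤ) : ℂ) := by
  unfold sg
  rw [Finset.sum_eq_single α]
  · rw [if_pos (fun i => rfl)]
  · intro β _ hβ
    rw [if_neg]
    intro h
    apply hβ
    ext i : 1
    exact Fin.ext (h i).symm
  · intro h
    exact absurd (Finset.mem_univ _) h

theorem card_cells_col (m j : ℕ) :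
    Fintype.card {c : (staircase m).cells // c.1.2 = j} = m - j := by
  rw [← Fintype.card_fin (m - j)]
  apply Fintype.card_congr
  refine ⟨fun c => ⟨c.1.1.1, ?_⟩, fun i => ⟨⟨((i : ℕ), j), ?_⟩, rfl⟩, ?_, ?_⟩
  · have h1 := c.1.2
    have h2 := c.2
    rw [YoungDiagram.mem_cells, mem_staircase] at h1
    omega
  · have := i.2
    rw [YoungDiagram.mem_cells, mem_staircase]
    simp only
    omega
  · rintro ⟨⟨⟨a, b⟩, h⟩, h'⟩
    simp only at h'
    subst h'
    rfl
  · intro i
    rfl

theorem card_fiber_colWord {m n : ℕ} (t : Fin n ≃ (staircase m).cells) (j : ℕ) :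
    (univ.filter fun x => colWord t x = j).card = m - j := by
  rw [← card_cells_col m j, ← Fintype.card_subtype]
  apply Fintype.card_congr
  exact t.subtypeEquiv (fun x => Iff.rfl)

theorem exists_of_append {α : Perm (Fin (m + 1))} {v : Fin k → ℕ}
    {t : Fin (m + 1 + k) ≃ (staircase (m + 1)).cells}
    (ht : colWord t = Fin.append (fun i => (α i : ℕ)) v) :
    ∃ s : Fin k ≃ (staircase m).cells, colWord s = v := by
  classical
  have h1 : ∀ j, Nonempty ({p : Fin k // v p = j} ≃ {c : (staircase m).cells // c.1.2 = j}) := by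
    intro j
    rw [← Fintype.card_eq, card_cells_col, Fintype.card_subtype]
    have h2 := card_fiber_colWord t j
    rw [ht, Finset.card_filter, Fin.sum_univ_add] at h2
    simp only [Fin.append_left, Fin.append_right] at h2
    rw [← Finset.card_filter, ← Finset.card_filter] at h2
    have h3 : (univ.filter fun i : Fin (m + 1) => (α i : ℕ) = j).card =
        if j < m + 1 then 1 else 0 := by
      split_ifs with hj
      · rw [Finset.card_eq_one]
        refine ⟨α.symm ⟨j, hj⟩, ?_⟩
        ext i
        simp only [Finset.mem_filter, Finset.mem_univ, true_and, Finset.mem_singleton]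
        constructor
        · intro h
          rw [Equiv.eq_symm_apply]
          exact Fin.ext h
        · rintro rfl
          simp
      · rw [Finset.card_eq_zero]
        ext i
        simp only [Finset.mem_filter, Finset.mem_univ, true_and, Finset.notMem_empty, iff_false]
        have := (α i).2
        omega
    rw [h3] at h2
    split_ifs at h2 <;> omega
  refine ⟨Equiv.ofFiberEquiv (f := v) (g := fun c : (staircase m).cells => c.1.2)
    (fun j => (h1 j).some), ?_⟩
  funext p
  exact Equiv.ofFiberEquiv_map (f := v) (g := fun c : (staircase m).cells => c.1.2) _ p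

theorem resR_eq_zero {z : Fin (m + 1) → ℕ} {v : Fin k → ℕ}
    (hz : ¬ ∃ α : Perm (Fin (m + 1)), ∀ i, z i = (α i : ℕ))
    {t : Fin (m + 1 + k) ≃ (staircase (m + 1)).cells} (ht : colWord t = Fin.append z v) :
    resR (m + 1) k (polytabloid t) = 0 := by
  classical
  ext v'
  rw [resR_apply, polytabloid_apply, Finsupp.zero_apply]
  refine Finset.sum_eq_zero fun π hπ => ?_
  rw [mem_colStab] at hπ
  rw [if_neg]
  intro h
  apply hz
  have h1 : ∀ i : Fin (m + 1), (t (π.symm (Fin.castAdd k i))).1 = (0, z i) := by
    intro i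
    have h2 := congrFun h (Fin.castAdd k i)
    rw [Function.comp_apply] at h2
    simp only [embW, Fin.append_left] at h2
    have h3 := hπ (π.symm (Fin.castAdd k i))
    rw [Equiv.apply_symm_apply] at h3
    have h4 := congrFun ht (Fin.castAdd k i)
    rw [Fin.append_left] at h4
    exact Prod.ext h2 (h3.symm.trans h4)
  have h2 : ∀ i, z i < m + 1 := by
    intro i
    have h3 := (t (π.symm (Fin.castAdd k i))).2
    rw [YoungDiagram.mem_cells, mem_staircase, h1] at h3
    omega
  let f : Fin (m + 1) → Fin (m + 1) := fun i => ⟨z i, h2 i⟩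
  have hf : Function.Injective f := by
    intro i i' hii
    have h3 : z i = z i' := congrArg Fin.val hii
    have h4 : (t (π.symm (Fin.castAdd k i))) = (t (π.symm (Fin.castAdd k i'))) :=
      Subtype.ext (by rw [h1, h1, h3])
    have h5 := π.symm.injective (t.injective h4)
    exact Fin.castAdd_injective (m + 1) k h5
  exact ⟨Equiv.ofBijective f (Finite.injective_iff_bijective.mp hf), fun i => rfl⟩

/-- Proof: see the lemmas above. -/
theorem resR_theta (m k : ℕ) (T0 : Fin (m + 1 + k) ≃ (staircase (m + 1)).cells)
    (t0 : Fin k ≃ (staircase m).cells) :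
    ∃ c0 : ℂ, c0 * c0 = 1 ∧ ∀ (z : Fin (m + 1) → ℕ) (v : Fin k → ℕ),
      resR (m + 1) k (theta T0 (Finsupp.single (Fin.append z v) 1)) =
        (c0 * sg z) • theta t0 (Finsupp.single v 1) := by
  refine ⟨tsign T0 (glueR 1 t0), by unfold tsign; exact sign_mul_sign _, ?_⟩
  intro z v
  by_cases hz : ∃ α : Perm (Fin (m + 1)), ∀ i, z i = (α i : ℕ)
  · obtain ⟨α, hα⟩ := hz
    have hz' : z = fun i => (α i : ℕ) := funext hα
    subst hz'
    rw [sg_perm]
    by_cases hv : ∃ s : Fin k ≃ (staircase m).cells, colWord s = v
    · obtain ⟨s, rfl⟩ := hv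
      rw [← colWord_glueR, theta_single, map_smul, resR_glueR, theta_single, tsign_glueR T0 t0,
        smul_smul]
    · rw [theta_single_of_not t0 v hv, smul_zero, theta_single_of_not, map_zero]
      rintro ⟨t, ht⟩
      exact hv (exists_of_append ht)
  · have h0 : sg z = 0 := by
      unfold sg
      refine Finset.sum_eq_zero fun α _ => ?_
      rw [if_neg]
      intro h
      exact hz ⟨α, h⟩
    rw [h0, mul_zero, zero_smul]
    by_cases ht : ∃ t : Fin (m + 1 + k) ≃ (staircase (m + 1)).cells, colWord t = Fin.append z v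
    · obtain ⟨t, ht⟩ := ht
      rw [← ht, theta_single, map_smul, resR_eq_zero hz ht, smul_zero]
    · rw [theta_single_of_not T0 _ ht, map_zero]

end Vale.Agent.P197.Sx
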