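import Vale.Agent.P197.Sx.S1Exp
import Vale.Agent.P197.Sx.S1Bil
import Vale.Agent.P197.Sx.S1Res
import Vale.Agent.P197.Sx.S1Psi
import Vale.Agent.P197.Sx.S1Ext
import Vale.Agent.P197.Sx.S1Pieri

/-! Module G-z: assembly of `surj_one`. -/

namespace Vale.Agent.P197.Sx

open Equiv Finset

section theta

variable {n : ℕ} {μ : YoungDiagram}

/-- `theta t0 (single v)` as an element of the Specht module -/
noncomputable def thS (t0 : Fin n ≃ μ.cells) (v : Fin n → ℕ) : SV n μ :=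
  ⟨theta t0 (Finsupp.single v 1), theta_mem t0 _⟩

theorem rep_thS (t0 : Fin n ≃ μ.cells) (σ : Perm (Fin n)) (v : Fin n → ℕ) :
    rep n μ σ (thS t0 v) = ((Perm.sign σ : ℤ) : ℂ) • thS t0 (v ∘ σ.symm) := by
  apply Subtype.ext
  change wordRep n σ (theta t0 (Finsupp.single v 1)) =
    ((Perm.sign σ : ℤ) : ℂ) • theta t0 (Finsupp.single (v ∘ σ.symm) 1)
  have h := theta_wordRep t0 σ (Finsupp.single v 1)
  rw [wordRep_single] at h
  rw [h, smul_smul, sign_mul_sign, one_smul]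

theorem rep_inv_thS (t0 : Fin n ≃ μ.cells) (σ : Perm (Fin n)) (v : Fin n → ℕ) :
    rep n μ σ⁻¹ (thS t0 v) = ((Perm.sign σ : ℤ) : ℂ) • thS t0 (v ∘ σ) := by
  rw [rep_thS, Perm.sign_inv]
  rfl

theorem exists_tab_of_thS_ne {t0 : Fin n ≃ μ.cells} {v : Fin n → ℕ} (h : thS t0 v ≠ 0) :
    ∃ t : Fin n ≃ μ.cells, colWord t = v := by
  by_contra hcon
  apply h
  exact Subtype.ext (theta_single_of_not t0 v hcon)

/-- the polytabloid as an element of the Specht module -/
noncomputable def ptR (t : Fin n ≃ μ.cells) : SV n μ :=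
  ⟨polytabloid t, Submodule.subset_span ⟨t, rfl⟩⟩

theorem ptR_eq (t0 t : Fin n ≃ μ.cells) : ptR t = tsign t0 t • thS t0 (colWord t) := by
  apply Subtype.ext
  change polytabloid t = tsign t0 t • theta t0 (Finsupp.single (colWord t) 1)
  rw [theta_single, smul_smul]
  unfold tsign
  rw [sign_mul_sign, one_smul]

theorem ptR_span : Submodule.span ℂ (Set.range (ptR (n := n) (μ := μ))) = ⊤ := by
  rw [eq_top_iff]
  rintro ⟨x, hx⟩ _
  have hx' : x ∈ Submodule.span ℂ (Set.range (polytabloid (n := n) (μ := μ))) := hx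
  let ι : SV n μ →ₗ[ℂ] ((Fin n → ℕ) →₀ ℂ) := (specht n μ).toSubmodule.subtype
  have h1 : (Submodule.span ℂ (Set.range (ptR (n := n) (μ := μ)))).map ι =
      Submodule.span ℂ (Set.range (polytabloid (n := n) (μ := μ))) := by
    rw [Submodule.map_span]
    congr 1
    ext y
    constructor
    · rintro ⟨_, ⟨t, rfl⟩, rfl⟩
      exact ⟨t, rfl⟩
    · rintro ⟨t, rfl⟩
      exact ⟨ptR t, ⟨t, rfl⟩, rfl⟩
  rw [← h1] at hx'
  obtain ⟨y, hy, hyx⟩ := hx'
  have : y = ⟨x, hx⟩ := Subtype.ext hyx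
  rw [← this]
  exact hy

end theta

section gf

variable {k : ℕ} {la be : YoungDiagram}

/-- the function of two column words defined by a bilinear map -/
noncomputable def gf (B : SV k la →ₗ[ℂ] SV k la →ₗ[ℂ] SV k be) (t0 : Fin k ≃ la.cells)
    (v v' : Fin k → ℕ) (x : (Fin k → ℕ) → ℂ) : ℂ :=
  pr (B (thS t0 v) (thS t0 v')).1 x

theorem gf_comp (B : SV k la →ₗ[ℂ] SV k la →ₗ[ℂ] SV k be)
    (hB : ∀ (σ : Perm (Fin k)) a b, B (rep k la σ a) (rep k la σ b) = rep k be σ (B a b))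
    (t0 : Fin k ≃ la.cells) (v v' : Fin k → ℕ) (x : (Fin k → ℕ) → ℂ) (τ : Perm (Fin k)) :
    gf B t0 (v ∘ τ) (v' ∘ τ) (fun w => x (w ∘ τ.symm)) = gf B t0 v v' x := by
  unfold gf
  have h1 : B (thS t0 (v ∘ τ)) (thS t0 (v' ∘ τ)) = rep k be τ⁻¹ (B (thS t0 v) (thS t0 v')) := by
    rw [← hB, rep_inv_thS, rep_inv_thS, map_smul, map_smul, LinearMap.smul_apply, smul_smul,
      sign_mul_sign, one_smul]
  rw [h1]
  exact pr_invariant τ⁻¹ _ x

end gf

section main

variable {M k : ℕ} {la be nu : YoungDiagram}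

/-- the summand -/
noncomputable def Hf (B : SV k la →ₗ[ℂ] SV k la →ₗ[ℂ] SV k be) (t0 : Fin k ≃ la.cells)
    (z0 : Fin M → ℕ) (c : (Fin (M + k) → ℕ) → ℂ) (σ : Perm (Fin (M + k))) (y : Fin k → LL) : ℂ :=
  if (∀ p, y p ≠ none) then gf B t0 (fun p => ((y p).getD (0, 0)).1)
    (fun p => ((y p).getD (0, 0)).2) (resS z0 (fun w => c (w ∘ σ.symm))) else 0

theorem Hf_blockPerm (B : SV k la →ₗ[ℂ] SV k la →ₗ[ℂ] SV k be) (t0 : Fin k ≃ la.cells)
    (z0 : Fin M → ℕ) (c : (Fin (M + k) → ℕ) → ℂ) (σ : Perm (Fin (M + k))) (τ : Perm (Fin M))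
    (y : Fin k → LL) :
    Hf B t0 z0 c (σ * blockPerm τ 1) y = Hf B t0 z0 c σ y := by
  unfold Hf
  have h1 : resS z0 (fun w => c (w ∘ (σ * blockPerm τ (1 : Perm (Fin k))).symm)) =
      resS z0 (fun w => c (w ∘ σ.symm)) := by
    rw [← resS_blockPerm_left z0 (fun w => c (w ∘ σ.symm)) τ⁻¹]
    have h2 : (σ * blockPerm τ (1 : Perm (Fin k))).symm = blockPerm τ⁻¹ 1 * σ⁻¹ := by
      rw [← Perm.inv_def, mul_inv_rev, blockPerm_inv, inv_one]
    rw [h2]
    rfl
  rw [h1]

theorem Hf_none (B : SV k la →ₗ[ℂ] SV k la →ₗ[ℂ] SV k be) (t0 : Fin k ≃ la.cells)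
    (z0 : Fin M → ℕ) (c : (Fin (M + k) → ℕ) → ℂ) (σ : Perm (Fin (M + k))) (y : Fin k → LL)
    (h : ∃ p, y p = none) : Hf B t0 z0 c σ y = 0 := by
  unfold Hf
  rw [if_neg]
  obtain ⟨p, hp⟩ := h
  exact fun h => h p hp

theorem exists_blockPerm (σ : Perm (Fin (M + k)))
    (h : ∀ i : Fin M, ∃ j : Fin M, σ (Fin.castAdd k i) = Fin.castAdd k j) :
    ∃ (τ : Perm (Fin M)) (τ' : Perm (Fin k)), σ = blockPerm τ τ' := by
  let ρ' : Perm (Fin M ⊕ Fin k) := finSumFinEquiv.symm.permCongr σ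
  have hρ' : ∀ z, finSumFinEquiv (ρ' z) = σ (finSumFinEquiv z) := by
    intro z
    simp [ρ', Equiv.permCongr_apply]
  have hmaps : Set.MapsTo ρ' (Set.range Sum.inl) (Set.range Sum.inl) := by
    rintro _ ⟨i, rfl⟩
    obtain ⟨j, hj⟩ := h i
    refine ⟨j, ?_⟩
    apply finSumFinEquiv.injective
    rw [hρ']
    simpa using hj.symm
  obtain ⟨⟨π, π'⟩, hπσ⟩ := Perm.mem_sumCongrHom_range_of_perm_mapsTo_inl hmaps
  refine ⟨π, π', ?_⟩
  ext x : 1
  obtain ⟨z, rfl⟩ := finSumFinEquiv.surjective x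
  rw [← hρ', ← hπσ]
  rcases z with i | i
  · rw [blockPerm_inl]; simp
  · rw [blockPerm_inr]; simp

theorem psi0_ne (B : SV k la →ₗ[ℂ] SV k la →ₗ[ℂ] SV k be)
    (hB : ∀ (σ : Perm (Fin k)) a b, B (rep k la σ a) (rep k la σ b) = rep k be σ (B a b))
    (t0 : Fin k ≃ la.cells) (z0 : Fin M → ℕ) (c : (Fin (M + k) → ℕ) → ℂ) (v v' : Fin k → ℕ)
    (hne : gf B t0 v v' (resS z0 c) ≠ 0) :
    psiQ (Hf B t0 z0 c) (1 : Perm (Fin M)) 0 ≠ 0 := by
  intro h0
  let W0 : Fin (M + k) → LL := Fin.append (fun _ => none) (fun p => some (v p, v' p))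
  have hW1 : ∀ i : Fin M, W0 (Fin.castAdd k i) = none := fun i => by simp [W0]
  have hW2 : ∀ p : Fin k, W0 (Fin.natAdd M p) = some (v p, v' p) := fun p => by simp [W0]
  have h1 := congrFun h0 W0
  unfold psiQ at h1
  have h2 : ∀ σ : Perm (Fin (M + k)), (if (∀ i : Fin M, W0 (σ (Fin.castAdd k i)) =
      if (i : ℕ) < 0 then some ((i : ℕ), ((1 : Perm (Fin M)) i : ℕ)) else none)
      then Hf B t0 z0 c σ (fun p => W0 (σ (Fin.natAdd M p))) else 0) =
      if (∀ i : Fin M, W0 (σ (Fin.castAdd k i)) = none) then gf B t0 v v' (resS z0 c) else 0 := by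
    intro σ
    by_cases hc : ∀ i : Fin M, W0 (σ (Fin.castAdd k i)) = none
    · have hc' : ∀ i : Fin M, W0 (σ (Fin.castAdd k i)) =
        if (i : ℕ) < 0 then some ((i : ℕ), ((1 : Perm (Fin M)) i : ℕ)) else none := by
        intro i
        rw [if_neg (Nat.not_lt_zero _)]
        exact hc i
      rw [if_pos hc, if_pos hc']
      obtain ⟨τ, τ', rfl⟩ := exists_blockPerm σ (by
        intro i
        have h3 := hc i
        have h4 : ∀ x : Fin (M + k), W0 x = none → ∃ j : Fin M, x = Fin.castAdd k j := by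
          intro x hx
          induction x using Fin.addCases with
          | left i => exact ⟨i, rfl⟩
          | right p =>
            rw [hW2] at hx
            exact absurd hx (by simp)
        exact h4 _ h3)
      unfold Hf
      have h5 : ∀ p : Fin k, W0 (blockPerm τ τ' (Fin.natAdd M p)) = some (v (τ' p), v' (τ' p)) := by
        intro p
        rw [blockPerm_natAdd, hW2]
      simp only [h5]
      rw [if_pos (fun p => by simp)]
      have h6 : resS z0 (fun w => c (w ∘ (blockPerm τ τ').symm)) =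
          fun w => resS z0 c (w ∘ τ'.symm) := by
        have h7 : (blockPerm τ τ').symm = blockPerm τ⁻¹ 1 * blockPerm 1 τ'⁻¹ := by
          rw [← Perm.inv_def, blockPerm_inv, blockPerm_mul, mul_one, one_mul]
        rw [h7]
        have h8 := resS_blockPerm_right z0 (fun w => c w) τ'⁻¹
        have h9 := resS_blockPerm_left z0
          (fun w => c (w ∘ blockPerm (1 : Perm (Fin M)) τ'⁻¹)) τ⁻¹
        exact h9.trans h8
      rw [h6]
      exact gf_comp B hB t0 v v' (resS z0 c) τ'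
    · have hc' : ¬ ∀ i : Fin M, W0 (σ (Fin.castAdd k i)) =
        if (i : ℕ) < 0 then some ((i : ℕ), ((1 : Perm (Fin M)) i : ℕ)) else none := by
        intro h
        apply hc
        intro i
        have := h i
        rwa [if_neg (Nat.not_lt_zero _)] at this
      rw [if_neg hc, if_neg hc']
  rw [Finset.sum_congr rfl fun σ _ => h2 σ, ← Finset.sum_filter, Finset.sum_const, nsmul_eq_mul,
    Pi.zero_apply] at h1
  rcases mul_eq_zero.mp h1 with h3 | h3
  · rw [Nat.cast_eq_zero, Finset.card_eq_zero] at h3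
    have : (1 : Perm (Fin (M + k))) ∈ univ.filter
        (fun σ : Perm (Fin (M + k)) => ∀ i : Fin M, W0 (σ (Fin.castAdd k i)) = none) := by
      rw [Finset.mem_filter]
      exact ⟨Finset.mem_univ _, fun i => hW1 i⟩
    rw [h3] at this
    simp at this
  · exact hne h3

/-- the number of positions with a given letter -/
theorem cntL_eq_add (W : Fin (M + k) → LL) (σ : Perm (Fin (M + k))) (l : LL) :
    cntL l W = (univ.filter fun i : Fin M => W (σ (Fin.castAdd k i)) = l).card +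
      (univ.filter fun p : Fin k => W (σ (Fin.natAdd M p)) = l).card := by
  unfold cntL
  rw [Finset.card_filter, Finset.card_filter, Finset.card_filter,
    ← Equiv.sum_comp σ, Fin.sum_univ_add]

end main

section supp

variable {m k : ℕ} {be : YoungDiagram}

theorem card_colWord (s : Fin k ≃ (staircase m).cells) (j : ℕ) :
    (univ.filter fun p : Fin k => colWord s p = j).card ≤ m - j := by
  rw [← Finset.card_range (m - j)]
  refine Finset.card_le_card_of_injOn (fun p => (s p).1.1) ?_ ?_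
  · intro p hp
    simp only [Finset.coe_filter, Finset.mem_univ, true_and, Set.mem_ofPred_eq] at hp
    have h1 : (s p).1 ∈ staircase m := (s p).2
    rw [mem_staircase] at h1
    simp only [Finset.coe_range, Set.mem_Iio]
    unfold colWord at hp
    omega
  · intro p hp q hq hpq
    simp only [Finset.coe_filter, Finset.mem_univ, true_and, Set.mem_ofPred_eq] at hp hq
    apply s.injective
    apply Subtype.ext
    exact Prod.ext hpq (hp.trans hq.symm)

theorem psi0_supp (B : SV k (staircase m) →ₗ[ℂ] SV k (staircase m) →ₗ[ℂ] SV k be)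
    (t0 : Fin k ≃ (staircase m).cells) (z0 : Fin (m + 1) → ℕ)
    (c : (Fin (m + 1 + k) → ℕ) → ℂ) (W : Fin (m + 1 + k) → LL)
    (hW : psiQ (Hf B t0 z0 c) (1 : Perm (Fin (m + 1))) 0 W ≠ 0) :
    cntL none W = m + 1 ∧ ∀ j < m + 1, cntL (some (j, j)) W + j < m + 1 := by
  unfold psiQ at hW
  obtain ⟨σ, _, hσ⟩ := Finset.exists_ne_zero_of_sum_ne_zero hW
  split_ifs at hσ with h1
  swap
  · exact absurd rfl hσ
  unfold Hf at hσ
  split_ifs at hσ with h2
  swap
  · exact absurd rfl hσ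
  have h1' : ∀ i : Fin (m + 1), W (σ (Fin.castAdd k i)) = none := by
    intro i
    have := h1 i
    rwa [if_neg (Nat.not_lt_zero _)] at this
  constructor
  · rw [cntL_eq_add W σ]
    have e1 : (univ.filter fun i : Fin (m + 1) => W (σ (Fin.castAdd k i)) = none) = univ := by
      ext i
      simp [h1' i]
    have e2 : (univ.filter fun p : Fin k => W (σ (Fin.natAdd (m + 1) p)) = none) = ∅ := by
      ext p
      simp [h2 p]
    rw [e1, e2]
    simp
  · intro j hj
    rw [cntL_eq_add W σ]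
    have e1 : (univ.filter fun i : Fin (m + 1) => W (σ (Fin.castAdd k i)) = some (j, j)) = ∅ := by
      ext i
      simp [h1' i]
    rw [e1, Finset.card_empty, Nat.zero_add]
    have h3 : thS t0 (fun p => ((W (σ (Fin.natAdd (m + 1) p))).getD (0, 0)).1) ≠ 0 := by
      intro h
      apply hσ
      unfold gf
      simp only [h, map_zero, LinearMap.zero_apply]
      change (0 : (Fin k → ℕ) →₀ ℂ).sum _ = 0
      exact Finsupp.sum_zero_index
    obtain ⟨s, hs⟩ := exists_tab_of_thS_ne h3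
    have h4 := card_colWord s j
    have h5 : (univ.filter fun p : Fin k => W (σ (Fin.natAdd (m + 1) p)) = some (j, j)).card ≤
        (univ.filter fun p : Fin k => colWord s p = j).card := by
      apply Finset.card_le_card
      intro p hp
      simp only [Finset.mem_filter, Finset.mem_univ, true_and] at hp ⊢
      rw [hs]
      change ((W (σ (Fin.natAdd (m + 1) p))).getD (0, 0)).1 = j
      rw [hp]
      rfl
    omega

end supp

section form

variable {m k : ℕ} {be nu : YoungDiagram}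

noncomputable def prL (k : ℕ) :
    ((Fin k → ℕ) →₀ ℂ) →ₗ[ℂ] ((Fin k → ℕ) → ℂ) →ₗ[ℂ] ℂ :=
  LinearMap.mk₂ ℂ pr pr_add_left pr_smul_left pr_add_right pr_smul_right

noncomputable def resSL {M k : ℕ} (z0 : Fin M → ℕ) :
    ((Fin (M + k) → ℕ) → ℂ) →ₗ[ℂ] ((Fin k → ℕ) → ℂ) where
  toFun := resS z0
  map_add' x y := by
    funext v
    simp [resS, Finset.sum_add_distrib]
  map_smul' r x := by
    funext v
    simp [resS, Finset.mul_sum]

theorem resR_mem (T0 : Fin (m + 1 + k) ≃ (staircase (m + 1)).cells)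
    (t0 : Fin k ≃ (staircase m).cells) (x : SV (m + 1 + k) (staircase (m + 1))) :
    resR (m + 1) k x.1 ∈ (specht k (staircase m)).toSubmodule := by
  obtain ⟨c0, _, hc0⟩ := resR_theta m k T0 t0
  have hx : x ∈ Submodule.span ℂ (Set.range (ptR (n := m + 1 + k) (μ := staircase (m + 1)))) := by
    rw [ptR_span]
    trivial
  induction hx using Submodule.span_induction with
  | mem x hx =>
    obtain ⟨t, rfl⟩ := hx
    rw [ptR_eq T0 t]
    change resR (m + 1) k (tsign T0 t • theta T0 (Finsupp.single (colWord t) 1)) ∈ _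
    rw [map_smul]
    apply Submodule.smul_mem
    have h1 : colWord t = Fin.append (fun i => colWord t (Fin.castAdd k i))
        (fun p => colWord t (Fin.natAdd (m + 1) p)) := by
      exact (Fin.append_castAdd_natAdd (f := colWord t)).symm
    rw [h1, hc0]
    exact Submodule.smul_mem _ _ (theta_mem t0 _)
  | zero =>
    change resR (m + 1) k 0 ∈ _
    rw [map_zero]
    exact Submodule.zero_mem _
  | add x y _ _ hx hy =>
    change resR (m + 1) k (x.1 + y.1) ∈ _
    rw [map_add]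
    exact Submodule.add_mem _ hx hy
  | smul r x _ hx =>
    change resR (m + 1) k (r • x.1) ∈ _
    rw [map_smul]
    exact Submodule.smul_mem _ r hx

noncomputable def resRS (T0 : Fin (m + 1 + k) ≃ (staircase (m + 1)).cells)
    (t0 : Fin k ≃ (staircase m).cells) :
    SV (m + 1 + k) (staircase (m + 1)) →ₗ[ℂ] SV k (staircase m) :=
  ((resR (m + 1) k).comp (specht (m + 1 + k) (staircase (m + 1))).toSubmodule.subtype).codRestrict
    (specht k (staircase m)).toSubmodule (fun x => resR_mem T0 t0 x)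

theorem resRS_thS (T0 : Fin (m + 1 + k) ≃ (staircase (m + 1)).cells)
    (t0 : Fin k ≃ (staircase m).cells) :
    ∃ c0 : ℂ, c0 * c0 = 1 ∧ ∀ (u : Fin (m + 1 + k) → ℕ),
      resRS T0 t0 (thS T0 u) = (c0 * sg (fun i => u (Fin.castAdd k i))) •
        thS t0 (fun p => u (Fin.natAdd (m + 1) p)) := by
  obtain ⟨c0, h1, hc0⟩ := resR_theta m k T0 t0
  refine ⟨c0, h1, fun u => ?_⟩
  apply Subtype.ext
  change resR (m + 1) k (theta T0 (Finsupp.single u 1)) = (c0 * sg (fun i => u (Fin.castAdd k i))) •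
    theta t0 (Finsupp.single (fun p => u (Fin.natAdd (m + 1) p)) 1)
  rw [← hc0, Fin.append_castAdd_natAdd]

noncomputable def Tsig (B : SV k (staircase m) →ₗ[ℂ] SV k (staircase m) →ₗ[ℂ] SV k be)
    (T0 : Fin (m + 1 + k) ≃ (staircase (m + 1)).cells) (t0 : Fin k ≃ (staircase m).cells)
    (z0 : Fin (m + 1) → ℕ) (nu : YoungDiagram) (σ : Perm (Fin (m + 1 + k))) :
    SV (m + 1 + k) (staircase (m + 1)) →ₗ[ℂ] SV (m + 1 + k) (staircase (m + 1)) →ₗ[ℂ]
      SV (m + 1 + k) nu →ₗ[ℂ] ℂ :=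
  (B.compl₁₂ ((resRS T0 t0).comp (rep _ _ σ⁻¹)) ((resRS T0 t0).comp (rep _ _ σ⁻¹))).compr₂
    (((prL k).compl₂ ((resSL z0).comp ((toFunL _ nu).comp (rep _ nu σ⁻¹)))).comp
      (specht k be).toSubmodule.subtype)

theorem Tsig_apply (B : SV k (staircase m) →ₗ[ℂ] SV k (staircase m) →ₗ[ℂ] SV k be)
    (T0 : Fin (m + 1 + k) ≃ (staircase (m + 1)).cells) (t0 : Fin k ≃ (staircase m).cells)
    (z0 : Fin (m + 1) → ℕ) (nu : YoungDiagram) (σ : Perm (Fin (m + 1 + k)))
    (a b : SV (m + 1 + k) (staircase (m + 1))) (c : SV (m + 1 + k) nu) :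
    Tsig B T0 t0 z0 nu σ a b c =
      pr (B (resRS T0 t0 (rep _ _ σ⁻¹ a)) (resRS T0 t0 (rep _ _ σ⁻¹ b))).1
        (resS z0 (fun w => c.1 (w ∘ σ.symm))) := by
  change pr (B (resRS T0 t0 (rep _ _ σ⁻¹ a)) (resRS T0 t0 (rep _ _ σ⁻¹ b))).1
        (resS z0 (fun w => wordRep _ σ⁻¹ c.1 w)) = _
  congr 2
  funext w
  rw [wordRep_apply]
  rfl

noncomputable def Tform (B : SV k (staircase m) →ₗ[ℂ] SV k (staircase m) →ₗ[ℂ] SV k be)
    (T0 : Fin (m + 1 + k) ≃ (staircase (m + 1)).cells) (t0 : Fin k ≃ (staircase m).cells)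
    (z0 : Fin (m + 1) → ℕ) (nu : YoungDiagram) :
    SV (m + 1 + k) (staircase (m + 1)) →ₗ[ℂ] SV (m + 1 + k) (staircase (m + 1)) →ₗ[ℂ]
      SV (m + 1 + k) nu →ₗ[ℂ] ℂ :=
  ∑ σ : Perm (Fin (m + 1 + k)), Tsig B T0 t0 z0 nu σ

theorem Tform_apply (B : SV k (staircase m) →ₗ[ℂ] SV k (staircase m) →ₗ[ℂ] SV k be)
    (T0 : Fin (m + 1 + k) ≃ (staircase (m + 1)).cells) (t0 : Fin k ≃ (staircase m).cells)
    (z0 : Fin (m + 1) → ℕ) (nu : YoungDiagram)
    (a b : SV (m + 1 + k) (staircase (m + 1))) (c : SV (m + 1 + k) nu) :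
    Tform B T0 t0 z0 nu a b c = ∑ σ : Perm (Fin (m + 1 + k)),
      pr (B (resRS T0 t0 (rep _ _ σ⁻¹ a)) (resRS T0 t0 (rep _ _ σ⁻¹ b))).1
        (resS z0 (fun w => c.1 (w ∘ σ.symm))) := by
  unfold Tform
  simp only [LinearMap.sum_apply]
  exact Finset.sum_congr rfl fun σ _ => Tsig_apply B T0 t0 z0 nu σ a b c

theorem Tform_invariant (B : SV k (staircase m) →ₗ[ℂ] SV k (staircase m) →ₗ[ℂ] SV k be)
    (T0 : Fin (m + 1 + k) ≃ (staircase (m + 1)).cells) (t0 : Fin k ≃ (staircase m).cells)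
    (z0 : Fin (m + 1) → ℕ) (nu : YoungDiagram) (g : Perm (Fin (m + 1 + k)))
    (a b : SV (m + 1 + k) (staircase (m + 1))) (c : SV (m + 1 + k) nu) :
    Tform B T0 t0 z0 nu (rep _ _ g a) (rep _ _ g b) (rep _ _ g c) =
      Tform B T0 t0 z0 nu a b c := by
  rw [Tform_apply, Tform_apply]
  refine (Fintype.sum_equiv (Equiv.mulLeft g) _ _ ?_).symm
  intro σ
  simp only [Equiv.coe_mulLeft]
  have h1 : ∀ x : SV (m + 1 + k) (staircase (m + 1)),
      rep _ _ (g * σ)⁻¹ (rep _ _ g x) = rep _ _ σ⁻¹ x := by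
    intro x
    rw [← Module.End.mul_apply, ← map_mul]
    congr 2
    group
  rw [h1, h1]
  congr 2
  funext w
  have h2 : (rep _ nu g c).1 (w ∘ (g * σ).symm) = c.1 ((w ∘ (g * σ).symm) ∘ g) :=
    wordRep_apply g c.1 _
  rw [h2]
  congr 1
  funext x
  simp only [Function.comp_apply]
  congr 1
  have h3 : (g * σ).symm (g x) = σ.symm x := by
    rw [Equiv.symm_apply_eq, Perm.mul_apply, Equiv.apply_symm_apply]
  rw [h3]

/-- the value of the form on two `thS` -/
theorem Tform_thS (B : SV k (staircase m) →ₗ[ℂ] SV k (staircase m) →ₗ[ℂ] SV k be)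
    (T0 : Fin (m + 1 + k) ≃ (staircase (m + 1)).cells) (t0 : Fin k ≃ (staircase m).cells)
    (z0 : Fin (m + 1) → ℕ) (nu : YoungDiagram) (u u' : Fin (m + 1 + k) → ℕ)
    (c : SV (m + 1 + k) nu) :
    Tform B T0 t0 z0 nu (thS T0 u) (thS T0 u') c =
      (Fintype.card (Perm (Fin (m + 1))) : ℂ) * ∑ π : Perm (Fin (m + 1)),
        ((Perm.sign π : ℤ) : ℂ) * psiQ (Hf B t0 z0 (c.1 : (Fin (m + 1 + k) → ℕ) → ℂ)) π (m + 1)
          (fun x => some (u x, u' x)) := by
  obtain ⟨c0, h0, hc0⟩ := resRS_thS T0 t0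
  rw [Tform_apply, ← expand_sum (Hf B t0 z0 (c.1 : (Fin (m + 1 + k) → ℕ) → ℂ))
    (fun σ τ y => Hf_blockPerm B t0 z0 _ σ τ y)]
  refine Finset.sum_congr rfl fun σ _ => ?_
  rw [rep_inv_thS, rep_inv_thS]
  simp only [map_smul, LinearMap.smul_apply, hc0]
  unfold Hf
  rw [if_pos (fun p => by simp)]
  unfold gf
  simp only [Option.getD_some, Function.comp_apply]
  set A := B (thS t0 fun p => u (σ (Fin.natAdd (m + 1) p)))
    (thS t0 fun p => u' (σ (Fin.natAdd (m + 1) p)))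
  set x := resS z0 (fun w => (c.1 : (Fin (m + 1 + k) → ℕ) → ℂ) (w ∘ σ.symm))
  set s : ℂ := ((Perm.sign σ : ℤ) : ℂ)
  set g1 := sg (fun i : Fin (m + 1) => u (σ (Fin.castAdd k i)))
  set g2 := sg (fun i : Fin (m + 1) => u' (σ (Fin.castAdd k i)))
  have h5 : (s • (c0 * g2) • s • (c0 * g1) • A).1 =
      ((s * s) * (c0 * c0) * (g1 * g2)) • A.1 := by
    change s • (c0 * g2) • s • (c0 * g1) • A.1 = _
    rw [smul_smul, smul_smul, smul_smul]
    congr 1
    ring
  have h6 : s * s = 1 := sign_mul_sign σ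
  rw [h5, h6, h0, one_mul, one_mul, pr_smul_left]

end form

/-- the core of `surj_one` -/
theorem surj_core {m k : ℕ} {be nu : YoungDiagram} (hm : (staircase m).card = k)
    (hM : (staircase (m + 1)).card = m + 1 + k) (hb : be.card = k)
    (h : 0 < kronecker k (staircase m) (staircase m) be) (hle : be ≤ nu)
    (hstrip : ∀ j, nu.colLen j ≤ be.colLen j + 1) (hc : nu.card = m + 1 + k) :
    0 < kronecker (m + 1 + k) (staircase (m + 1)) (staircase (m + 1)) nu := by
  obtain ⟨B, hB0, hB⟩ := exists_bil h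
  have T0 : Fin (m + 1 + k) ≃ (staircase (m + 1)).cells :=
    (Fintype.equivFinOfCardEq (by simpa using hM)).symm
  have t0 : Fin k ≃ (staircase m).cells := (Fintype.equivFinOfCardEq (by simpa using hm)).symm
  obtain ⟨z0, hz0⟩ := exists_tab_resS hle hb hc hstrip
  -- a pair of tableaux on which `B` does not vanish
  obtain ⟨s1, s2, hs⟩ : ∃ s1 s2 : Fin k ≃ (staircase m).cells, B (ptR s1) (ptR s2) ≠ 0 := by
    by_contra hcon
    push Not at hcon
    apply hB0
    apply LinearMap.ext_on_range ptR_span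
    intro s1
    apply LinearMap.ext_on_range ptR_span
    intro s2
    rw [hcon s1 s2]
    simp
  obtain ⟨s3, hs3⟩ := exists_pr_ne_zero (B (ptR s1) (ptR s2)).2
    (fun h0 => hs (Subtype.ext h0))
  obtain ⟨t, C, hC, ht⟩ := hz0 s3
  have hgf : gf B t0 (colWord s1) (colWord s2)
      (resS z0 (polytabloid t : (Fin (m + 1 + k) → ℕ) → ℂ)) ≠ 0 := by
    intro h0
    apply hs3
    rw [ht] at h0
    unfold gf at h0
    rw [pr_smul_right] at h0
    have h1 := (mul_eq_zero.mp h0).resolve_left hC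
    rw [ptR_eq t0 s1, ptR_eq t0 s2]
    simp only [map_smul, LinearMap.smul_apply]
    change pr (tsign t0 s2 • tsign t0 s1 • (B (thS t0 (colWord s1)) (thS t0 (colWord s2))).1) _ = 0
    rw [pr_smul_left, pr_smul_left, h1, mul_zero, mul_zero]
  have hφ := psi0_ne B hB t0 z0 (polytabloid t : (Fin (m + 1 + k) → ℕ) → ℂ) _ _ hgf
  obtain ⟨W, hW1, hW2⟩ := exists_extremal _ hφ (fun W hW => psi0_supp B t0 z0 _ W hW)
  have hH := fun σ τ y => Hf_blockPerm B t0 z0 (polytabloid t : (Fin (m + 1 + k) → ℕ) → ℂ) σ τ y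
  have hH0 := fun σ y => Hf_none B t0 z0 (polytabloid t : (Fin (m + 1 + k) → ℕ) → ℂ) σ y
  have hψ1 : psiQ (Hf B t0 z0 (polytabloid t : (Fin (m + 1 + k) → ℕ) → ℂ))
      (1 : Perm (Fin (m + 1))) (m + 1) W ≠ 0 := by
    obtain ⟨C', _, h1⟩ := itD_psiQ _ hH hH0 (1 : Perm (Fin (m + 1))) (m + 1) le_rfl
    rw [h1] at hW1
    intro h2
    apply hW1
    rw [Pi.smul_apply, h2, smul_zero]
  have hψ2 : ∀ π : Perm (Fin (m + 1)), π ≠ 1 →
      psiQ (Hf B t0 z0 (polytabloid t : (Fin (m + 1 + k) → ℕ) → ℂ)) π (m + 1) W = 0 := by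
    intro π hπ
    obtain ⟨C', hC', h1⟩ := itD_psiQ _ hH hH0 π (m + 1) le_rfl
    have h2 := hW2 π hπ
    rw [h1, Pi.smul_apply, smul_eq_mul] at h2
    exact (mul_eq_zero.mp h2).resolve_left hC'
  -- all letters of `W` are pairs
  have hWsome : ∀ x, W x ≠ none := by
    unfold psiQ at hψ1
    obtain ⟨σ, _, hσ⟩ := Finset.exists_ne_zero_of_sum_ne_zero hψ1
    split_ifs at hσ with h1
    swap
    · exact absurd rfl hσ
    have h2 : ∀ p : Fin k, W (σ (Fin.natAdd (m + 1) p)) ≠ none := by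
      intro p hp
      exact hσ (Hf_none B t0 z0 _ σ _ ⟨p, hp⟩)
    intro x
    obtain ⟨y, rfl⟩ := σ.surjective x
    induction y using Fin.addCases with
    | left i =>
      rw [h1 i, if_pos i.2]
      simp
    | right p => exact h2 p
  have hWeq : W = fun x => some (((W x).getD (0, 0)).1, ((W x).getD (0, 0)).2) := by
    funext x
    rcases hx : W x with _ | ⟨a, b⟩
    · exact absurd hx (hWsome x)
    · rfl
  apply kronecker_pos_of_form _ _ _ _ (Tform B T0 t0 z0 nu)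
  · intro hT
    have h1 := Tform_thS B T0 t0 z0 nu (fun x => ((W x).getD (0, 0)).1)
      (fun x => ((W x).getD (0, 0)).2) (ptR t)
    rw [hT, ← hWeq] at h1
    have h2 : ∑ π : Perm (Fin (m + 1)), ((Perm.sign π : ℤ) : ℂ) *
        psiQ (Hf B t0 z0 ((ptR t).1 : (Fin (m + 1 + k) → ℕ) → ℂ)) π (m + 1) W =
        psiQ (Hf B t0 z0 (polytabloid t : (Fin (m + 1 + k) → ℕ) → ℂ)) 1 (m + 1) W := by
      rw [Finset.sum_eq_single (1 : Perm (Fin (m + 1)))]
      · rw [Perm.sign_one]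
        simp
        rfl
      · intro π _ hπ
        have := hψ2 π hπ
        change _ * psiQ (Hf B t0 z0 (polytabloid t : (Fin (m + 1 + k) → ℕ) → ℂ)) π (m + 1) W = 0
        rw [this, mul_zero]
      · intro h
        exact absurd (Finset.mem_univ _) h
    rw [h2] at h1
    simp only [LinearMap.zero_apply] at h1
    rcases mul_eq_zero.mp h1.symm with h3 | h3
    · rw [Nat.cast_eq_zero] at h3
      exact Fintype.card_ne_zero h3
    · exact hψ1 h3
  · intro σ a b c
    exact Tform_invariant B T0 t0 z0 nu σ a b c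

end Vale.Agent.P197.Sx
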