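import Vale.Agent.P197.Defs
import Vale.Agent.P197.Glue

/-!
# P197 (full Saxl): definitions shared by the modules `Sx/*`

`val K a b c` is the value of the `S_n`-invariant trilinear form with kernel `K` on three
polytabloids, the positions being an arbitrary finite type `X`.
-/

namespace Vale.Agent.P197.Sx

open Equiv Finset

variable {X : Type*} [Fintype X] [DecidableEq X]

/-- permutations of the positions preserving the columns of the tableau `b` -/
def cst {μ : YoungDiagram} (b : X ≃ μ.cells) : Finset (Perm X) :=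
  univ.filter fun π => ∀ p, (b (π p)).1.2 = (b p).1.2

/-- row of the cell at position `p` -/
def rw' {μ : YoungDiagram} (b : X ≃ μ.cells) (p : X) : ℕ := (b p).1.1

/-- the double sum (over the two first tableaux) as a function of the third word `v` -/
noncomputable def dd {la mu : YoungDiagram} (K : ℕ → ℕ → ℕ → ℂ) (a : X ≃ la.cells)
    (b : X ≃ mu.cells) (v : X → ℕ) : ℂ :=
  ∑ π ∈ cst a, ∑ σ ∈ cst b, ((Perm.sign π : ℤ) : ℂ) * ((Perm.sign σ : ℤ) : ℂ) *
    ∏ p, K (rw' a (π p)) (rw' b (σ p)) (v p)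

/-- the value of the trilinear form with kernel `K` on three polytabloids -/
noncomputable def val {la mu nu : YoungDiagram} (K : ℕ → ℕ → ℕ → ℂ) (a : X ≃ la.cells)
    (b : X ≃ mu.cells) (c : X ≃ nu.cells) : ℂ :=
  ∑ τ ∈ cst c, ((Perm.sign τ : ℤ) : ℂ) * dd K a b (fun p => rw' c (τ p))

/-- boxes of the staircase: pairs `(x, y)` with `x + y < m` -/
abbrev Box (m : ℕ) : Type := (staircase m).cells

/-- the transposition `(x, y) ↦ (y, x)` of the staircase -/
def swp (m : ℕ) : Box m ≃ (staircase m).cells where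
  toFun c := ⟨(c.1.2, c.1.1), by
    have h := c.2
    simp only [YoungDiagram.mem_cells, mem_staircase] at h ⊢
    omega⟩
  invFun c := ⟨(c.1.2, c.1.1), by
    have h := c.2
    simp only [YoungDiagram.mem_cells, mem_staircase] at h ⊢
    omega⟩
  left_inv c := rfl
  right_inv c := rfl

/-- `ddS m K v`: position `(x, y)` carries row label `y` in column `x` of the first tableau and
row label `x` in column `y` of the second tableau -/
noncomputable def ddS (m : ℕ) (K : ℕ → ℕ → ℕ → ℂ) (v : Box m → ℕ) : ℂ :=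
  dd (X := Box m) K (swp m) (Equiv.refl _) v

/-- The explicit form is nonzero for some kernel and some tableau of shape `ν`. -/
def Good (m : ℕ) (ν : YoungDiagram) : Prop :=
  ∃ (K : ℕ → ℕ → ℕ → ℂ) (c : Box m ≃ ν.cells), val K (swp m) (Equiv.refl _) c ≠ 0

/-- the kernel of the inductive step: rows `0, 1` of both staircases are coupled by the 2 x 2
matrices `U v`, the other rows by the old kernel, weighted by `q ^ v` -/
noncomputable def Kstep (q : ℂ) (U : ℕ → Matrix (Fin 2) (Fin 2) ℂ) (K : ℕ → ℕ → ℕ → ℂ) :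
    ℕ → ℕ → ℕ → ℂ := fun w w' v =>
  if h : w < 2 ∧ w' < 2 then U v ⟨w, h.1⟩ ⟨w', h.2⟩
  else if 2 ≤ w ∧ 2 ≤ w' then q ^ v * K (w - 2) (w' - 2) v
  else 0

/-- inclusion of the inner staircase: `(x, y) ↦ (x, y)` -/
def inc (m : ℕ) (p : Box m) : Box (m + 2) := ⟨p.1, by
  have h := p.2
  simp only [YoungDiagram.mem_cells, mem_staircase] at h ⊢
  omega⟩

/-- the zigzag path `(0,m+1), (0,m), (1,m), (1,m-1), ..., (m+1,0)` in the staircase of size `m+2`:
the boxes with `x + y ∈ {m, m+1}` -/
def pth (m : ℕ) (i : Fin (2 * m + 3)) : Box (m + 2) :=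
  ⟨((i.1 + 1) / 2 - (if i.1 % 2 = 1 then 1 else 0), m + 1 - (i.1 + 1) / 2), by
    have h := i.2
    simp only [YoungDiagram.mem_cells, mem_staircase]
    split_ifs <;> omega⟩

/-- `ε_V` -/
def epsV : Matrix (Fin 2) (Fin 2) ℂ := !![0, -1; 1, 0]

/-- `ε_W` -/
def epsW : Matrix (Fin 2) (Fin 2) ℂ := !![0, 1; -1, 0]

/-- `pv U c k` is the alternating product
`(U c_0)ᵀ * epsV * U c_1 * epsW * (U c_2)ᵀ * epsV * ... ` of `k + 1` matrices -/
noncomputable def pv (U : ℕ → Matrix (Fin 2) (Fin 2) ℂ) (c : ℕ → ℕ) : ℕ →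
    Matrix (Fin 2) (Fin 2) ℂ
  | 0 => (U (c 0)).transpose
  | k + 1 => if k % 2 = 0 then pv U c k * epsV * U (c (k + 1))
      else pv U c k * epsW * (U (c (k + 1))).transpose

/-- extend a word on the path by `0` -/
def ext0 {k : ℕ} (c : Fin k → ℕ) (i : ℕ) : ℕ := if h : i < k then c ⟨i, h⟩ else 0

/-- the value of the path: the `(0,0)` entry of the alternating product of `2m+3` matrices -/
noncomputable def pval (U : ℕ → Matrix (Fin 2) (Fin 2) ℂ) (m : ℕ) (c : Fin (2 * m + 3) → ℕ) : ℂ :=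
  pv U (ext0 c) (2 * m + 2) 0 0

/-- the four matrices (split quaternion units times `!![1, 1; 1, -1]`), depending on `v mod 4` -/
def U4 (v : ℕ) : Matrix (Fin 2) (Fin 2) ℂ :=
  if v % 4 = 0 then !![1, 1; 1, -1]
  else if v % 4 = 1 then !![1, -1; -1, -1]
  else if v % 4 = 2 then !![1, 1; -1, 1]
  else !![1, -1; 1, 1]

end Vale.Agent.P197.Sx
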