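import Vale.Agent.P197.Sx.SDefs

/-! Module E1: the tableau extending an inner tableau, the outer strip being read column by
column along the path. -/

namespace Vale.Agent.P197.Sx

open Equiv Finset

theorem inc_injective (m : ℕ) : Function.Injective (inc m) := by
  intro p q h
  have h' : (inc m p).1 = (inc m q).1 := congrArg Subtype.val h
  exact Subtype.ext h'

theorem pth_injective (m : ℕ) : Function.Injective (pth m) := by
  intro i j h
  have h' : (pth m i).1 = (pth m j).1 := congrArg Subtype.val h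
  simp only [pth, Prod.mk.injEq] at h'
  obtain ⟨h1, h2⟩ := h'
  have hi := i.2
  have hj := j.2
  apply Fin.ext
  split_ifs at h1 <;> omega

theorem pth_sum (m : ℕ) (i : Fin (2 * m + 3)) : m ≤ (pth m i).1.1 + (pth m i).1.2 := by
  have hi := i.2
  simp only [pth]
  split_ifs <;> omega

theorem inc_sum (m : ℕ) (p : Box m) : (inc m p).1.1 + (inc m p).1.2 < m := by
  have h := p.2
  simp only [YoungDiagram.mem_cells, mem_staircase] at h
  exact h

theorem inc_ne_pth (m : ℕ) (p : Box m) (i : Fin (2 * m + 3)) : inc m p ≠ pth m i := by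
  intro h
  have h1 := inc_sum m p
  have h2 := pth_sum m i
  rw [h] at h1
  omega

theorem box_cases (m : ℕ) (p : Box (m + 2)) : (∃ p', p = inc m p') ∨ ∃ i, p = pth m i := by
  obtain ⟨⟨x, y⟩, h⟩ := p
  have h' := h
  simp only [YoungDiagram.mem_cells, mem_staircase] at h'
  by_cases h1 : x + y < m
  · left
    refine ⟨⟨(x, y), ?_⟩, rfl⟩
    simp only [YoungDiagram.mem_cells, mem_staircase]
    exact h1
  · right
    by_cases h2 : x + y = m
    · refine ⟨⟨2 * x + 1, by omega⟩, ?_⟩
      apply Subtype.ext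
      simp only [pth, Prod.mk.injEq]
      split_ifs <;> constructor <;> omega
    · refine ⟨⟨2 * x, by omega⟩, ?_⟩
      apply Subtype.ext
      simp only [pth, Prod.mk.injEq]
      split_ifs <;> constructor <;> omega

/-- the boxes of the staircase of size `m + 2`: the inner ones and the ones of the path -/
noncomputable def boxSum (m : ℕ) : (Box m ⊕ Fin (2 * m + 3)) ≃ Box (m + 2) :=
  Equiv.ofBijective (Sum.elim (inc m) (pth m)) (by
    constructor
    · rintro (a | a) (b | b) h
      · exact congrArg Sum.inl (inc_injective m h)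
      · exact absurd h (inc_ne_pth m a b)
      · exact absurd h.symm (inc_ne_pth m b a)
      · exact congrArg Sum.inr (pth_injective m h)
    · intro p
      rcases box_cases m p with ⟨p', rfl⟩ | ⟨i, rfl⟩
      · exact ⟨Sum.inl p', rfl⟩
      · exact ⟨Sum.inr i, rfl⟩)

theorem exists_tab {m : ℕ} {β ν : YoungDiagram} (c0 : Box m ≃ β.cells) (hle : β ≤ ν)
    (hcard : ν.card = β.card + (2 * m + 3)) :
    ∃ c : Box (m + 2) ≃ ν.cells, (∀ p, (c (inc m p)).1 = (c0 p).1) ∧
      (∀ i, (c (pth m i)).1 ∉ β) ∧ Monotone (fun i => (c (pth m i)).1.2) := by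
  classical
  have hsub : β.cells ⊆ ν.cells := hle
  have hS : (ν.cells \ β.cells).card = 2 * m + 3 := by
    rw [Finset.card_sdiff_of_subset hsub]
    have h1 : ν.cells.card = β.cells.card + (2 * m + 3) := hcard
    omega
  let e0 : Fin (2 * m + 3) ≃ (ν.cells \ β.cells : Finset (ℕ × ℕ)) :=
    ((Finset.equivFinOfCardEq hS).symm)
  let f : Fin (2 * m + 3) → ℕ := fun i => (e0 i).1.2
  let e : Fin (2 * m + 3) ≃ (ν.cells \ β.cells : Finset (ℕ × ℕ)) := (Tuple.sort f).trans e0
  have hmono : Monotone (fun i => (e i).1.2) := Tuple.monotone_sort f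
  have he : ∀ i, (e i).1 ∈ ν.cells ∧ (e i).1 ∉ β.cells := fun i =>
    Finset.mem_sdiff.mp (e i).2
  let h : (Box m ⊕ Fin (2 * m + 3)) → ν.cells :=
    Sum.elim (fun p => ⟨(c0 p).1, hsub (c0 p).2⟩) (fun i => ⟨(e i).1, (he i).1⟩)
  have hbij : Function.Bijective h := by
    constructor
    · rintro (a | a) (b | b) hab
      · have h1 : (h (Sum.inl a)).1 = (h (Sum.inl b)).1 := congrArg Subtype.val hab
        change (c0 a).1 = (c0 b).1 at h1
        exact congrArg Sum.inl (c0.injective (Subtype.ext h1))
      · have h1 : (h (Sum.inl a)).1 = (h (Sum.inr b)).1 := congrArg Subtype.val hab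
        change (c0 a).1 = (e b).1 at h1
        exact absurd (h1 ▸ (c0 a).2) (he b).2
      · have h1 : (h (Sum.inr a)).1 = (h (Sum.inl b)).1 := congrArg Subtype.val hab
        change (e a).1 = (c0 b).1 at h1
        exact absurd (h1 ▸ (c0 b).2) (he a).2
      · have h1 : (h (Sum.inr a)).1 = (h (Sum.inr b)).1 := congrArg Subtype.val hab
        change (e a).1 = (e b).1 at h1
        exact congrArg Sum.inr (e.injective (Subtype.ext h1))
    · rintro ⟨y, hy⟩
      by_cases hyb : y ∈ β.cells
      · refine ⟨Sum.inl (c0.symm ⟨y, hyb⟩), ?_⟩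
        apply Subtype.ext
        simp [h]
      · refine ⟨Sum.inr (e.symm ⟨y, Finset.mem_sdiff.mpr ⟨hy, hyb⟩⟩), ?_⟩
        apply Subtype.ext
        simp [h]
  let c : Box (m + 2) ≃ ν.cells := (boxSum m).symm.trans (Equiv.ofBijective h hbij)
  have hc1 : ∀ p, c (inc m p) = h (Sum.inl p) := by
    intro p
    have : (boxSum m).symm (inc m p) = Sum.inl p := by
      rw [Equiv.symm_apply_eq]
      rfl
    simp only [c, Equiv.trans_apply, this]
    rfl
  have hc2 : ∀ i, c (pth m i) = h (Sum.inr i) := by
    intro i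
    have : (boxSum m).symm (pth m i) = Sum.inr i := by
      rw [Equiv.symm_apply_eq]
      rfl
    simp only [c, Equiv.trans_apply, this]
    rfl
  refine ⟨c, ?_, ?_, ?_⟩
  · intro p
    rw [hc1]
    rfl
  · intro i
    rw [hc2]
    exact fun hh => (he i).2 hh
  · have : (fun i => (c (pth m i)).1.2) = fun i => (e i).1.2 := by
      funext i
      rw [hc2]
      rfl
    rw [this]
    exact hmono

end Vale.Agent.P197.Sx
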