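import Vale.Agent.P197.Sx.Split
import Vale.Agent.P197.Sx.Path
import Vale.Agent.P197.Sx.Tab

/-! Module E: the inductive step. -/

namespace Vale.Agent.P197.Sx

open Equiv Finset

section small

variable {X : Type*} [Fintype X] [DecidableEq X] [Subsingleton X]

theorem cst_subsingleton {μ : YoungDiagram} (b : X ≃ μ.cells) : cst b = {1} := by
  ext π
  have h : π = 1 := Subsingleton.elim _ _
  subst h
  simp [cst]

theorem val_subsingleton {la mu nu : YoungDiagram} (a : X ≃ la.cells) (b : X ≃ mu.cells)
    (c : X ≃ nu.cells) : val (fun _ _ _ => 1) a b c ≠ 0 := by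
  unfold val dd
  rw [cst_subsingleton, cst_subsingleton, cst_subsingleton]
  simp

end small

theorem good_zero {ν : YoungDiagram} (h : ν.card = 0) : Good 0 ν := by
  have hs : (staircase 0).cells.card = 0 := card_staircase 0
  have hν : ν.cells.card = 0 := h
  have : Subsingleton (Box 0) := by
    rw [← Fintype.card_le_one_iff_subsingleton, Fintype.card_coe]
    omega
  have c : Box 0 ≃ ν.cells := Fintype.equivOfCardEq (by rw [Fintype.card_coe, Fintype.card_coe, hs, hν])
  exact ⟨fun _ _ _ => 1, c, val_subsingleton _ _ _⟩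

theorem good_one {ν : YoungDiagram} (h : ν.card = 1) : Good 1 ν := by
  have hs : (staircase 1).cells.card = 1 := card_staircase 1
  have hν : ν.cells.card = 1 := h
  have : Subsingleton (Box 1) := by
    rw [← Fintype.card_le_one_iff_subsingleton, Fintype.card_coe]
    omega
  have c : Box 1 ≃ ν.cells := Fintype.equivOfCardEq (by rw [Fintype.card_coe, Fintype.card_coe, hs, hν])
  exact ⟨fun _ _ _ => 1, c, val_subsingleton _ _ _⟩

/-- the exponent inequality -/
theorem sum_row_le {β : YoungDiagram} (S : Finset (ℕ × ℕ)) (hcard : S.card = β.cells.card)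
    (hL : ∑ x ∈ S, β.colLen x.2 = ∑ x ∈ β.cells, β.colLen x.2) :
    ∑ x ∈ β.cells, x.1 ≤ ∑ x ∈ S, x.1 ∧
      (∑ x ∈ S, x.1 = ∑ x ∈ β.cells, x.1 → S = β.cells) := by
  have e1 : ∀ f : ℕ × ℕ → ℕ, ∑ x ∈ S, f x + ∑ x ∈ β.cells \ S, f x =
      ∑ x ∈ β.cells, f x + ∑ x ∈ S \ β.cells, f x := by
    intro f
    have h1 : ∑ x ∈ S ∪ (β.cells \ S), f x = ∑ x ∈ S, f x + ∑ x ∈ β.cells \ S, f x :=
      Finset.sum_union Finset.disjoint_sdiff
    have h2 : ∑ x ∈ β.cells ∪ (S \ β.cells), f x =
        ∑ x ∈ β.cells, f x + ∑ x ∈ S \ β.cells, f x :=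
      Finset.sum_union Finset.disjoint_sdiff
    have h3 : S ∪ (β.cells \ S) = β.cells ∪ (S \ β.cells) := by
      rw [Finset.union_sdiff_self_eq_union, Finset.union_sdiff_self_eq_union, Finset.union_comm]
    rw [h3, h2] at h1
    exact h1.symm
  have h1 := e1 fun x => x.1
  have h2 := e1 fun x => β.colLen x.2
  have h3 : ∑ x ∈ β.cells \ S, (x.1 + 1) ≤ ∑ x ∈ β.cells \ S, β.colLen x.2 := by
    refine Finset.sum_le_sum fun x hx => ?_
    rw [Finset.mem_sdiff] at hx
    have h4 : (x.1, x.2) ∈ β := hx.1
    rw [YoungDiagram.mem_iff_lt_colLen] at h4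
    omega
  have h4 : ∑ x ∈ S \ β.cells, β.colLen x.2 ≤ ∑ x ∈ S \ β.cells, x.1 := by
    refine Finset.sum_le_sum fun x hx => ?_
    rw [Finset.mem_sdiff] at hx
    have h5 : ¬ (x.1, x.2) ∈ β := hx.2
    rw [YoungDiagram.mem_iff_lt_colLen] at h5
    omega
  rw [Finset.sum_add_distrib, Finset.sum_const, smul_eq_mul, mul_one] at h3
  refine ⟨by omega, fun h5 => ?_⟩
  have h6 : (β.cells \ S).card = 0 := by omega
  rw [Finset.card_eq_zero, Finset.sdiff_eq_empty_iff_subset] at h6
  exact (Finset.eq_of_subset_of_card_le h6 hcard.le).symm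

theorem good_step {m : ℕ} {β ν : YoungDiagram} (hβ : Good m β) (hle : β ≤ ν)
    (hcard : ν.card = β.card + (2 * m + 3)) (h4 : ∀ j, ν.colLen j ≤ β.colLen j + 4) :
    Good (m + 2) ν := by
  classical
  obtain ⟨K, c0, hval⟩ := hβ
  obtain ⟨c, hc1, hc2, hc3⟩ := exists_tab c0 hle hcard
  -- the value as a function of `q`
  let e : Perm (Box (m + 2)) → ℕ := fun τ => ∑ p : Box m, rw' c (τ (inc m p))
  let A : Perm (Box (m + 2)) → ℂ := fun τ => ((Perm.sign τ : ℤ) : ℂ) *
    (pval U4 m (fun i => rw' c (τ (pth m i))) * ddS m K (fun p => rw' c (τ (inc m p))))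
  have hvalq : ∀ q : ℂ, val (Kstep q U4 K) (swp (m + 2)) (Equiv.refl _) c =
      ∑ τ ∈ cst c, A τ * q ^ (e τ) := by
    intro q
    unfold val
    refine Finset.sum_congr rfl fun τ _ => ?_
    have h := ddS_step m q U4 K (fun p => rw' c (τ p))
    unfold ddS at h
    rw [h]
    simp only [A, e, ddS]
    ring
  let E : ℕ := ∑ x ∈ β.cells, x.1
  -- the inner permutations
  let S2 : Finset (Perm (Fin (2 * m + 3))) :=
    univ.filter fun τ => ∀ i, (c (pth m (τ i))).1.2 = (c (pth m i)).1.2
  let Φ : Perm (Box m) × Perm (Fin (2 * m + 3)) → Perm (Box (m + 2)) := fun x =>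
    (boxSum m).permCongr (Equiv.sumCongr x.1 x.2)
  have hΦ1 : ∀ x p, Φ x (inc m p) = inc m (x.1 p) := by
    intro x p
    have h : (boxSum m).symm (inc m p) = Sum.inl p := by
      rw [Equiv.symm_apply_eq]; rfl
    simp only [Φ, Equiv.permCongr_apply, h]
    rfl
  have hΦ2 : ∀ x i, Φ x (pth m i) = pth m (x.2 i) := by
    intro x i
    have h : (boxSum m).symm (pth m i) = Sum.inr i := by
      rw [Equiv.symm_apply_eq]; rfl
    simp only [Φ, Equiv.permCongr_apply, h]
    rfl
  have hsign : ∀ x, Perm.sign (Φ x) = Perm.sign x.1 * Perm.sign x.2 := by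
    intro x
    simp only [Φ]
    rw [Perm.sign_permCongr]
    exact Perm.sign_sumCongr x.1 x.2
  have hinner : ∀ p, (c (inc m p)).1 ∈ β := fun p => by
    rw [hc1]; exact (c0 p).2
  -- exponents
  have hexp : ∀ τ ∈ cst c, E ≤ e τ ∧ (e τ = E → ∀ p, ∃ p', τ (inc m p) = inc m p') := by
    intro τ hτ
    simp only [cst, mem_filter, mem_univ, true_and] at hτ
    let f : Box m → ℕ × ℕ := fun p => (c (τ (inc m p))).1
    have hf : Function.Injective f := by
      intro p q hpq
      have h1 : c (τ (inc m p)) = c (τ (inc m q)) := Subtype.ext hpq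
      exact inc_injective m (τ.injective (c.injective h1))
    let g : Box m → ℕ × ℕ := fun p => (c0 p).1
    have hg : Function.Injective g := by
      intro p q hpq
      exact c0.injective (Subtype.ext hpq)
    have hgim : univ.image g = β.cells := by
      ext x
      simp only [mem_image, mem_univ, true_and]
      constructor
      · rintro ⟨p, rfl⟩; exact (c0 p).2
      · intro hx
        exact ⟨c0.symm ⟨x, hx⟩, by simp [g]⟩
    have hcol : ∀ p, (f p).2 = (g p).2 := by
      intro p
      simp only [f, g]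
      rw [hτ, hc1]
    have hS : (univ.image f).card = β.cells.card := by
      rw [← hgim, Finset.card_image_of_injective _ hf, Finset.card_image_of_injective _ hg]
    have h1 := sum_row_le (β := β) (univ.image f) hS (by
      rw [← hgim, Finset.sum_image (fun _ _ _ _ h => hf h),
        Finset.sum_image (fun _ _ _ _ h => hg h)]
      exact Finset.sum_congr rfl fun p _ => by rw [hcol])
    have h2 : ∑ x ∈ univ.image f, x.1 = e τ := by
      rw [Finset.sum_image (fun _ _ _ _ h => hf h)]
      rfl
    rw [h2] at h1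
    refine ⟨h1.1, fun h3 p => ?_⟩
    have h4 := h1.2 h3
    have h5 : f p ∈ β.cells := by
      rw [← h4]
      exact Finset.mem_image_of_mem _ (mem_univ _)
    rcases box_cases m (τ (inc m p)) with ⟨p', hp'⟩ | ⟨i, hi⟩
    · exact ⟨p', hp'⟩
    · exfalso
      apply hc2 i
      rw [← hi]
      exact h5
  -- the coefficient of `q ^ E`
  let cc : Fin (2 * m + 3) → ℕ := fun i => rw' c (pth m i)
  have hcoef : ∑ τ ∈ (cst c).filter (fun τ => e τ = E), A τ =
      (S2.card : ℂ) * (pval U4 m cc * val K (swp m) (Equiv.refl _) c0) := by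
    have hbij : ∑ τ ∈ (cst c).filter (fun τ => e τ = E), A τ =
        ∑ x ∈ cst c0 ×ˢ S2, A (Φ x) := by
      refine (Finset.sum_bij (fun x _ => Φ x) ?_ ?_ ?_ ?_).symm
      · rintro ⟨τ1, τ2⟩ hx
        rw [mem_product] at hx
        obtain ⟨h1, h2⟩ := hx
        simp only [cst, S2, mem_filter, mem_univ, true_and] at h1 h2
        rw [mem_filter]
        constructor
        · simp only [cst, mem_filter, mem_univ, true_and]
          intro p
          rcases box_cases m p with ⟨p', rfl⟩ | ⟨i, rfl⟩
          · rw [hΦ1, hc1, hc1, h1]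
          · rw [hΦ2, h2]
        · simp only [e, E]
          have h5 : ∀ p, rw' c (Φ (τ1, τ2) (inc m p)) = (c0 (τ1 p)).1.1 := by
            intro p
            rw [hΦ1, rw', hc1]
          rw [Finset.sum_congr rfl fun p _ => h5 p,
            Equiv.sum_comp τ1 (fun p => (c0 p).1.1),
            Equiv.sum_comp c0 (fun x : β.cells => x.1.1)]
          exact Finset.sum_coe_sort β.cells (fun x => x.1)
      · rintro ⟨τ1, τ2⟩ _ ⟨τ1', τ2'⟩ _ heq
        have h1 : τ1 = τ1' := by
          ext p : 1
          have := congrArg (fun f => f (inc m p)) heq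
          simp only [hΦ1] at this
          exact inc_injective m this
        have h2 : τ2 = τ2' := by
          ext i : 1
          have := congrArg (fun f => f (pth m i)) heq
          simp only [hΦ2] at this
          exact pth_injective m this
        rw [h1, h2]
      · intro τ hτ
        rw [mem_filter] at hτ
        have hin := (hexp τ hτ.1).2 hτ.2
        let ρ' : Perm (Box m ⊕ Fin (2 * m + 3)) := (boxSum m).symm.permCongr τ
        have hρ' : ∀ z, boxSum m (ρ' z) = τ (boxSum m z) := by
          intro z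
          simp [ρ', Equiv.permCongr_apply]
        have hmaps : Set.MapsTo ρ' (Set.range Sum.inl) (Set.range Sum.inl) := by
          rintro _ ⟨p, rfl⟩
          obtain ⟨p', hp'⟩ := hin p
          refine ⟨p', ?_⟩
          apply (boxSum m).injective
          rw [hρ']
          exact hp'.symm
        obtain ⟨⟨τ1, τ2⟩, hτ12⟩ := Perm.mem_sumCongrHom_range_of_perm_mapsTo_inl hmaps
        have hb : Φ (τ1, τ2) = τ := by
          ext x : 1
          obtain ⟨z, rfl⟩ := (boxSum m).surjective x
          rw [← hρ', ← hτ12]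
          simp only [Φ, Equiv.permCongr_apply, Equiv.symm_apply_apply]
          rfl
        refine ⟨(τ1, τ2), ?_, hb⟩
        have hτc := hτ.1
        simp only [cst, mem_filter, mem_univ, true_and] at hτc
        rw [mem_product]
        constructor
        · simp only [cst, mem_filter, mem_univ, true_and]
          intro p
          have h1 := hτc (inc m p)
          rw [← hb, hΦ1, hc1, hc1] at h1
          exact h1
        · simp only [S2, mem_filter, mem_univ, true_and]
          intro i
          have h1 := hτc (pth m i)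
          rw [← hb, hΦ2] at h1
          exact h1
      · intro x _
        rfl
    rw [hbij, Finset.sum_product]
    have hA : ∀ τ1 ∈ cst c0, ∀ τ2 ∈ S2, A (Φ (τ1, τ2)) = pval U4 m cc *
        (((Perm.sign τ1 : ℤ) : ℂ) * ddS m K (fun p => rw' c0 (τ1 p))) := by
      intro τ1 _ τ2 h2
      simp only [S2, mem_filter, mem_univ, true_and] at h2
      simp only [A, hΦ1, hΦ2, hsign]
      have h5 : (fun p => rw' c (inc m (τ1 p))) = fun p => rw' c0 (τ1 p) := by
        funext p
        rw [rw', hc1]
        rfl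
      have h6 : pval U4 m (fun i => rw' c (pth m (τ2 i))) =
          ((Perm.sign τ2 : ℤ) : ℂ) * pval U4 m cc := by
        refine pval_perm m cc (fun i => (c (pth m i)).1.2) hc3 ?_ τ2 h2
        intro i j hij hmod
        have hi := (c (pth m i)).2
        have hj := (c (pth m j)).2
        have hi' := hc2 i
        have hj' := hc2 j
        simp only [cc, rw'] at hmod
        have a1 : ((c (pth m i)).1.1, (c (pth m i)).1.2) ∈ ν := hi
        have a2 : ((c (pth m j)).1.1, (c (pth m j)).1.2) ∈ ν := hj
        have a3 : ¬ ((c (pth m i)).1.1, (c (pth m i)).1.2) ∈ β := hi'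
        have a4 : ¬ ((c (pth m j)).1.1, (c (pth m j)).1.2) ∈ β := hj'
        rw [YoungDiagram.mem_iff_lt_colLen] at a1 a2 a3 a4
        have hij' : (c (pth m i)).1.2 = (c (pth m j)).1.2 := hij
        rw [hij'] at a1 a3
        have a5 := h4 (c (pth m j)).1.2
        have a6 : (c (pth m i)).1.1 = (c (pth m j)).1.1 := by omega
        have a7 : c (pth m i) = c (pth m j) := Subtype.ext (Prod.ext a6 hij)
        exact pth_injective m (c.injective a7)
      rw [h5, h6]
      push_cast
      have h7 : ((Perm.sign τ2 : ℤ) : ℂ) * ((Perm.sign τ2 : ℤ) : ℂ) = 1 := by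
        have : (Perm.sign τ2 : ℤ) * (Perm.sign τ2 : ℤ) = 1 := by
          rcases Int.units_eq_one_or (Perm.sign τ2) with h | h <;> rw [h] <;> simp
        exact_mod_cast this
      linear_combination (((Perm.sign τ1 : ℤ) : ℂ) * pval U4 m cc *
        ddS m K (fun p => rw' c0 (τ1 p))) * h7
    rw [Finset.sum_congr rfl fun τ1 h1 => Finset.sum_congr rfl fun τ2 h2 => hA τ1 h1 τ2 h2]
    simp only [Finset.sum_const, nsmul_eq_mul]
    rw [← Finset.mul_sum, ← Finset.mul_sum]
    rfl
  have hS2 : (S2.card : ℂ) ≠ 0 := by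
    rw [Nat.cast_ne_zero, ← Nat.pos_iff_ne_zero, Finset.card_pos]
    refine ⟨1, ?_⟩
    simp [S2]
  have hne : ∑ τ ∈ (cst c).filter (fun τ => e τ = E), A τ ≠ 0 := by
    rw [hcoef]
    exact mul_ne_zero hS2 (mul_ne_zero (pval_ne_zero m cc) hval)
  -- a good value of `q`
  let P : Polynomial ℂ := ∑ τ ∈ cst c, Polynomial.C (A τ) * Polynomial.X ^ (e τ)
  have hP : P ≠ 0 := by
    intro h0
    apply hne
    have h1 : P.coeff E = ∑ τ ∈ (cst c).filter (fun τ => e τ = E), A τ := by
      simp only [P, Polynomial.finsetSum_coeff, Polynomial.coeff_C_mul_X_pow]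
      rw [Finset.sum_filter]
      refine Finset.sum_congr rfl fun τ _ => ?_
      by_cases h : e τ = E
      · rw [if_pos h, if_pos h.symm]
      · rw [if_neg h, if_neg (fun h' => h h'.symm)]
    rw [← h1, h0, Polynomial.coeff_zero]
  obtain ⟨q, hq⟩ : ∃ q : ℂ, P.eval q ≠ 0 := by
    by_contra hcon
    push Not at hcon
    exact hP (Polynomial.funext fun q => by rw [hcon q, Polynomial.eval_zero])
  refine ⟨Kstep q U4 K, c, ?_⟩
  rw [hvalq]
  intro h0
  apply hq
  simp only [P, Polynomial.eval_finsetSum, Polynomial.eval_mul, Polynomial.eval_C,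
    Polynomial.eval_pow, Polynomial.eval_X]
  exact h0

end Vale.Agent.P197.Sx
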