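import Vale.Agent.P197.Sx.S1Main
import Vale.Agent.P197.Sx.Peel

/-! Module G: helper98's surjectivity (adding a first row of length `m+1`). -/

namespace Vale.Agent.P197.Sx

open Finset

theorem surj_one {m : ℕ} {β ν : YoungDiagram} (hb : β.card = m * (m + 1) / 2)
    (h : 0 < kronecker (m * (m + 1) / 2) (staircase m) (staircase m) β) (hle : β ≤ ν)
    (hstrip : ∀ j, ν.colLen j ≤ β.colLen j + 1) (hc : ν.card = (m + 1) * (m + 2) / 2) :
    0 < kronecker ((m + 1) * (m + 2) / 2) (staircase (m + 1)) (staircase (m + 1)) ν := by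
  have e : (m + 1) * (m + 2) / 2 = m + 1 + m * (m + 1) / 2 := by
    have e2 : (m + 1) * (m + 2) = m * (m + 1) + (m + 1) * 2 := by ring
    rw [e2, Nat.add_mul_div_right _ _ (by norm_num)]
    omega
  rw [e] at hc ⊢
  exact surj_core (card_staircase m) ((card_staircase (m + 1)).trans e) hb h hle hstrip hc

theorem exists_horizontal_strip (m : ℕ) (ν : YoungDiagram) (hc : ν.card = (m + 1) * (m + 2) / 2)
    (h : m + 1 ≤ ν.rowLen 0) :
    ∃ β : YoungDiagram, β ≤ ν ∧ β.card = m * (m + 1) / 2 ∧ ∀ j, ν.colLen j ≤ β.colLen j + 1 :=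
  exists_horizontal_strip' m ν hc h

end Vale.Agent.P197.Sx
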