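import Vale.Agent.P197.Sx.Form
import Vale.Agent.P197.Sx.Step
import Vale.Agent.P197.Sx.Peel
import Vale.Agent.P197.Sx.SurjOne
import Vale.Agent.P197.Transpose

/-! Assembly of Saxl's conjecture. -/

namespace Vale.Agent.P197.Sx

theorem good_of_dom : ∀ (m : ℕ) (ν : YoungDiagram), ν.card = m * (m + 1) / 2 → dom m ν → Good m ν
  | 0, ν, hc, _ => good_zero (by simpa using hc)
  | 1, ν, hc, _ => good_one (by simpa using hc)
  | m + 2, ν, hc, hd => by
    obtain ⟨β, hle, hβ, h4, hdβ⟩ := exists_peel m ν (by simpa [Nat.add_assoc] using hc) hd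
    refine good_step (good_of_dom m β hβ hdβ) hle ?_ h4
    rw [hc, hβ]
    have h1 : (m + 2) * (m + 2 + 1) = m * (m + 1) + (2 * m + 3) * 2 := by ring
    rw [h1, Nat.add_mul_div_right _ _ (by norm_num)]

/-- Saxl's conjecture. -/
theorem saxl : ∀ (m : ℕ) (ν : YoungDiagram), ν.card = m * (m + 1) / 2 →
    0 < kronecker (m * (m + 1) / 2) (staircase m) (staircase m) ν := by
  intro m
  induction m with
  | zero =>
    intro ν hc
    exact kronecker_pos_of_good (good_zero (by simpa using hc))
  | succ m ih =>
    intro ν hc
    by_cases h1 : m + 1 ≤ ν.rowLen 0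
    · obtain ⟨β, hle, hb, hs⟩ := exists_horizontal_strip m ν hc h1
      exact surj_one hb (ih β hb) hle hs hc
    · by_cases h2 : m + 1 ≤ ν.colLen 0
      · have hcT : ν.transpose.card = (m + 1) * (m + 2) / 2 := by
          rw [card_transpose]; exact hc
        obtain ⟨β, hle, hb, hs⟩ := exists_horizontal_strip m ν.transpose hcT
          (by rw [YoungDiagram.rowLen_transpose]; exact h2)
        have h3 := surj_one hb (ih β hb) hle hs hcT
        have hst : (staircase (m + 1)).card = (m + 1) * (m + 2) / 2 := card_staircase (m + 1)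
        have h4 := kronecker_transpose (n := (m + 1) * (m + 2) / 2) (staircase (m + 1))
          (staircase (m + 1)) ν hst hc
        rw [staircase_transpose] at h4
        rw [← h4]
        exact h3
      · apply kronecker_pos_of_good
        apply good_of_dom (m + 1) ν hc
        exact dom_of_colLen_lt (m + 1) ν hc (by omega)

end Vale.Agent.P197.Sx
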