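import Vale.Agent.P197.Sx.SDefs

/-! Module C, part 2: the path sum. -/

namespace Vale.Agent.P197.Sx

open Equiv Finset Matrix

/-- first label on the path -/
def laF (m : ℕ) (i : Fin (2 * m + 3)) : Fin 2 := if i.1 % 2 = 0 ∧ i.1 < 2 * m + 2 then 1 else 0

/-- second label on the path -/
def lbF (m : ℕ) (i : Fin (2 * m + 3)) : Fin 2 := if i.1 % 2 = 0 ∧ i.1 ≠ 0 then 1 else 0

/-- splitting of the path in pairs `(2k, 2k+1)` and the last place -/
def eX (m : ℕ) : (Fin (m + 1) × Fin 2) ⊕ Fin 1 ≃ Fin (2 * m + 3) :=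
  (Equiv.sumCongr finProdFinEquiv (Equiv.refl (Fin 1))).trans
    (finSumFinEquiv.trans (finCongr (by ring)))

/-- splitting of the path in the first place and pairs `(2k+1, 2k+2)` -/
def eY (m : ℕ) : Fin 1 ⊕ (Fin (m + 1) × Fin 2) ≃ Fin (2 * m + 3) :=
  (Equiv.sumCongr (Equiv.refl (Fin 1)) finProdFinEquiv).trans
    (finSumFinEquiv.trans (finCongr (by ring)))

theorem eX_inl (m : ℕ) (k : Fin (m + 1)) (j : Fin 2) :
    (eX m (Sum.inl (k, j))).1 = 2 * k.1 + j.1 := by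
  simp [eX, finProdFinEquiv]
  try ring

theorem eX_inr (m : ℕ) (j : Fin 1) : (eX m (Sum.inr j)).1 = 2 * m + 2 := by
  simp [eX]
  try ring

theorem eY_inr (m : ℕ) (k : Fin (m + 1)) (j : Fin 2) :
    (eY m (Sum.inr (k, j))).1 = 2 * k.1 + 1 + j.1 := by
  simp [eY, finProdFinEquiv]
  try ring

theorem eY_inl (m : ℕ) (j : Fin 1) : (eY m (Sum.inl j)).1 = 0 := by
  simp [eY]

theorem exists_pcr {K : ℕ} (τ : Perm (Fin K × Fin 2)) (h : ∀ p, (τ p).1 = p.1) :
    ∃ s : Fin K → Perm (Fin 2), τ = prodCongrRight s := by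
  have h' : ∀ p, (τ.symm p).1 = p.1 := by
    intro p
    have := h (τ.symm p)
    rw [Equiv.apply_symm_apply] at this
    exact this.symm
  refine ⟨fun k =>
    { toFun := fun j => (τ (k, j)).2
      invFun := fun j => (τ.symm (k, j)).2
      left_inv := ?_
      right_inv := ?_ }, ?_⟩
  · intro j
    have h1 : (k, (τ (k, j)).2) = τ (k, j) := Prod.ext (h (k, j)).symm rfl
    simp only
    rw [h1, Equiv.symm_apply_apply]
  · intro j
    have h1 : (k, (τ.symm (k, j)).2) = τ.symm (k, j) := Prod.ext (h' (k, j)).symm rfl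
    simp only
    rw [h1, Equiv.apply_symm_apply]
  · ext1 ⟨k, j⟩
    exact Prod.ext (h (k, j)) rfl

/-- the permutation with given pair permutations -/
def EX (m : ℕ) (s : Fin (m + 1) → Perm (Fin 2)) : Perm (Fin (2 * m + 3)) :=
  (eX m).permCongr (Perm.sumCongr (prodCongrRight s) 1)

/-- the permutation with given pair permutations -/
def EY (m : ℕ) (s : Fin (m + 1) → Perm (Fin 2)) : Perm (Fin (2 * m + 3)) :=
  (eY m).permCongr (Perm.sumCongr 1 (prodCongrRight s))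

theorem EX_inl (m : ℕ) (s : Fin (m + 1) → Perm (Fin 2)) (k : Fin (m + 1)) (j : Fin 2) :
    EX m s (eX m (Sum.inl (k, j))) = eX m (Sum.inl (k, s k j)) := by
  simp [EX, Equiv.permCongr_apply]

theorem EX_inr (m : ℕ) (s : Fin (m + 1) → Perm (Fin 2)) (j : Fin 1) :
    EX m s (eX m (Sum.inr j)) = eX m (Sum.inr j) := by
  simp [EX, Equiv.permCongr_apply]

theorem EY_inr (m : ℕ) (s : Fin (m + 1) → Perm (Fin 2)) (k : Fin (m + 1)) (j : Fin 2) :
    EY m s (eY m (Sum.inr (k, j))) = eY m (Sum.inr (k, s k j)) := by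
  simp [EY, Equiv.permCongr_apply]

theorem EY_inl (m : ℕ) (s : Fin (m + 1) → Perm (Fin 2)) (j : Fin 1) :
    EY m s (eY m (Sum.inl j)) = eY m (Sum.inl j) := by
  simp [EY, Equiv.permCongr_apply]

theorem sign_EX (m : ℕ) (s : Fin (m + 1) → Perm (Fin 2)) :
    Perm.sign (EX m s) = ∏ k, Perm.sign (s k) := by
  rw [EX, Perm.sign_permCongr, Perm.sign_sumCongr, Perm.sign_prodCongrRight]
  simp

theorem sign_EY (m : ℕ) (s : Fin (m + 1) → Perm (Fin 2)) :
    Perm.sign (EY m s) = ∏ k, Perm.sign (s k) := by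
  rw [EY, Perm.sign_permCongr, Perm.sign_sumCongr, Perm.sign_prodCongrRight]
  simp

theorem sum_EX {M : Type*} [AddCommMonoid M] (m : ℕ) (G : Perm (Fin (2 * m + 3)) → M) :
    ∑ τ ∈ univ.filter (fun τ : Perm (Fin (2 * m + 3)) => ∀ i, (τ i).1 / 2 = i.1 / 2), G τ =
      ∑ s : Fin (m + 1) → Perm (Fin 2), G (EX m s) := by
  symm
  refine Finset.sum_bij (fun s _ => EX m s) ?_ ?_ ?_ ?_
  · intro s _
    simp only [mem_filter, mem_univ, true_and]
    intro i
    obtain ⟨x, rfl⟩ := (eX m).surjective i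
    rcases x with ⟨k, j⟩ | j
    · rw [EX_inl, eX_inl, eX_inl]
      have h1 := (s k j).2
      have h2 := j.2
      omega
    · rw [EX_inr]
  · intro s _ s' _ h
    funext k
    ext1 j
    have h1 := congrArg (fun e : Perm (Fin (2 * m + 3)) => e (eX m (Sum.inl (k, j)))) h
    simp only [EX_inl] at h1
    have h2 := (eX m).injective h1
    have h3 := Sum.inl_injective h2
    exact (Prod.ext_iff.mp h3).2
  · intro τ hτ
    simp only [mem_filter, mem_univ, true_and] at hτ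
    have h1 : Set.MapsTo ((eX m).symm.permCongr τ) (Set.range Sum.inl) (Set.range Sum.inl) := by
      rintro _ ⟨⟨k, j⟩, rfl⟩
      rw [Equiv.permCongr_apply, Equiv.symm_symm]
      obtain ⟨x, hx⟩ := (eX m).surjective (τ (eX m (Sum.inl (k, j))))
      rw [← hx, Equiv.symm_apply_apply]
      rcases x with ⟨k', j'⟩ | j'
      · exact ⟨_, rfl⟩
      · exfalso
        have h2 := hτ (eX m (Sum.inl (k, j)))
        rw [← hx, eX_inr, eX_inl] at h2
        have h3 := k.2
        have h4 := j.2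
        omega
    obtain ⟨⟨τ1, τ2⟩, h2⟩ := Perm.mem_sumCongrHom_range_of_perm_mapsTo_inl h1
    have h3 : Perm.sumCongr τ1 τ2 = (eX m).symm.permCongr τ := h2
    have h4 : τ2 = 1 := Subsingleton.elim _ _
    have h5 : τ = (eX m).permCongr (Perm.sumCongr τ1 τ2) := by
      rw [h3]
      ext1 p
      simp [Equiv.permCongr_apply]
    obtain ⟨s, hs⟩ := exists_pcr τ1 (by
      rintro ⟨k, j⟩
      have h6 := hτ (eX m (Sum.inl (k, j)))
      have h7 : τ (eX m (Sum.inl (k, j))) = eX m (Sum.inl (τ1 (k, j))) := by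
        rw [h5]
        simp [Equiv.permCongr_apply]
      rw [h7] at h6
      obtain ⟨k', j', hkj⟩ : ∃ k' j', τ1 (k, j) = (k', j') := ⟨_, _, rfl⟩
      rw [hkj, eX_inl, eX_inl] at h6
      rw [hkj]
      have h8 := j.2
      have h9 := j'.2
      apply Fin.ext
      simp only
      omega)
    refine ⟨s, mem_univ _, ?_⟩
    rw [h5, hs, h4]
    rfl
  · intro s _
    rfl

theorem sum_EY {M : Type*} [AddCommMonoid M] (m : ℕ) (G : Perm (Fin (2 * m + 3)) → M) :
    ∑ τ ∈ univ.filter (fun τ : Perm (Fin (2 * m + 3)) =>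
        ∀ i, ((τ i).1 + 1) / 2 = (i.1 + 1) / 2), G τ =
      ∑ s : Fin (m + 1) → Perm (Fin 2), G (EY m s) := by
  symm
  refine Finset.sum_bij (fun s _ => EY m s) ?_ ?_ ?_ ?_
  · intro s _
    simp only [mem_filter, mem_univ, true_and]
    intro i
    obtain ⟨x, rfl⟩ := (eY m).surjective i
    rcases x with j | ⟨k, j⟩
    · rw [EY_inl]
    · rw [EY_inr, eY_inr, eY_inr]
      have h1 := (s k j).2
      have h2 := j.2
      omega
  · intro s _ s' _ h
    funext k
    ext1 j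
    have h1 := congrArg (fun e : Perm (Fin (2 * m + 3)) => e (eY m (Sum.inr (k, j)))) h
    simp only [EY_inr] at h1
    have h2 := (eY m).injective h1
    have h3 := Sum.inr_injective h2
    exact (Prod.ext_iff.mp h3).2
  · intro τ hτ
    simp only [mem_filter, mem_univ, true_and] at hτ
    have h1 : Set.MapsTo ((eY m).symm.permCongr τ) (Set.range Sum.inl) (Set.range Sum.inl) := by
      rintro _ ⟨j, rfl⟩
      rw [Equiv.permCongr_apply, Equiv.symm_symm]
      obtain ⟨x, hx⟩ := (eY m).surjective (τ (eY m (Sum.inl j)))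
      rw [← hx, Equiv.symm_apply_apply]
      rcases x with j' | ⟨k', j'⟩
      · exact ⟨_, rfl⟩
      · exfalso
        have h2 := hτ (eY m (Sum.inl j))
        rw [← hx, eY_inr, eY_inl] at h2
        omega
    obtain ⟨⟨τ1, τ2⟩, h2⟩ := Perm.mem_sumCongrHom_range_of_perm_mapsTo_inl h1
    have h3 : Perm.sumCongr τ1 τ2 = (eY m).symm.permCongr τ := h2
    have h4 : τ1 = 1 := Subsingleton.elim _ _
    have h5 : τ = (eY m).permCongr (Perm.sumCongr τ1 τ2) := by
      rw [h3]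
      ext1 p
      simp [Equiv.permCongr_apply]
    obtain ⟨s, hs⟩ := exists_pcr τ2 (by
      rintro ⟨k, j⟩
      have h6 := hτ (eY m (Sum.inr (k, j)))
      have h7 : τ (eY m (Sum.inr (k, j))) = eY m (Sum.inr (τ2 (k, j))) := by
        rw [h5]
        simp [Equiv.permCongr_apply]
      rw [h7] at h6
      obtain ⟨k', j', hkj⟩ : ∃ k' j', τ2 (k, j) = (k', j') := ⟨_, _, rfl⟩
      rw [hkj, eY_inr, eY_inr] at h6
      rw [hkj]
      have h8 := j.2
      have h9 := j'.2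
      apply Fin.ext
      simp only
      omega)
    refine ⟨s, mem_univ _, ?_⟩
    rw [h5, hs, h4]
    rfl
  · intro s _
    rfl

/-- first label -/
def labA {K : ℕ} (s : Fin K → Perm (Fin 2)) (j : Fin 2) (i : ℕ) : Fin 2 :=
  if h : i / 2 < K then Fin.rev (s ⟨i / 2, h⟩ ⟨i % 2, Nat.mod_lt _ (by norm_num)⟩) else j

/-- second label -/
def labB {K : ℕ} (t : Fin K → Perm (Fin 2)) (i : ℕ) : Fin 2 :=
  if i = 0 then 0 else
    if h : (i - 1) / 2 < K then t ⟨(i - 1) / 2, h⟩ ⟨(i - 1) % 2, Nat.mod_lt _ (by norm_num)⟩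
    else 0

theorem laF_EX (m : ℕ) (s : Fin (m + 1) → Perm (Fin 2)) (i : Fin (2 * m + 3)) :
    laF m (EX m s i) = labA s 0 i.1 := by
  obtain ⟨x, rfl⟩ := (eX m).surjective i
  rcases x with ⟨k, j⟩ | j
  · rw [EX_inl]
    unfold laF labA
    rw [eX_inl, eX_inl]
    have hk := k.2
    have hj := j.2
    have h1 : (2 * k.1 + j.1) / 2 = k.1 := by omega
    have h2 : (2 * k.1 + j.1) % 2 = j.1 := by omega
    have h3 : (2 * k.1 + j.1) / 2 < m + 1 := by omega
    rw [dif_pos h3]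
    have h4 : (⟨(2 * k.1 + j.1) / 2, h3⟩ : Fin (m + 1)) = k := Fin.ext h1
    have h5 : (⟨(2 * k.1 + j.1) % 2, Nat.mod_lt _ (by norm_num)⟩ : Fin 2) = j := Fin.ext h2
    rw [h4, h5]
    obtain ⟨r, hr⟩ : ∃ r, r = s k j := ⟨_, rfl⟩
    rw [← hr]
    fin_cases r
    · have : (2 * k.1 + 0) % 2 = 0 ∧ 2 * k.1 + 0 < 2 * m + 2 := by omega
      simp [this]
      omega
    · simp
  · rw [EX_inr]
    unfold laF labA
    rw [eX_inr]
    have h3 : ¬ (2 * m + 2) / 2 < m + 1 := by omega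
    rw [dif_neg h3, if_neg (by omega)]

theorem lbF_EY (m : ℕ) (t : Fin (m + 1) → Perm (Fin 2)) (i : Fin (2 * m + 3)) :
    lbF m (EY m t i) = labB t i.1 := by
  obtain ⟨x, rfl⟩ := (eY m).surjective i
  rcases x with j | ⟨k, j⟩
  · rw [EY_inl]
    unfold lbF labB
    rw [eY_inl]
    simp
  · rw [EY_inr]
    unfold lbF labB
    rw [eY_inr, eY_inr]
    have hk := k.2
    have hj := j.2
    have h0 : ¬ (2 * k.1 + 1 + j.1 = 0) := by omega
    have h1 : (2 * k.1 + 1 + j.1 - 1) / 2 = k.1 := by omega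
    have h2 : (2 * k.1 + 1 + j.1 - 1) % 2 = j.1 := by omega
    have h3 : (2 * k.1 + 1 + j.1 - 1) / 2 < m + 1 := by omega
    rw [if_neg h0, dif_pos h3]
    have h4 : (⟨(2 * k.1 + 1 + j.1 - 1) / 2, h3⟩ : Fin (m + 1)) = k := Fin.ext h1
    have h5 : (⟨(2 * k.1 + 1 + j.1 - 1) % 2, Nat.mod_lt _ (by norm_num)⟩ : Fin 2) = j :=
      Fin.ext h2
    rw [h4, h5]
    obtain ⟨r, hr⟩ : ∃ r, r = t k j := ⟨_, rfl⟩
    rw [← hr]
    fin_cases r
    · have : ¬ ((2 * k.1 + 1 + 0) % 2 = 0 ∧ 2 * k.1 + 1 + 0 ≠ 0) := by omega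
      simp
      try omega
    · have : ((2 * k.1 + 1 + 1) % 2 = 0 ∧ 2 * k.1 + 1 + 1 ≠ 0) := by omega
      simp
      try omega

theorem univ_perm2 : (univ : Finset (Perm (Fin 2))) = {1, swap 0 1} := by decide

theorem sum_perm2 (f : Perm (Fin 2) → ℂ) : ∑ s, f s = f 1 + f (swap 0 1) := by
  rw [univ_perm2, Finset.sum_pair (by decide)]

/-- one double step of the transfer -/
theorem transfer (P M N : Matrix (Fin 2) (Fin 2) ℂ) (j : Fin 2) :
    (P * epsV * M * epsW * N.transpose) 0 j =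
      ∑ s : Perm (Fin 2), ∑ t : Perm (Fin 2), ((Perm.sign s : ℤ) : ℂ) * ((Perm.sign t : ℤ) : ℂ) *
        (P 0 (Fin.rev (s 0)) * M (Fin.rev (s 1)) (t 0) * N j (t 1)) := by
  rw [sum_perm2, sum_perm2, sum_perm2]
  have h1 : Perm.sign (swap (0 : Fin 2) 1) = -1 := Perm.sign_swap (by decide)
  rw [h1]
  simp [Matrix.mul_apply, Fin.sum_univ_two, epsV, epsW]
  ring

theorem labA_snoc {K : ℕ} (s : Fin K → Perm (Fin 2)) (x : Perm (Fin 2)) (j : Fin 2) (i : ℕ)
    (hi : i < 2 * K + 1) :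
    labA (Fin.snoc s x : Fin (K + 1) → Perm (Fin 2)) j i = labA s (Fin.rev (x 0)) i := by
  unfold labA
  by_cases h : i / 2 < K
  · have h' : i / 2 < K + 1 := by omega
    rw [dif_pos h, dif_pos h']
    have h1 : (⟨i / 2, h'⟩ : Fin (K + 1)) = Fin.castSucc ⟨i / 2, h⟩ := rfl
    rw [h1, Fin.snoc_castSucc (α := fun _ => Perm (Fin 2))]
  · have h' : i / 2 < K + 1 := by omega
    rw [dif_neg h, dif_pos h']
    have h1 : (⟨i / 2, h'⟩ : Fin (K + 1)) = Fin.last K := by
      apply Fin.ext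
      simp only [Fin.val_last]
      omega
    have h2 : (⟨i % 2, Nat.mod_lt _ (by norm_num)⟩ : Fin 2) = 0 := by
      apply Fin.ext
      simp only [Fin.val_zero]
      omega
    rw [h1, Fin.snoc_last (α := fun _ => Perm (Fin 2)), h2]

theorem labB_snoc {K : ℕ} (s : Fin K → Perm (Fin 2)) (x : Perm (Fin 2)) (i : ℕ)
    (hi : i < 2 * K + 1) :
    labB (Fin.snoc s x : Fin (K + 1) → Perm (Fin 2)) i = labB s i := by
  unfold labB
  by_cases h0 : i = 0
  · rw [if_pos h0, if_pos h0]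
  · rw [if_neg h0, if_neg h0]
    have h : (i - 1) / 2 < K := by omega
    have h' : (i - 1) / 2 < K + 1 := by omega
    rw [dif_pos h, dif_pos h']
    have h1 : (⟨(i - 1) / 2, h'⟩ : Fin (K + 1)) = Fin.castSucc ⟨(i - 1) / 2, h⟩ := rfl
    rw [h1, Fin.snoc_castSucc (α := fun _ => Perm (Fin 2))]

theorem sum_snoc {α : Type} [Fintype α] (K : ℕ) (F : (Fin (K + 1) → α) → ℂ) :
    ∑ s, F s = ∑ s : Fin K → α, ∑ x : α, F (Fin.snoc s x) := by
  rw [Finset.sum_comm, ← Fintype.sum_prod_type']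
  exact (Fintype.sum_equiv (Fin.snocEquiv (fun _ => α)) _ _ (fun p => rfl)).symm

theorem pv_sum (U : ℕ → Matrix (Fin 2) (Fin 2) ℂ) (c : ℕ → ℕ) (K : ℕ) (j : Fin 2) :
    pv U c (2 * K) 0 j = ∑ s : Fin K → Perm (Fin 2), ∑ t : Fin K → Perm (Fin 2),
      (∏ k, ((Perm.sign (s k) : ℤ) : ℂ)) * (∏ k, ((Perm.sign (t k) : ℤ) : ℂ)) *
        ∏ i ∈ range (2 * K + 1), U (c i) (labA s j i) (labB t i) := by
  induction K generalizing j with
  | zero =>
    simp [pv, labA, labB]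
  | succ K ih =>
    have e1 : 2 * (K + 1) = 2 * K + 1 + 1 := by ring
    rw [e1, pv, if_neg (by omega), pv, if_pos (by omega), transfer]
    obtain ⟨T, hT⟩ : ∃ T : (Fin K → Perm (Fin 2)) → Perm (Fin 2) → (Fin K → Perm (Fin 2)) →
        Perm (Fin 2) → ℂ, T = fun s x t y =>
        (∏ k, ((Perm.sign (s k) : ℤ) : ℂ)) * (∏ k, ((Perm.sign (t k) : ℤ) : ℂ)) *
        (∏ i ∈ range (2 * K + 1), U (c i) (labA s (Fin.rev (x 0)) i) (labB t i)) *
        (((Perm.sign x : ℤ) : ℂ) * ((Perm.sign y : ℤ) : ℂ) *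
          (U (c (2 * K + 1)) (Fin.rev (x 1)) (y 0) * U (c (2 * K + 1 + 1)) j (y 1))) := ⟨_, rfl⟩
    have hL : ∑ x : Perm (Fin 2), ∑ y : Perm (Fin 2),
        ((Perm.sign x : ℤ) : ℂ) * ((Perm.sign y : ℤ) : ℂ) *
          (pv U c (2 * K) 0 (Fin.rev (x 0)) * U (c (2 * K + 1)) (Fin.rev (x 1)) (y 0) *
            U (c (2 * K + 1 + 1)) j (y 1)) =
        ∑ x : Perm (Fin 2), ∑ y : Perm (Fin 2), ∑ s : Fin K → Perm (Fin 2),
          ∑ t : Fin K → Perm (Fin 2), T s x t y := by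
      refine Finset.sum_congr rfl fun x _ => Finset.sum_congr rfl fun y _ => ?_
      rw [ih, hT]
      simp only [Finset.sum_mul, Finset.mul_sum]
      refine Finset.sum_congr rfl fun s _ => Finset.sum_congr rfl fun t _ => ?_
      ring
    rw [hL]
    have hM : ∑ x : Perm (Fin 2), ∑ y : Perm (Fin 2), ∑ s : Fin K → Perm (Fin 2),
          ∑ t : Fin K → Perm (Fin 2), T s x t y =
        ∑ s : Fin K → Perm (Fin 2), ∑ x : Perm (Fin 2), ∑ t : Fin K → Perm (Fin 2),
          ∑ y : Perm (Fin 2), T s x t y := by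
      have e2 : ∑ x : Perm (Fin 2), ∑ y : Perm (Fin 2), ∑ s : Fin K → Perm (Fin 2),
          ∑ t : Fin K → Perm (Fin 2), T s x t y =
          ∑ x : Perm (Fin 2), ∑ s : Fin K → Perm (Fin 2), ∑ y : Perm (Fin 2),
          ∑ t : Fin K → Perm (Fin 2), T s x t y :=
        Finset.sum_congr rfl fun x _ => Finset.sum_comm
      have e3 : ∑ x : Perm (Fin 2), ∑ s : Fin K → Perm (Fin 2), ∑ y : Perm (Fin 2),
          ∑ t : Fin K → Perm (Fin 2), T s x t y =
          ∑ s : Fin K → Perm (Fin 2), ∑ x : Perm (Fin 2), ∑ y : Perm (Fin 2),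
          ∑ t : Fin K → Perm (Fin 2), T s x t y := Finset.sum_comm
      rw [e2, e3]
      exact Finset.sum_congr rfl fun s _ => Finset.sum_congr rfl fun x _ => Finset.sum_comm
    rw [hM, sum_snoc]
    refine Finset.sum_congr rfl fun s _ => Finset.sum_congr rfl fun x _ => ?_
    rw [sum_snoc]
    refine Finset.sum_congr rfl fun t _ => Finset.sum_congr rfl fun y _ => ?_
    rw [hT]
    have hs1 : ∏ k, ((Perm.sign ((Fin.snoc s x : Fin (K + 1) → Perm (Fin 2)) k) : ℤ) : ℂ) =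
        (∏ k, ((Perm.sign (s k) : ℤ) : ℂ)) * ((Perm.sign x : ℤ) : ℂ) := by
      rw [Fin.prod_univ_castSucc]
      simp only [Fin.snoc_castSucc (α := fun _ => Perm (Fin 2)),
        Fin.snoc_last (α := fun _ => Perm (Fin 2))]
    have ht1 : ∏ k, ((Perm.sign ((Fin.snoc t y : Fin (K + 1) → Perm (Fin 2)) k) : ℤ) : ℂ) =
        (∏ k, ((Perm.sign (t k) : ℤ) : ℂ)) * ((Perm.sign y : ℤ) : ℂ) := by
      rw [Fin.prod_univ_castSucc]
      simp only [Fin.snoc_castSucc (α := fun _ => Perm (Fin 2)),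
        Fin.snoc_last (α := fun _ => Perm (Fin 2))]
    rw [hs1, ht1, Finset.prod_range_succ, Finset.prod_range_succ]
    have hp : ∏ i ∈ range (2 * K + 1), U (c i)
        (labA (Fin.snoc s x : Fin (K + 1) → Perm (Fin 2)) j i)
        (labB (Fin.snoc t y : Fin (K + 1) → Perm (Fin 2)) i) =
        ∏ i ∈ range (2 * K + 1), U (c i) (labA s (Fin.rev (x 0)) i) (labB t i) := by
      refine Finset.prod_congr rfl fun i hi => ?_
      rw [Finset.mem_range] at hi
      rw [labA_snoc s x j i hi, labB_snoc t y i hi]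
    rw [hp]
    have hK1 : (2 * K + 1) / 2 < K + 1 := by omega
    have hA1 : labA (Fin.snoc s x : Fin (K + 1) → Perm (Fin 2)) j (2 * K + 1) =
        Fin.rev (x 1) := by
      unfold labA
      rw [dif_pos hK1]
      have h1 : (⟨(2 * K + 1) / 2, hK1⟩ : Fin (K + 1)) = Fin.last K := by
        apply Fin.ext
        simp only [Fin.val_last]
        omega
      have h2 : (⟨(2 * K + 1) % 2, Nat.mod_lt _ (by norm_num)⟩ : Fin 2) = 1 := by
        apply Fin.ext
        simp only [Fin.val_one]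
        omega
      rw [h1, Fin.snoc_last (α := fun _ => Perm (Fin 2)), h2]
    have hA2 : labA (Fin.snoc s x : Fin (K + 1) → Perm (Fin 2)) j (2 * K + 1 + 1) = j := by
      unfold labA
      rw [dif_neg (by omega)]
    have hK2 : (2 * K + 1 - 1) / 2 < K + 1 := by omega
    have hK3 : (2 * K + 1 + 1 - 1) / 2 < K + 1 := by omega
    have hB1 : labB (Fin.snoc t y : Fin (K + 1) → Perm (Fin 2)) (2 * K + 1) = y 0 := by
      unfold labB
      rw [if_neg (by omega), dif_pos hK2]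
      have h1 : (⟨(2 * K + 1 - 1) / 2, hK2⟩ : Fin (K + 1)) = Fin.last K := by
        apply Fin.ext
        simp only [Fin.val_last]
        omega
      have h2 : (⟨(2 * K + 1 - 1) % 2, Nat.mod_lt _ (by norm_num)⟩ : Fin 2) = 0 := by
        apply Fin.ext
        simp only [Fin.val_zero]
        omega
      rw [h1, Fin.snoc_last (α := fun _ => Perm (Fin 2)), h2]
    have hB2 : labB (Fin.snoc t y : Fin (K + 1) → Perm (Fin 2)) (2 * K + 1 + 1) = y 1 := by
      unfold labB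
      rw [if_neg (by omega), dif_pos hK3]
      have h1 : (⟨(2 * K + 1 + 1 - 1) / 2, hK3⟩ : Fin (K + 1)) = Fin.last K := by
        apply Fin.ext
        simp only [Fin.val_last]
        omega
      have h2 : (⟨(2 * K + 1 + 1 - 1) % 2, Nat.mod_lt _ (by norm_num)⟩ : Fin 2) = 1 := by
        apply Fin.ext
        simp only [Fin.val_one]
        omega
      rw [h1, Fin.snoc_last (α := fun _ => Perm (Fin 2)), h2]
    rw [hA1, hA2, hB1, hB2]
    ring

theorem path_sum (U : ℕ → Matrix (Fin 2) (Fin 2) ℂ) (m : ℕ) (c : Fin (2 * m + 3) → ℕ) :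
    ∑ τ ∈ univ.filter (fun τ : Perm (Fin (2 * m + 3)) => ∀ i, (τ i).1 / 2 = i.1 / 2),
      ∑ σ ∈ univ.filter (fun τ : Perm (Fin (2 * m + 3)) =>
        ∀ i, ((τ i).1 + 1) / 2 = (i.1 + 1) / 2),
        ((Perm.sign τ : ℤ) : ℂ) * ((Perm.sign σ : ℤ) : ℂ) *
          ∏ i, U (c i) (laF m (τ i)) (lbF m (σ i)) = pval U m c := by
  rw [sum_EX]
  simp only [sum_EY]
  unfold pval
  have e1 : 2 * m + 2 = 2 * (m + 1) := by ring
  rw [e1, pv_sum]
  refine Finset.sum_congr rfl fun s _ => Finset.sum_congr rfl fun t _ => ?_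
  rw [sign_EX, sign_EY]
  have h1 : ∏ i ∈ range (2 * (m + 1) + 1), U (ext0 c i) (labA s 0 i) (labB t i) =
      ∏ i : Fin (2 * m + 3), U (c i) (laF m (EX m s i)) (lbF m (EY m t i)) := by
    have e2 : 2 * (m + 1) + 1 = 2 * m + 3 := by ring
    rw [e2, Finset.prod_range]
    refine Finset.prod_congr rfl fun i _ => ?_
    rw [laF_EX, lbF_EY]
    have h2 : ext0 c i.1 = c i := by
      unfold ext0
      rw [dif_pos i.2]
    rw [h2]
  rw [h1]
  push_cast
  rfl

end Vale.Agent.P197.Sx
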