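import Vale.Agent.P197.Sx.SplitA
import Vale.Agent.P197.Sx.SplitB

/-! Module C, part 3: the splitting formula. -/

namespace Vale.Agent.P197.Sx

open Equiv Finset

theorem box_lt {m : ℕ} (p : Box m) : p.1.1 + p.1.2 < m := by
  have h := p.2
  simp only [YoungDiagram.mem_cells, mem_staircase] at h
  exact h

/-- a box from its coordinates -/
def mkBox {m : ℕ} (x y : ℕ) (h : x + y < m) : Box m := ⟨(x, y), by
  simp only [YoungDiagram.mem_cells, mem_staircase]
  exact h⟩

/-- rotation of the lines `x = const` -/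
def rotX (m : ℕ) : Perm (Box (m + 2)) where
  toFun p := if h : p.1.1 + p.1.2 + 1 < m + 2 then mkBox p.1.1 (p.1.2 + 1) h
    else mkBox p.1.1 0 (by have := box_lt p; omega)
  invFun p := if h : 0 < p.1.2 then mkBox p.1.1 (p.1.2 - 1) (by have := box_lt p; omega)
    else mkBox p.1.1 (m + 1 - p.1.1) (by have := box_lt p; omega)
  left_inv p := by
    have hp := box_lt p
    by_cases h : p.1.1 + p.1.2 + 1 < m + 2
    · simp only [dif_pos h]
      rw [dif_pos (by simp [mkBox])]
      apply Subtype.ext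
      simp [mkBox]
    · simp only [dif_neg h]
      rw [dif_neg (by simp [mkBox])]
      apply Subtype.ext
      simp only [mkBox]
      apply Prod.ext
      · rfl
      · simp only
        omega
  right_inv p := by
    have hp := box_lt p
    by_cases h : 0 < p.1.2
    · simp only [dif_pos h]
      rw [dif_pos (by simp only [mkBox]; omega)]
      apply Subtype.ext
      simp only [mkBox]
      apply Prod.ext
      · rfl
      · simp only
        omega
    · simp only [dif_neg h]
      rw [dif_neg (by simp only [mkBox]; omega)]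
      apply Subtype.ext
      simp only [mkBox]
      apply Prod.ext
      · rfl
      · simp only
        omega

theorem rotX_val (m : ℕ) (p : Box (m + 2)) : (rotX m p).1 =
    (p.1.1, if p.1.1 + p.1.2 + 1 < m + 2 then p.1.2 + 1 else 0) := by
  change (if h : p.1.1 + p.1.2 + 1 < m + 2 then mkBox p.1.1 (p.1.2 + 1) h
    else mkBox p.1.1 0 (by have := box_lt p; omega) : Box (m + 2)).1 = _
  split_ifs <;> rfl

/-- rotation of the lines `y = const` -/
def rotY (m : ℕ) : Perm (Box (m + 2)) where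
  toFun p := if h : p.1.1 + 1 + p.1.2 < m + 2 then mkBox (p.1.1 + 1) p.1.2 h
    else mkBox 0 p.1.2 (by have := box_lt p; omega)
  invFun p := if h : 0 < p.1.1 then mkBox (p.1.1 - 1) p.1.2 (by have := box_lt p; omega)
    else mkBox (m + 1 - p.1.2) p.1.2 (by have := box_lt p; omega)
  left_inv p := by
    have hp := box_lt p
    by_cases h : p.1.1 + 1 + p.1.2 < m + 2
    · simp only [dif_pos h]
      rw [dif_pos (by simp [mkBox])]
      apply Subtype.ext
      simp [mkBox]
    · simp only [dif_neg h]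
      rw [dif_neg (by simp [mkBox])]
      apply Subtype.ext
      simp only [mkBox]
      apply Prod.ext
      · simp only
        omega
      · rfl
  right_inv p := by
    have hp := box_lt p
    by_cases h : 0 < p.1.1
    · simp only [dif_pos h]
      rw [dif_pos (by simp only [mkBox]; omega)]
      apply Subtype.ext
      simp only [mkBox]
      apply Prod.ext
      · simp only
        omega
      · rfl
    · simp only [dif_neg h]
      rw [dif_neg (by simp only [mkBox]; omega)]
      apply Subtype.ext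
      simp only [mkBox]
      apply Prod.ext
      · simp only
        omega
      · rfl

theorem rotY_val (m : ℕ) (p : Box (m + 2)) : (rotY m p).1 =
    (if p.1.1 + 1 + p.1.2 < m + 2 then p.1.1 + 1 else 0, p.1.2) := by
  change (if h : p.1.1 + 1 + p.1.2 < m + 2 then mkBox (p.1.1 + 1) p.1.2 h
    else mkBox 0 p.1.2 (by have := box_lt p; omega) : Box (m + 2)).1 = _
  split_ifs <;> rfl

theorem rotX2_val (m : ℕ) (p : Box (m + 2)) : ((rotX m * rotX m) p).1 =
    (p.1.1, if p.1.1 + p.1.2 + 2 < m + 2 then p.1.2 + 2 else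
      if p.1.1 + p.1.2 + 1 < m + 2 then 0 else if p.1.1 + 1 < m + 2 then 1 else 0) := by
  have hp := box_lt p
  rw [Perm.mul_apply, rotX_val, rotX_val]
  apply Prod.ext
  · rfl
  · simp only
    split_ifs <;> omega

theorem rotY2_val (m : ℕ) (p : Box (m + 2)) : ((rotY m * rotY m) p).1 =
    (if p.1.1 + p.1.2 + 2 < m + 2 then p.1.1 + 2 else
      if p.1.1 + p.1.2 + 1 < m + 2 then 0 else if p.1.2 + 1 < m + 2 then 1 else 0, p.1.2) := by
  have hp := box_lt p
  rw [Perm.mul_apply, rotY_val, rotY_val]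
  apply Prod.ext
  · simp only
    split_ifs <;> omega
  · rfl

theorem sign_rotX2 (m : ℕ) : Perm.sign (rotX m * rotX m) = 1 := by
  rw [Perm.sign_mul]
  exact Int.units_mul_self _

theorem sign_rotY2 (m : ℕ) : Perm.sign (rotY m * rotY m) = 1 := by
  rw [Perm.sign_mul]
  exact Int.units_mul_self _

theorem pth_fst (m : ℕ) (i : Fin (2 * m + 3)) : (pth m i).1.1 = i.1 / 2 := by
  simp only [pth]
  split_ifs <;> omega

theorem pth_snd (m : ℕ) (i : Fin (2 * m + 3)) : (pth m i).1.2 = m + 1 - (i.1 + 1) / 2 := rfl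

/-- number of boxes with label `< 2` on a line -/
theorem line_card (m x : ℕ) :
    (univ.filter fun p : Box (m + 2) => p.1.1 = x ∧ p.1.2 < 2).card = min 2 (m + 2 - x) := by
  rw [← Finset.card_range (min 2 (m + 2 - x))]
  refine Finset.card_bij (fun p _ => p.1.2) ?_ ?_ ?_
  · intro p hp
    simp only [mem_filter, mem_univ, true_and] at hp
    have h := box_lt p
    rw [Finset.mem_range, lt_min_iff]
    omega
  · intro p hp p' hp' h
    simp only [mem_filter, mem_univ, true_and] at hp hp'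
    apply Subtype.ext
    exact Prod.ext (hp.1.trans hp'.1.symm) h
  · intro y hy
    rw [Finset.mem_range, lt_min_iff] at hy
    refine ⟨mkBox x y (by omega), ?_, rfl⟩
    simp only [mem_filter, mem_univ, true_and]
    exact ⟨rfl, hy.1⟩

theorem line_card' (m y : ℕ) :
    (univ.filter fun p : Box (m + 2) => p.1.2 = y ∧ p.1.1 < 2).card = min 2 (m + 2 - y) := by
  rw [← Finset.card_range (min 2 (m + 2 - y))]
  refine Finset.card_bij (fun p _ => p.1.1) ?_ ?_ ?_
  · intro p hp
    simp only [mem_filter, mem_univ, true_and] at hp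
    have h := box_lt p
    rw [Finset.mem_range, lt_min_iff]
    omega
  · intro p hp p' hp' h
    simp only [mem_filter, mem_univ, true_and] at hp hp'
    apply Subtype.ext
    exact Prod.ext h (hp.1.trans hp'.1.symm)
  · intro x hx
    rw [Finset.mem_range, lt_min_iff] at hx
    refine ⟨mkBox x y (by omega), ?_, rfl⟩
    simp only [mem_filter, mem_univ, true_and]
    exact ⟨rfl, hx.1⟩

theorem zig_of_ne (m : ℕ)
    (hzig : ∀ (Z : Finset (Box (m + 2))),
      (∀ x, (Z.filter fun p => p.1.1 = x).card = min 2 (m + 2 - x)) →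
      (∀ y, (Z.filter fun p => p.1.2 = y).card = min 2 (m + 2 - y)) →
      ∀ p : Box (m + 2), p ∈ Z ↔ m ≤ p.1.1 + p.1.2)
    (q : ℂ) (U : ℕ → Matrix (Fin 2) (Fin 2) ℂ) (K : ℕ → ℕ → ℕ → ℂ)
    (v : Box (m + 2) → ℕ) (π σ : Perm (Box (m + 2))) (hπ : ∀ p, (π p).1.1 = p.1.1)
    (hσ : ∀ p, (σ p).1.2 = p.1.2)
    (h : ∏ p, Kstep q U K (π p).1.2 (σ p).1.1 (v p) ≠ 0) :
    (∀ p : Box (m + 2), (π p).1.2 < 2 ↔ m ≤ p.1.1 + p.1.2) ∧
      ∀ p : Box (m + 2), (σ p).1.1 < 2 ↔ m ≤ p.1.1 + p.1.2 := by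
  have h1 : ∀ p : Box (m + 2), (π p).1.2 < 2 ↔ (σ p).1.1 < 2 := by
    intro p
    have h2 := Finset.prod_ne_zero_iff.mp h p (mem_univ p)
    unfold Kstep at h2
    split_ifs at h2 with h3 h4
    · omega
    · omega
    · exact absurd rfl h2
  have h2 : ∀ p : Box (m + 2), p ∈ (univ.filter fun p : Box (m + 2) => (π p).1.2 < 2) ↔
      m ≤ p.1.1 + p.1.2 := by
    refine hzig _ ?_ ?_
    · intro x
      rw [← line_card m x]
      refine Finset.card_bij (fun p _ => π p) ?_ ?_ ?_
      · intro p hp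
        simp only [mem_filter, mem_univ, true_and] at hp ⊢
        exact ⟨(hπ p).trans hp.2, hp.1⟩
      · intro p _ p' _ h3
        exact π.injective h3
      · intro p hp
        simp only [mem_filter, mem_univ, true_and] at hp
        refine ⟨π.symm p, ?_, by simp⟩
        simp only [mem_filter, mem_univ, true_and, Equiv.apply_symm_apply]
        refine ⟨hp.2, ?_⟩
        have h4 := hπ (π.symm p)
        rw [Equiv.apply_symm_apply] at h4
        rw [← h4]
        exact hp.1
    · intro y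
      rw [← line_card' m y]
      refine Finset.card_bij (fun p _ => σ p) ?_ ?_ ?_
      · intro p hp
        simp only [mem_filter, mem_univ, true_and] at hp ⊢
        exact ⟨(hσ p).trans hp.2, (h1 p).mp hp.1⟩
      · intro p _ p' _ h3
        exact σ.injective h3
      · intro p hp
        simp only [mem_filter, mem_univ, true_and] at hp
        refine ⟨σ.symm p, ?_, by simp⟩
        simp only [mem_filter, mem_univ, true_and]
        rw [h1, Equiv.apply_symm_apply]
        refine ⟨hp.2, ?_⟩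
        have h4 := hσ (σ.symm p)
        rw [Equiv.apply_symm_apply] at h4
        rw [← h4]
        exact hp.1
  constructor
  · intro p
    rw [← h2]
    simp only [mem_filter, mem_univ, true_and]
  · intro p
    rw [← h2]
    simp only [mem_filter, mem_univ, true_and]
    exact (h1 p).symm

theorem prod_box (m : ℕ) (F : Box (m + 2) → ℂ) :
    ∏ p, F p = (∏ p : Box m, F (inc m p)) * ∏ i, F (pth m i) := by
  have h1 : ∏ p, F p = ∏ x, F (boxSum m x) :=
    (Fintype.prod_equiv (boxSum m) _ _ (fun x => rfl)).symm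
  rw [h1, Fintype.prod_sum_type]
  rfl

theorem Kstep_path (q : ℂ) (U : ℕ → Matrix (Fin 2) (Fin 2) ℂ) (K : ℕ → ℕ → ℕ → ℂ)
    (a b : Fin 2) (v : ℕ) : Kstep q U K a.1 b.1 v = U v a b := by
  unfold Kstep
  rw [dif_pos ⟨a.2, b.2⟩]

theorem Kstep_inner (q : ℂ) (U : ℕ → Matrix (Fin 2) (Fin 2) ℂ) (K : ℕ → ℕ → ℕ → ℂ)
    (a b : ℕ) (v : ℕ) : Kstep q U K (a + 2) (b + 2) v = q ^ v * K a b v := by
  unfold Kstep
  rw [dif_neg (by omega), if_pos (by omega)]
  simp

theorem ddS_step_pf (m : ℕ)
    (hzig : ∀ (Z : Finset (Box (m + 2))),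
      (∀ x, (Z.filter fun p => p.1.1 = x).card = min 2 (m + 2 - x)) →
      (∀ y, (Z.filter fun p => p.1.2 = y).card = min 2 (m + 2 - y)) →
      ∀ p : Box (m + 2), p ∈ Z ↔ m ≤ p.1.1 + p.1.2)
    (q : ℂ) (U : ℕ → Matrix (Fin 2) (Fin 2) ℂ) (K : ℕ → ℕ → ℕ → ℂ)
    (v : Box (m + 2) → ℕ) :
    ddS (m + 2) (Kstep q U K) v =
      pval U m (fun i => v (pth m i)) * q ^ (∑ p : Box m, v (inc m p)) *
        ddS m K (fun p => v (inc m p)) := by
  obtain ⟨t, ht⟩ : ∃ t : Perm (Box (m + 2)) → Perm (Box (m + 2)) → ℂ, t = fun π σ =>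
      ((Perm.sign π : ℤ) : ℂ) * ((Perm.sign σ : ℤ) : ℂ) *
        ∏ p, Kstep q U K (π p).1.2 (σ p).1.1 (v p) := ⟨_, rfl⟩
  have hdd : ddS (m + 2) (Kstep q U K) v =
      ∑ π ∈ univ.filter (fun π : Perm (Box (m + 2)) => ∀ p, (π p).1.1 = p.1.1),
        ∑ σ ∈ univ.filter (fun σ : Perm (Box (m + 2)) => ∀ p, (σ p).1.2 = p.1.2), t π σ := by
    rw [ht]
    rfl
  have hdd0 : ddS m K (fun p => v (inc m p)) =
      ∑ π ∈ univ.filter (fun π : Perm (Box m) => ∀ p, (π p).1.1 = p.1.1),
        ∑ σ ∈ univ.filter (fun σ : Perm (Box m) => ∀ p, (σ p).1.2 = p.1.2),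
        ((Perm.sign π : ℤ) : ℂ) * ((Perm.sign σ : ℤ) : ℂ) *
        ∏ p, K (π p).1.2 (σ p).1.1 (v (inc m p)) := rfl
  have hres : ∑ π ∈ univ.filter (fun π : Perm (Box (m + 2)) => ∀ p, (π p).1.1 = p.1.1),
        ∑ σ ∈ univ.filter (fun σ : Perm (Box (m + 2)) => ∀ p, (σ p).1.2 = p.1.2), t π σ =
      ∑ π ∈ univ.filter (fun π : Perm (Box (m + 2)) => (∀ p, (π p).1.1 = p.1.1) ∧
          ∀ p : Box (m + 2), (π p).1.2 < 2 ↔ m ≤ p.1.1 + p.1.2),
        ∑ σ ∈ univ.filter (fun σ : Perm (Box (m + 2)) => (∀ p, (σ p).1.2 = p.1.2) ∧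
          ∀ p : Box (m + 2), (σ p).1.1 < 2 ↔ m ≤ p.1.1 + p.1.2), t π σ := by
    symm
    have hin : ∀ π ∈ univ.filter (fun π : Perm (Box (m + 2)) => (∀ p, (π p).1.1 = p.1.1) ∧
          ∀ p : Box (m + 2), (π p).1.2 < 2 ↔ m ≤ p.1.1 + p.1.2),
        ∑ σ ∈ univ.filter (fun σ : Perm (Box (m + 2)) => (∀ p, (σ p).1.2 = p.1.2) ∧
          ∀ p : Box (m + 2), (σ p).1.1 < 2 ↔ m ≤ p.1.1 + p.1.2), t π σ =
        ∑ σ ∈ univ.filter (fun σ : Perm (Box (m + 2)) => ∀ p, (σ p).1.2 = p.1.2), t π σ := by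
      intro π hπ
      simp only [mem_filter, mem_univ, true_and] at hπ
      refine Finset.sum_subset ?_ ?_
      · intro σ hσ
        simp only [mem_filter, mem_univ, true_and] at hσ ⊢
        exact hσ.1
      · intro σ hσ hσ'
        simp only [mem_filter, mem_univ, true_and] at hσ hσ'
        by_contra hne
        apply hσ'
        refine ⟨hσ, ?_⟩
        rw [ht] at hne
        exact (zig_of_ne m hzig q U K v π σ hπ.1 hσ (right_ne_zero_of_mul hne)).2
    rw [Finset.sum_congr rfl hin]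
    refine Finset.sum_subset ?_ ?_
    · intro π hπ
      simp only [mem_filter, mem_univ, true_and] at hπ ⊢
      exact hπ.1
    · intro π hπ hπ'
      simp only [mem_filter, mem_univ, true_and] at hπ hπ'
      refine Finset.sum_eq_zero fun σ hσ => ?_
      simp only [mem_filter, mem_univ, true_and] at hσ
      by_contra hne
      apply hπ'
      refine ⟨hπ, ?_⟩
      rw [ht] at hne
      exact (zig_of_ne m hzig q U K v π σ hπ hσ (right_ne_zero_of_mul hne)).1
  have hlaX : ∀ i, ((rotX m * rotX m) (pth m i)).1.2 = (laF m i).1 := by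
    intro i
    rw [rotX2_val, pth_fst, pth_snd]
    have hi := i.2
    unfold laF
    split_ifs <;> first | rfl | omega
  have hlbY : ∀ i, ((rotY m * rotY m) (pth m i)).1.1 = (lbF m i).1 := by
    intro i
    rw [rotY2_val, pth_fst, pth_snd]
    have hi := i.2
    unfold lbF
    split_ifs <;> first | rfl | omega
  have hX := split_sum (M := ℂ) m (fun p => p.1.1) (fun p => p.1.2) (fun p => p.1.1)
    (fun p => p.1.2) (fun i => i.1 / 2) (fun i => (laF m i).1) (rotX m * rotX m)
    (fun p => by rw [rotX2_val]) (fun p => rfl) (fun i => pth_fst m i)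
    (fun p => by
      rw [rotX2_val]
      have := inc_sum m p
      rw [if_pos (by omega)]
      rfl)
    hlaX (fun i => (laF m i).2)
  have hY := split_sum (M := ℂ) m (fun p => p.1.2) (fun p => p.1.1) (fun p => p.1.2)
    (fun p => p.1.1) (fun i => m + 1 - (i.1 + 1) / 2) (fun i => (lbF m i).1)
    (rotY m * rotY m)
    (fun p => by rw [rotY2_val]) (fun p => rfl) (fun i => pth_snd m i)
    (fun p => by
      rw [rotY2_val]
      have := inc_sum m p
      rw [if_pos (by omega)]
      rfl)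
    hlbY (fun i => (lbF m i).2)
  have hYset : (univ.filter fun τ : Perm (Fin (2 * m + 3)) =>
      ∀ i, m + 1 - ((τ i).1 + 1) / 2 = m + 1 - (i.1 + 1) / 2) =
      univ.filter fun τ : Perm (Fin (2 * m + 3)) => ∀ i, ((τ i).1 + 1) / 2 = (i.1 + 1) / 2 := by
    ext τ
    simp only [mem_filter, mem_univ, true_and]
    refine forall_congr' fun i => ?_
    have h1 := i.2
    have h2 := (τ i).2
    omega
  rw [hYset] at hY
  rw [hdd, hres, hX]
  simp only [hY]
  have htg : ∀ (τ1 σ1 : Perm (Box m)) (τ2 σ2 : Perm (Fin (2 * m + 3))),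
      t (rotX m * rotX m * glue m τ1 τ2) (rotY m * rotY m * glue m σ1 σ2) =
      (((Perm.sign τ2 : ℤ) : ℂ) * ((Perm.sign σ2 : ℤ) : ℂ) *
        ∏ i, U (v (pth m i)) (laF m (τ2 i)) (lbF m (σ2 i))) *
      q ^ (∑ p : Box m, v (inc m p)) *
      (((Perm.sign τ1 : ℤ) : ℂ) * ((Perm.sign σ1 : ℤ) : ℂ) *
        ∏ p, K (τ1 p).1.2 (σ1 p).1.1 (v (inc m p))) := by
    intro τ1 σ1 τ2 σ2
    rw [ht]
    simp only
    rw [Perm.sign_mul, Perm.sign_mul (rotY m * rotY m), sign_rotX2, sign_rotY2, one_mul,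
      one_mul, sign_glue, sign_glue, prod_box]
    have h1 : ∀ p : Box m, Kstep q U K ((rotX m * rotX m * glue m τ1 τ2) (inc m p)).1.2
        ((rotY m * rotY m * glue m σ1 σ2) (inc m p)).1.1 (v (inc m p)) =
        q ^ v (inc m p) * K (τ1 p).1.2 (σ1 p).1.1 (v (inc m p)) := by
      intro p
      rw [Perm.mul_apply, Perm.mul_apply (rotY m * rotY m), glue_inc, glue_inc, rotX2_val,
        rotY2_val]
      have h2 := inc_sum m (τ1 p)
      have h3 := inc_sum m (σ1 p)
      rw [if_pos (by omega), if_pos (by omega)]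
      exact Kstep_inner q U K _ _ _
    have h4 : ∀ i : Fin (2 * m + 3), Kstep q U K
        ((rotX m * rotX m * glue m τ1 τ2) (pth m i)).1.2
        ((rotY m * rotY m * glue m σ1 σ2) (pth m i)).1.1 (v (pth m i)) =
        U (v (pth m i)) (laF m (τ2 i)) (lbF m (σ2 i)) := by
      intro i
      rw [Perm.mul_apply, Perm.mul_apply (rotY m * rotY m), glue_pth, glue_pth, hlaX, hlbY]
      exact Kstep_path q U K _ _ _
    simp only [h1, h4]
    rw [Finset.prod_mul_distrib, Finset.prod_pow_eq_pow_sum]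
    push_cast
    ring
  simp only [htg]
  simp only [← Finset.sum_mul, ← Finset.mul_sum]
  rw [← path_sum U m, hdd0]

end Vale.Agent.P197.Sx
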