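import Vale.Agent.P197.Sx.SDefs

/-! Module B: rigidity of the zigzag path. -/

namespace Vale.Agent.P197.Sx

open Equiv Finset

/-- (B) rigidity of the zigzag path -/
theorem zigzag_unique (m : ℕ) (Z : Finset (Box (m + 2)))
    (h1 : ∀ x, (Z.filter fun p => p.1.1 = x).card = min 2 (m + 2 - x))
    (h2 : ∀ y, (Z.filter fun p => p.1.2 = y).card = min 2 (m + 2 - y)) (p : Box (m + 2)) :
    p ∈ Z ↔ m ≤ p.1.1 + p.1.2 := by
  have hbox : ∀ q : Box (m + 2), q.1.1 + q.1.2 < m + 2 := by
    intro q
    have h := q.2
    simpa only [YoungDiagram.mem_cells, mem_staircase] using h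
  have hext : ∀ q r : Box (m + 2), q.1.1 = r.1.1 → q.1.2 = r.1.2 → q = r := by
    intro q r ha hb
    exact Subtype.ext (Prod.ext ha hb)
  have mk : ∀ x y : ℕ, x + y < m + 2 → ∃ q : Box (m + 2), q.1.1 = x ∧ q.1.2 = y := by
    intro x y h
    refine ⟨⟨(x, y), ?_⟩, rfl, rfl⟩
    simp only [YoungDiagram.mem_cells, mem_staircase]
    exact h
  have key : ∀ k, ∀ p : Box (m + 2), p.1.1 + k = m + 1 → (p ∈ Z ↔ m ≤ p.1.1 + p.1.2) := by
    intro k
    induction k using Nat.strong_induction_on with
    | _ k ih =>
      have hno : ∀ p : Box (m + 2), p.1.1 + k = m + 1 → p.1.1 + p.1.2 < m → p ∉ Z := by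
        intro p hp hlt hpZ
        have hc := h2 p.1.2
        obtain ⟨r, hr1, hr2⟩ := mk (m - p.1.2) p.1.2 (by omega)
        obtain ⟨s, hs1, hs2⟩ := mk (m + 1 - p.1.2) p.1.2 (by omega)
        have hrZ : r ∈ Z := (ih (m + 1 - r.1.1) (by omega) r (by omega)).2 (by omega)
        have hsZ : s ∈ Z := (ih (m + 1 - s.1.1) (by omega) s (by omega)).2 (by omega)
        have hpr : p ≠ r := by
          intro h; rw [← h] at hr1; omega
        have hps : p ≠ s := by
          intro h; rw [← h] at hs1; omega
        have hrs : r ≠ s := by
          intro h; rw [← h] at hs1; omega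
        have hsub : ({p, r, s} : Finset (Box (m + 2))) ⊆ Z.filter fun q => q.1.2 = p.1.2 := by
          intro q hq
          simp only [Finset.mem_insert, Finset.mem_singleton] at hq
          rw [Finset.mem_filter]
          rcases hq with h | h | h
          · rw [h]; exact ⟨hpZ, rfl⟩
          · rw [h]; exact ⟨hrZ, hr2⟩
          · rw [h]; exact ⟨hsZ, hs2⟩
        have h3 := Finset.card_le_card hsub
        rw [Finset.card_eq_three.2 ⟨p, r, s, hpr, hps, hrs, rfl⟩, hc] at h3
        omega
      intro p hp
      constructor
      · intro hpZ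
        by_contra hlt
        exact hno p hp (by omega) hpZ
      · intro hge
        by_contra hpZ
        have hc := h1 p.1.1
        have hle : (Z.filter fun q => q.1.1 = p.1.1).card ≤ 1 := by
          rw [Finset.card_le_one]
          intro q hq r hr
          rw [Finset.mem_filter] at hq hr
          have hq3 : ¬ (q.1.1 + q.1.2 < m) := fun h => hno q (by omega) h hq.1
          have hr3 : ¬ (r.1.1 + r.1.2 < m) := fun h => hno r (by omega) h hr.1
          have hqp : q.1.2 ≠ p.1.2 := fun h => hpZ (hext q p hq.2 h ▸ hq.1)
          have hrp : r.1.2 ≠ p.1.2 := fun h => hpZ (hext r p hr.2 h ▸ hr.1)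
          have b1 := hbox q
          have b2 := hbox r
          have b3 := hbox p
          apply hext q r (by omega)
          omega
        rcases Nat.eq_zero_or_pos k with hk | hk
        · -- the row has a single box
          have h0 : (Z.filter fun q => q.1.1 = p.1.1) = ∅ := by
            rw [Finset.filter_eq_empty_iff]
            intro q hq h
            apply hpZ
            have b1 := hbox q
            have b3 := hbox p
            exact hext q p h (by omega) ▸ hq
          rw [h0, Finset.card_empty] at hc
          omega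
        · omega
  have hb := hbox p
  exact key (m + 1 - p.1.1) p (by omega)

end Vale.Agent.P197.Sx
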