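import Vale.Agent.P197.Sx.SDefs
import Vale.Agent.P197.Sx.Zig
import Vale.Agent.P197.Sx.SplitC

/-! Module C: splitting of the double antisymmetrised sum at the zigzag path. -/

namespace Vale.Agent.P197.Sx

open Equiv Finset

/-- (C) the splitting formula.  Numerically verified for `m = 1, 2` with random `K`, `U`, `v`.
Proof: a pair `(π, σ)` contributes only if the set `Z` of positions whose first label is `< 2`
equals the set of positions whose second label is `< 2`; `zigzag_unique` gives
`Z = {x + y ≥ m}`.  On the line `x` the two boxes `(x, m-x), (x, m+1-x)` of `Z` get the labels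
`0, 1` in some order and the other boxes get labels `≥ 2` (minus `2`: a permutation of the inner
line); the sign is the product of the two signs (moving two labels across `m - x` others is
even). -/
theorem ddS_step (m : ℕ) (q : ℂ) (U : ℕ → Matrix (Fin 2) (Fin 2) ℂ) (K : ℕ → ℕ → ℕ → ℂ)
    (v : Box (m + 2) → ℕ) :
    ddS (m + 2) (Kstep q U K) v =
      pval U m (fun i => v (pth m i)) * q ^ (∑ p : Box m, v (inc m p)) *
        ddS m K (fun p => v (inc m p)) :=
  ddS_step_pf m (fun Z h1 h2 p => zigzag_unique m Z h1 h2 p) q U K v

end Vale.Agent.P197.Sx
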