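import Vale.Agent.P197.Sx.Tab

/-! Module C, part 1: splitting permutations of the staircase along the zigzag. -/

namespace Vale.Agent.P197.Sx

open Equiv Finset

/-- the permutation acting by `τ1` on the inner boxes and by `τ2` on the path -/
noncomputable def glue (m : ℕ) (τ1 : Perm (Box m)) (τ2 : Perm (Fin (2 * m + 3))) :
    Perm (Box (m + 2)) := (boxSum m).permCongr (Perm.sumCongr τ1 τ2)

theorem boxSum_inl (m : ℕ) (p : Box m) : boxSum m (Sum.inl p) = inc m p := rfl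

theorem boxSum_inr (m : ℕ) (i : Fin (2 * m + 3)) : boxSum m (Sum.inr i) = pth m i := rfl

theorem glue_inc (m : ℕ) (τ1 : Perm (Box m)) (τ2 : Perm (Fin (2 * m + 3))) (p : Box m) :
    glue m τ1 τ2 (inc m p) = inc m (τ1 p) := by
  unfold glue
  rw [Equiv.permCongr_apply, ← boxSum_inl, Equiv.symm_apply_apply]
  simp [boxSum_inl]

theorem glue_pth (m : ℕ) (τ1 : Perm (Box m)) (τ2 : Perm (Fin (2 * m + 3)))
    (i : Fin (2 * m + 3)) : glue m τ1 τ2 (pth m i) = pth m (τ2 i) := by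
  unfold glue
  rw [Equiv.permCongr_apply, ← boxSum_inr, Equiv.symm_apply_apply]
  simp [boxSum_inr]

theorem sign_glue (m : ℕ) (τ1 : Perm (Box m)) (τ2 : Perm (Fin (2 * m + 3))) :
    Perm.sign (glue m τ1 τ2) = Perm.sign τ1 * Perm.sign τ2 := by
  unfold glue
  rw [Perm.sign_permCongr, Perm.sign_sumCongr]

theorem glue_injective (m : ℕ) {τ1 τ1' : Perm (Box m)} {τ2 τ2' : Perm (Fin (2 * m + 3))}
    (h : glue m τ1 τ2 = glue m τ1' τ2') : τ1 = τ1' ∧ τ2 = τ2' := by
  constructor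
  · ext1 p
    have h1 := congrArg (fun e : Perm (Box (m + 2)) => e (inc m p)) h
    simp only [glue_inc] at h1
    exact inc_injective m h1
  · ext1 i
    have h1 := congrArg (fun e : Perm (Box (m + 2)) => e (pth m i)) h
    simp only [glue_pth] at h1
    exact pth_injective m h1

theorem exists_glue (m : ℕ) (τ : Perm (Box (m + 2)))
    (h : ∀ p : Box (m + 2), m ≤ (τ p).1.1 + (τ p).1.2 ↔ m ≤ p.1.1 + p.1.2) :
    ∃ τ1 τ2, τ = glue m τ1 τ2 := by
  have h1 : Set.MapsTo ((boxSum m).symm.permCongr τ) (Set.range Sum.inl) (Set.range Sum.inl) := by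
    rintro _ ⟨p, rfl⟩
    rw [Equiv.permCongr_apply, Equiv.symm_symm, boxSum_inl]
    have h2 := h (inc m p)
    have h3 := inc_sum m p
    rcases box_cases m (τ (inc m p)) with ⟨p', hp'⟩ | ⟨i, hi⟩
    · rw [hp', ← boxSum_inl, Equiv.symm_apply_apply]
      exact ⟨p', rfl⟩
    · exfalso
      rw [hi] at h2
      have h4 := h2.mp (pth_sum m i)
      omega
  obtain ⟨⟨τ1, τ2⟩, h2⟩ := Perm.mem_sumCongrHom_range_of_perm_mapsTo_inl h1
  refine ⟨τ1, τ2, ?_⟩
  have h3 : Perm.sumCongr τ1 τ2 = (boxSum m).symm.permCongr τ := h2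
  unfold glue
  rw [h3]
  ext1 p
  simp [Equiv.permCongr_apply]

theorem split_sum {M : Type*} [AddCommMonoid M] (m : ℕ) (f g : Box (m + 2) → ℕ)
    (f1 g1 : Box m → ℕ) (f2 la : Fin (2 * m + 3) → ℕ) (π0 : Perm (Box (m + 2)))
    (h0 : ∀ p, f (π0 p) = f p) (hf1 : ∀ p, f (inc m p) = f1 p) (hf2 : ∀ i, f (pth m i) = f2 i)
    (hg1 : ∀ p, g (π0 (inc m p)) = g1 p + 2) (hg2 : ∀ i, g (π0 (pth m i)) = la i)
    (hla : ∀ i, la i < 2) (G : Perm (Box (m + 2)) → M) :
    ∑ π ∈ univ.filter (fun π : Perm (Box (m + 2)) => (∀ p, f (π p) = f p) ∧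
        ∀ p : Box (m + 2), g (π p) < 2 ↔ m ≤ p.1.1 + p.1.2), G π =
      ∑ τ1 ∈ univ.filter (fun τ : Perm (Box m) => ∀ p, f1 (τ p) = f1 p),
        ∑ τ2 ∈ univ.filter (fun τ : Perm (Fin (2 * m + 3)) => ∀ i, f2 (τ i) = f2 i),
          G (π0 * glue m τ1 τ2) := by
  have hZ : ∀ r : Box (m + 2), g (π0 r) < 2 ↔ m ≤ r.1.1 + r.1.2 := by
    intro r
    rcases box_cases m r with ⟨p', rfl⟩ | ⟨i, rfl⟩
    · rw [hg1]
      have := inc_sum m p'
      omega
    · rw [hg2]
      have h1 := pth_sum m i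
      have h2 := hla i
      omega
  rw [← Finset.sum_product']
  symm
  refine Finset.sum_bij (fun t _ => π0 * glue m t.1 t.2) ?_ ?_ ?_ ?_
  · rintro ⟨τ1, τ2⟩ ht
    simp only [mem_product, mem_filter, mem_univ, true_and] at ht ⊢
    obtain ⟨ht1, ht2⟩ := ht
    constructor
    · intro p
      rw [Perm.mul_apply, h0]
      rcases box_cases m p with ⟨p', rfl⟩ | ⟨i, rfl⟩
      · rw [glue_inc, hf1, hf1, ht1]
      · rw [glue_pth, hf2, hf2, ht2]
    · intro p
      rw [Perm.mul_apply, hZ]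
      rcases box_cases m p with ⟨p', rfl⟩ | ⟨i, rfl⟩
      · rw [glue_inc]
        have h1 := inc_sum m p'
        have h2 := inc_sum m (τ1 p')
        omega
      · rw [glue_pth]
        have h1 := pth_sum m i
        have h2 := pth_sum m (τ2 i)
        omega
  · rintro ⟨τ1, τ2⟩ _ ⟨τ1', τ2'⟩ _ h
    have h1 := mul_left_cancel h
    obtain ⟨h2, h3⟩ := glue_injective m h1
    exact Prod.ext h2 h3
  · intro π hπ
    simp only [mem_filter, mem_univ, true_and] at hπ
    obtain ⟨hπ1, hπ2⟩ := hπ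
    obtain ⟨τ1, τ2, hτ⟩ := exists_glue m (π0⁻¹ * π) (by
      intro p
      have h1 : π0 ((π0⁻¹ * π) p) = π p := by simp
      rw [← hZ, ← hπ2, h1])
    have hπ' : π = π0 * glue m τ1 τ2 := by
      rw [← hτ, mul_inv_cancel_left]
    refine ⟨(τ1, τ2), ?_, hπ'.symm⟩
    simp only [mem_product, mem_filter, mem_univ, true_and]
    constructor
    · intro p
      have h1 := hπ1 (inc m p)
      rw [hπ', Perm.mul_apply, h0, glue_inc, hf1, hf1] at h1
      exact h1
    · intro i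
      have h1 := hπ1 (pth m i)
      rw [hπ', Perm.mul_apply, h0, glue_pth, hf2, hf2] at h1
      exact h1
  · rintro ⟨τ1, τ2⟩ _
    rfl

end Vale.Agent.P197.Sx
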